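import Vale.Agent.P089.PartB1

/-! Walks and families of events. -/

namespace Vale.Agent.P089

open Finset

namespace B2

/-- A family of events. -/
structure Fam {I S B : Type} [Fintype I] [DecidableEq I] [Fintype B] (supp : B → Finset I)
    (bad : B → (I → S) → Prop) (Q : B → I → Finset I) (m : B → ℕ) (be s : ℝ) : Prop where
  hne : ∀ b, (supp b).Nonempty
  hdep : ∀ b f f', (∀ i ∈ supp b, f i = f' i) → bad b f → bad b f'
  hQ : ∀ b, ∀ e ∈ supp b, e ∈ Q b e ∧ Q b e ⊆ supp b
  hm : ∀ b, ∀ e ∈ supp b, ∀ (f0 : I → S) (F : Finset (I → S)),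
    (∀ f ∈ F, bad b f ∧ ∀ i, i ∉ Q b e → f i = f0 i) → F.card ≤ m b
  hs : ∀ e, ∑ b, (if e ∈ supp b then (m b : ℝ) * be / be ^ (Q b e).card else 0) ≤ s

theorem Fam.sum {I S B B' : Type} [Fintype I] [DecidableEq I] [Fintype B] [Fintype B']
    {supp : B → Finset I} {bad : B → (I → S) → Prop} {Q : B → I → Finset I} {m : B → ℕ}
    {supp' : B' → Finset I} {bad' : B' → (I → S) → Prop} {Q' : B' → I → Finset I} {m' : B' → ℕ}
    {be s s' : ℝ} (h : Fam supp bad Q m be s) (h' : Fam supp' bad' Q' m' be s') :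
    Fam (Sum.elim supp supp') (Sum.elim bad bad') (Sum.elim Q Q') (Sum.elim m m') be (s + s') where
  hne := by rintro (b | b); exacts [h.hne b, h'.hne b]
  hdep := by rintro (b | b); exacts [h.hdep b, h'.hdep b]
  hQ := by rintro (b | b); exacts [h.hQ b, h'.hQ b]
  hm := by rintro (b | b); exacts [h.hm b, h'.hm b]
  hs := fun e => by
    rw [Fintype.sum_sum_type]
    exact add_le_add (h.hs e) (h'.hs e)

theorem Fam.ex {I S B : Type} [Fintype I] [DecidableEq I] [Fintype S] [Fintype B] [Nonempty I]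
    {supp : B → Finset I} {bad : B → (I → S) → Prop} {Q : B → I → Finset I} {m : B → ℕ}
    {be s : ℝ} (h : Fam supp bad Q m be s) (hbe : 1 ≤ be) (hs : s ≤ Fintype.card S - be) :
    ∃ f : I → S, ∀ b, ¬ bad b f :=
  rosenfeld supp bad Q m be hbe h.hne h.hdep h.hQ h.hm fun e => by
    rw [sum_filter]
    exact (h.hs e).trans hs

theorem sum_le {B : Type} [Fintype B] (p : B → Prop) [DecidablePred p] (g : B → ℝ) (c : ℝ) (n : ℕ)
    (hc : 0 ≤ c) (h0 : ∀ b, ¬ p b → g b = 0) (h1 : ∀ b, p b → g b ≤ c)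
    (hn : (univ.filter p).card ≤ n) : ∑ b, g b ≤ n * c := by
  rw [← sum_filter_of_ne (p := p) fun b _ h => by_contra fun h' => h (h0 b h')]
  refine (sum_le_card_nsmul _ _ c fun b hb => h1 b (mem_filter.1 hb).2).trans ?_
  rw [nsmul_eq_mul]
  exact mul_le_mul_of_nonneg_right (Nat.cast_le.2 hn) hc

theorem indep {I : Type} [DecidableEq I] {l : ℕ} (a b : Fin l → I) (ha : Function.Injective a)
    (hb : Function.Injective b) (hab : ∀ i, a i ≠ b i) (i0 : Fin l) :
    ∃ J : Finset (Fin l), i0 ∈ J ∧ l ≤ 3 * J.card ∧ ∀ i ∈ J, ∀ j ∈ J, b i ≠ a j := by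
  obtain ⟨J, hJ, hmax⟩ := exists_max_image
    (univ.filter fun J : Finset (Fin l) => i0 ∈ J ∧ ∀ i ∈ J, ∀ j ∈ J, b i ≠ a j) card
    ⟨{i0}, by simpa using (hab i0).symm⟩
  obtain ⟨h0, h1⟩ := (mem_filter.1 hJ).2
  refine ⟨J, h0, ?_, h1⟩
  have c1 : (univ.filter fun k => b k ∈ J.image a).card ≤ J.card :=
    (card_le_card_of_injOn b (fun k hk => (mem_filter.1 hk).2) hb.injOn).trans card_image_le
  have c2 : (univ.filter fun k => a k ∈ J.image b).card ≤ J.card :=
    (card_le_card_of_injOn a (fun k hk => (mem_filter.1 hk).2) ha.injOn).trans card_image_le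
  have c3 : (univ : Finset (Fin l)) ⊆ J ∪ (univ.filter fun k => b k ∈ J.image a) ∪
      (univ.filter fun k => a k ∈ J.image b) := fun k _ => by
    by_contra hk
    simp only [mem_union, mem_filter, mem_univ, true_and, mem_image, not_or, not_exists,
      not_and] at hk
    have := hmax (insert k J) (mem_filter.2 ⟨mem_univ _, mem_insert_of_mem h0, fun i hi j hj => by
      rcases mem_insert.1 hi with rfl | hi' <;> rcases mem_insert.1 hj with rfl | hj'
      exacts [(hab _).symm, fun e => hk.1.2 j hj' e.symm, hk.2 i hi', h1 i hi' j hj']⟩)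
    rw [card_insert_of_notMem hk.1.1] at this
    omega
  have c4 := card_le_card c3
  have c5 := card_union_le (J ∪ (univ.filter fun k => b k ∈ J.image a))
    (univ.filter fun k => a k ∈ J.image b)
  have c6 := card_union_le J (univ.filter fun k => b k ∈ J.image a)
  rw [card_univ, Fintype.card_fin] at c4
  omega

theorem exists_Q {I S : Type} [DecidableEq I] {l : ℕ} (a b : Fin l → I)
    (ha : Function.Injective a) (hb : Function.Injective b) (hab : ∀ i, a i ≠ b i) (i0 : Fin l) :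
    ∃ Q : Finset I, a i0 ∈ Q ∧ Q ⊆ univ.image a ∧ l ≤ 3 * Q.card ∧ ∀ f f' : I → S,
      (∀ i, f (a i) = f (b i)) → (∀ i, f' (a i) = f' (b i)) → (∀ x, x ∉ Q → f x = f' x) →
      f = f' := by
  obtain ⟨J, h0, h1, h2⟩ := indep a b ha hb hab i0
  refine ⟨J.image a, mem_image_of_mem _ h0, image_subset_image (subset_univ _),
    by rwa [card_image_of_injective _ ha], fun f f' hf hf' h => funext fun x => ?_⟩
  by_cases hx : x ∈ J.image a
  · obtain ⟨i, hi, rfl⟩ := mem_image.1 hx
    rw [hf, hf']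
    refine h _ fun hb => ?_
    obtain ⟨j, hj, e⟩ := mem_image.1 hb
    exact h2 i hi j hj e.symm
  · exact h x hx

variable {N : ℕ} (M : Fin N × Fin 1000 → Fin N × Fin 1000)

/-- The edge of a half edge. -/
def ed (h : Fin N × Fin 1000) : Fin N × Fin 1000 := if toLex h ≤ toLex (M h) then h else M h

/-- Nonbacktracking walks. -/
def NB {j : ℕ} (o : Fin j → Fin N × Fin 1000) : Prop :=
  ∀ a b : Fin j, b.1 = a.1 + 1 → (o b).1 = (M (o a)).1 ∧ o b ≠ M (o a)

variable {M}

theorem ed_or (h : Fin N × Fin 1000) : ed M h = h ∨ ed M h = M h := by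
  unfold ed
  split_ifs <;> simp

theorem ed_M (hM : ∀ h, M (M h) = h) (h : Fin N × Fin 1000) : ed M (M h) = ed M h := by
  unfold ed
  rw [hM]
  split_ifs with h1 h2 h2
  · exact toLex.injective (le_antisymm h1 h2)
  · rfl
  · rfl
  · exact absurd (le_of_not_ge h1) h2

theorem ed_eq (hM : ∀ h, M (M h) = h) {h h' : Fin N × Fin 1000} (e : ed M h = ed M h') :
    h' = h ∨ h' = M h := by
  rcases ed_or (M := M) h with h1 | h1 <;> rcases ed_or (M := M) h' with h2 | h2 <;>
    rw [h1, h2] at e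
  · exact Or.inl e.symm
  · exact Or.inr (by rw [e, hM])
  · exact Or.inr e.symm
  · exact Or.inl (by rw [← hM h', ← e, hM])

theorem ed_mem (hM : ∀ h, M (M h) = h) {h e : Fin N × Fin 1000} (he : ed M h = e) :
    h = e ∨ h = M e := by
  rcases ed_or (M := M) h with h1 | h1 <;> rw [h1] at he
  · exact Or.inl he
  · exact Or.inr (by rw [← he, hM])

theorem gir0 {g : ℕ} (hg : Gir M g) (h0 : 0 < g) (h : Fin N × Fin 1000) : (M h).1 ≠ h.1 :=
  hg 0 (fun _ => h) h0 fun _ hj => absurd hj (Nat.not_lt_zero _)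

theorem gir_fin {g j : ℕ} (hg : Gir M g) (hj : j ≤ g) {o : Fin j → Fin N × Fin 1000}
    (ho : NB M o) (a b : Fin j) (hab : a.1 ≤ b.1) : (M (o b)).1 ≠ (o a).1 := by
  have := hg (b.1 - a.1) (fun t => o ⟨min (a.1 + t) b.1, by omega⟩) (by omega) fun t ht =>
    ho _ _ (by simp only; omega)
  rwa [show (⟨min (a.1 + (b.1 - a.1)) b.1, by omega⟩ : Fin j) = b from Fin.ext (by simp only; omega),
    show (⟨min (a.1 + 0) b.1, by omega⟩ : Fin j) = a from Fin.ext (by simp only; omega)] at this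

theorem ed_inj (hM : ∀ h, M (M h) = h) {g j : ℕ} (hg : Gir M g) (hj : j ≤ g)
    {o : Fin j → Fin N × Fin 1000} (ho : NB M o) : Function.Injective fun i => ed M (o i) := by
  have key : ∀ a b : Fin j, a.1 < b.1 → ed M (o a) ≠ ed M (o b) := fun a b hab e => by
    have h1 := ho ⟨b.1 - 1, by omega⟩ b (by simp only; omega)
    rcases ed_eq hM e with h | h
    · exact gir_fin hg hj ho a ⟨b.1 - 1, by omega⟩ (by simp only; omega) (by rw [← h1.1, h])
    · have h2 := ho a ⟨a.1 + 1, by omega⟩ rfl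
      by_cases hb : b.1 = a.1 + 1
      · exact (ho a b hb).2 h
      · exact gir_fin hg hj ho ⟨a.1 + 1, by omega⟩ ⟨b.1 - 1, by omega⟩ (by simp only; omega)
          (by rw [← h1.1, h, h2.1])
  intro a b e
  rcases lt_trichotomy a.1 b.1 with h | h | h
  exacts [absurd e (key a b h), Fin.ext h, absurd e.symm (key b a h)]

open Classical in
theorem count1 (hM : ∀ h, M (M h) = h) {j : ℕ} (i : Fin j) (h : Fin N × Fin 1000) :
    (univ.filter fun o : Fin j → Fin N × Fin 1000 => NB M o ∧ o i = h).card ≤ 1000 ^ j := by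
  refine (card_le_card_of_injOn (t := (univ : Finset (Fin j → Fin 1000)))
    (fun o k => if k.1 < i.1 then (M (o k)).2 else (o k).2) (fun _ _ => mem_univ _)
    fun o ho o' ho' e => ?_).trans (by simp)
  obtain ⟨h1, h2⟩ := (mem_filter.1 ho).2
  obtain ⟨h1', h2'⟩ := (mem_filter.1 ho').2
  have up : ∀ t (k : Fin j), k.1 = i.1 + t → o k = o' k := fun t => by
    induction t with
    | zero => intro k hk; rw [show k = i from Fin.ext hk, h2, h2']
    | succ t ih =>
      intro k hk
      have := congrFun e k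
      simp only [show ¬ k.1 < i.1 by omega, if_false] at this
      refine Prod.ext ?_ this
      rw [(h1 ⟨i.1 + t, by omega⟩ k hk).1, (h1' ⟨i.1 + t, by omega⟩ k hk).1, ih _ rfl]
  have dn : ∀ t (k : Fin j), k.1 + t = i.1 → o k = o' k := fun t => by
    induction t with
    | zero => intro k hk; exact up 0 k hk
    | succ t ih =>
      intro k hk
      have := congrFun e k
      simp only [show k.1 < i.1 by omega, if_true] at this
      rw [← hM (o k), ← hM (o' k)]
      refine congrArg M (Prod.ext ?_ this)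
      rw [← (h1 k ⟨k.1 + 1, by omega⟩ rfl).1, ← (h1' k ⟨k.1 + 1, by omega⟩ rfl).1,
        ih _ (by simp only; omega)]
  funext k
  rcases le_total i.1 k.1 with hk | hk
  exacts [up (k.1 - i.1) k (by omega), dn (i.1 - k.1) k (by omega)]

open Classical in
theorem count2 (hM : ∀ h, M (M h) = h) (j : ℕ) (e : Fin N × Fin 1000) :
    (univ.filter fun o : Fin j → Fin N × Fin 1000 =>
      NB M o ∧ e ∈ univ.image fun i => ed M (o i)).card ≤ 2 * j * 1000 ^ j := by
  refine (card_le_card (t := ((univ : Finset (Fin j)) ×ˢ ({e, M e} : Finset _)).biUnion fun p =>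
    univ.filter fun o : Fin j → Fin N × Fin 1000 => NB M o ∧ o p.1 = p.2) fun o ho => ?_).trans
    ((card_biUnion_le_card_mul _ _ _ fun p _ => count1 hM p.1 p.2).trans ?_)
  · obtain ⟨h1, h2⟩ := (mem_filter.1 ho).2
    obtain ⟨i, -, hi⟩ := mem_image.1 h2
    exact mem_biUnion.2 ⟨(i, o i), mem_product.2 ⟨mem_univ _, by simpa using ed_mem hM hi⟩,
      mem_filter.2 ⟨mem_univ _, h1, rfl⟩⟩
  · rw [card_product, card_univ, Fintype.card_fin, mul_comm 2]
    exact Nat.mul_le_mul_right _ (Nat.mul_le_mul_left _ card_le_two)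

open Classical in
theorem count3 (hM : ∀ h, M (M h) = h) {j : ℕ} (i : Fin j) :
    (univ.filter fun o : Fin j → Fin N × Fin 1000 => NB M o).card ≤ N * 1000 * 1000 ^ j := by
  refine (card_le_card (t := (univ : Finset (Fin N × Fin 1000)).biUnion fun p =>
    univ.filter fun o : Fin j → Fin N × Fin 1000 => NB M o ∧ o i = p) fun o ho => ?_).trans
    ((card_biUnion_le_card_mul _ _ _ fun p _ => count1 hM i p).trans (by simp))
  exact mem_biUnion.2 ⟨o i, mem_univ _, mem_filter.2 ⟨mem_univ _, (mem_filter.1 ho).2, rfl⟩⟩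

theorem walk {A : Type} (lab : Fin N × Fin 1000 → A) {v z : Fin N} {u : List A}
    (h : Rd (EM M lab) v u z) : ∃ o : ℕ → Fin N × Fin 1000, (o 0).1 = v ∧ (o u.length).1 = z ∧
      ∀ k (hk : k < u.length), (o (k + 1)).1 = (M (o k)).1 ∧ lab (o k) = u[k] := by
  induction u generalizing v with
  | nil => exact ⟨fun _ => (v, 0), rfl, h, fun k hk => absurd hk (Nat.not_lt_zero _)⟩
  | cons a u ih =>
    obtain ⟨y, ⟨i, hi, hy⟩, h⟩ := h
    obtain ⟨o, h0, h1, h2⟩ := ih h
    refine ⟨fun k => Nat.casesOn k (v, i) o, rfl, h1, fun k hk => ?_⟩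
    cases k with
    | zero => exact ⟨h0.trans hy.symm, hi⟩
    | succ k => exact h2 k (Nat.lt_of_succ_lt_succ hk)

end B2

end Vale.Agent.P089
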