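import Vale.Agent.P089.PartC0

/-!
Hanging words and the identification of new points.
-/

namespace Vale.Agent.P089.C1

open Finset

variable {A W : Type} [Fintype A] {L : Lab A W} {Y : Layer L}

def Hang (Y : Layer L) (p : Y.S × W) (w : W) (y : Y.S) (v : W) (r : List A) : Prop :=
  Cl L Y.hor p (y, v) ∧ Red L.io r ∧ Rd L.E v r w ∧ ∃ a r', r = a :: r' ∧ ∀ y', ¬ Y.hor y a y'

omit [Fintype A] in
theorem rd_last {α : Type} {E : α → A → α → Prop} {x z : α} {u : List A} (h : Rd E x u z) {b : A}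
    (hb : b ∈ u.getLast?) : ∃ y, E y b z := by
  obtain ⟨u', rfl⟩ : ∃ u', u = u' ++ [b] := ⟨_, (List.dropLast_append_getLast? b hb).symm⟩
  obtain ⟨y, -, h2⟩ := rd_append.1 h
  exact ⟨y, rd_single.1 h2⟩

theorem hang_uniq {p : Y.S × W} {w : W} {y y' : Y.S} {v v' : W} {r r' : List A}
    (hp : ¬ Y.pres p) (h : Hang Y p w y v r) (h' : Hang Y p w y' v' r')
    (hl : r.length + r'.length ≤ 4 * L.len (L.comp p.2)) : y = y' ∧ v = v' ∧ r = r' := by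
  obtain ⟨h1, h2, h3, a, r1, rfl, h4⟩ := h
  obtain ⟨g1, g2, g3, a', r1', rfl, g4⟩ := h'
  obtain ⟨t, t1, t2, t3⟩ := Y.short hp h1 g1
  have e : L.comp v = L.comp p.2 := cl_comp h1
  have hr : Red L.io (t ++ a' :: r1') := by
    refine red_append.2 ⟨t1, g2, fun b hb c hc e => ?_⟩
    obtain ⟨q, hq⟩ := rd_last t3 hb
    obtain rfl : a' = c := by simpa using hc
    exact g4 q.1 (e ▸ Y.hsymm hq.1)
  have := rd_uniq L h2 hr h3 (rd_append.2 ⟨v', rd_snd t3, g3⟩)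
    (by rw [e, List.length_append]; omega)
  cases t with
  | nil =>
    have e2 : (y, v) = (y', v') := t3
    exact ⟨congrArg Prod.fst e2, congrArg Prod.snd e2, this⟩
  | cons b t =>
    obtain ⟨q, hq, -⟩ := t3
    obtain rfl : a = b := by simpa using (List.cons.inj this).1
    exact absurd hq.1 (h4 _)

theorem hang_notT {p : Y.S × W} {w : W} {y : Y.S} {v : W} {r : List A}
    (hp : ¬ Y.pres p) (h : Hang Y p w y v r) (hl : r.length ≤ 4 * L.len (L.comp p.2)) :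
    Y.New p w := by
  obtain ⟨h1, h2, h3, a, r1, rfl, h4⟩ := h
  have e : L.comp v = L.comp p.2 := cl_comp h1
  refine ⟨hp, (rd_comp L h3).trans e, fun ⟨y', hy⟩ => ?_⟩
  obtain ⟨t, t1, t2, t3⟩ := Y.short hp h1 hy
  obtain rfl := rd_uniq L h2 t1 h3 (rd_snd t3) (by rw [e]; omega)
  obtain ⟨q, hq, -⟩ := t3
  exact h4 _ hq.1

theorem hang_pre {p : Y.S × W} {w : W} {y : Y.S} {v : W} {r1 r2 : List A}
    (h : Hang Y p w y v (r1 ++ r2)) (hne : r1 ≠ []) :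
    ∃ z, Hang Y p z y v r1 ∧ Rd L.E z r2 w := by
  obtain ⟨h1, h2, h3, a, r, e, h4⟩ := h
  obtain ⟨z, z1, z2⟩ := rd_append.1 h3
  refine ⟨z, ⟨h1, (red_append.1 h2).1, z1, ?_⟩, z2⟩
  cases r1 with
  | nil => exact absurd rfl hne
  | cons b r1 => exact ⟨b, r1, rfl, (List.cons.inj e).1 ▸ h4⟩

theorem hang_ext {p : Y.S × W} {w w' : W} {y : Y.S} {v : W} {r u : List A}
    (h : Hang Y p w y v r) (hu : Rd L.E w u w') (hr : Red L.io (r ++ u)) :
    Hang Y p w' y v (r ++ u) := by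
  obtain ⟨h1, -, h3, a, r', rfl, h4⟩ := h
  exact ⟨h1, hr, rd_append.2 ⟨w, h3, hu⟩, a, r' ++ u, rfl, h4⟩

theorem hang_one {p : Y.S × W} {w : W} {y : Y.S} {v : W} {a : A} (hn : Y.New p w)
    (h : Cl L Y.hor p (y, v)) (e : L.E v a w) : Hang Y p w y v [a] :=
  ⟨h, red_single, rd_single.2 e, a, [], rfl, fun y' hy =>
    hn.2.2 ⟨y', cl_trans h ⟨[a], rd_single.2 ⟨hy, e⟩⟩⟩⟩

/-- One step from a hanging point. -/
theorem hang_step {p : Y.S × W} {w w' : W} {y : Y.S} {v : W} {r : List A} {b : A}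
    (h : Hang Y p w y v r) (e : L.E w b w') (hn : ¬ Y.T p w') :
    Hang Y p w' y v (r ++ [b]) ∨ ∃ r', r = r' ++ [L.io b] ∧ Hang Y p w' y v r' := by
  by_cases hr : Red L.io (r ++ [b])
  · exact Or.inl (hang_ext h (rd_single.2 e) hr)
  · right
    rw [red_append] at hr
    push Not at hr
    obtain ⟨c, hc, d, hd, e2⟩ := hr h.2.1 red_single
    obtain rfl : b = d := by simpa using hd
    obtain ⟨r', rfl⟩ : ∃ r', r = r' ++ [c] := ⟨_, (List.dropLast_append_getLast? c hc).symm⟩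
    subst e2
    refine ⟨r', by rw [L.io_io], ?_⟩
    by_cases hne : r' = []
    · subst hne
      have e3 : L.E v c w := rd_single.1 h.2.2.1
      obtain rfl := L.canc _ _ _ _ e3 e
      exact absurd ⟨y, h.1⟩ hn
    · obtain ⟨z, z1, z2⟩ := hang_pre h hne
      obtain rfl := L.canc _ _ _ _ (rd_single.1 z2) e
      exact z1

def Eqv (Y : Layer L) (p : Y.S × W) (w1 : W) (q : Y.S × W) (w2 : W) : Prop :=
  ∃ y v1 v2 u, Cl L Y.hor p (y, v1) ∧ Cl L Y.hor q (y, v2) ∧ Rd L.E v1 u w1 ∧ Rd L.E v2 u w2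

theorem rd_pair {v1 v2 w1 w2 : W} {u : List A} (h1 : Rd L.E v1 u w1) (h2 : Rd L.E v2 u w2) :
    Rd (fun x a z => L.E x.1 a z.1 ∧ L.E x.2 a z.2) (v1, v2) u (w1, w2) := by
  induction u generalizing v1 v2 with
  | nil => exact Prod.ext h1 h2
  | cons a u ih =>
    obtain ⟨z1, a1, a2⟩ := h1
    obtain ⟨z2, b1, b2⟩ := h2
    exact ⟨(z1, z2), ⟨a1, b1⟩, ih a2 b2⟩

theorem gate {p q : Y.S × W} {w1 w2 : W} (hp : Y.New p w1) (h : Eqv Y p w1 q w2)
    (hc : ¬ Cl L Y.hor p q) : ∃ y v1 v2 r, Hang Y p w1 y v1 r ∧ Hang Y q w2 y v2 r ∧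
      r.length < L.len (L.comp w1) ∧ r.length < L.len (L.comp w2) := by
  obtain ⟨y, v1, v2, u0, h1, h2, h3, h4⟩ := h
  obtain ⟨u, u1, -, u3⟩ := rd_red (io := L.io) (fun x a y z h h' =>
    Prod.ext (L.canc _ _ _ _ h.1 h'.1) (L.canc _ _ _ _ h.2 h'.2)) (rd_pair h3 h4)
  have h3' : Rd L.E v1 u w1 := rd_mono Prod.fst (fun _ _ _ h => h.1) u3
  have h4' : Rd L.E v2 u w2 := rd_mono Prod.snd (fun _ _ _ h => h.2) u3
  clear u3 h3 h4
  induction u generalizing y v1 v2 with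
  | nil => exact absurd ⟨y, (show v1 = w1 from h3') ▸ h1⟩ hp.2.2
  | cons a u ih =>
    by_cases hh : ∃ y', Y.hor y a y'
    · obtain ⟨y', hy⟩ := hh
      obtain ⟨z1, a1, a2⟩ := h3'
      obtain ⟨z2, b1, b2⟩ := h4'
      exact ih y' z1 z2 (cl_trans h1 ⟨[a], rd_single.2 ⟨hy, a1⟩⟩)
        (cl_trans h2 ⟨[a], rd_single.2 ⟨hy, b1⟩⟩) (red_cons.1 u1).2 a2 b2
    · push Not at hh
      have hne : v1 ≠ v2 := fun e => hc (cl_trans h1 (Y.cl_symm (e ▸ h2)))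
      refine ⟨y, v1, v2, a :: u, ⟨h1, u1, h3', a, u, rfl, hh⟩, ⟨h2, u1, h4', a, u, rfl, hh⟩, ?_, ?_⟩
      · rw [rd_comp L h3']; exact L.piece hne u1 h3' h4'
      · rw [rd_comp L h4']; exact L.piece hne.symm u1 h4' h3'

theorem eqv_same {p q : Y.S × W} {w1 w2 : W} (hp : ¬ Y.pres p) (h : Eqv Y p w1 q w2)
    (hc : Cl L Y.hor p q) : w1 = w2 := by
  obtain ⟨y, v1, v2, u, h1, h2, h3, h4⟩ := h
  obtain rfl := Y.sinj hp h1 (cl_trans hc h2)
  exact rd_func (E := L.E) (fun _ _ _ _ => L.func) h3 h4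

theorem eqv_cl (hc : L.Conn) {p q : Y.S × W} {w : W} (hp : L.comp w = L.comp p.2)
    (h : Cl L Y.hor p q) : Eqv Y p w q w := by
  obtain ⟨u, hu⟩ := hc p.2 w hp.symm
  exact ⟨p.1, p.2, p.2, u, cl_refl _ _ _, Y.cl_symm h, hu, hu⟩

theorem eqv_symm {p q : Y.S × W} {w1 w2 : W} (h : Eqv Y p w1 q w2) : Eqv Y q w2 p w1 := by
  obtain ⟨y, v1, v2, u, h1, h2, h3, h4⟩ := h
  exact ⟨y, v2, v1, u, h2, h1, h4, h3⟩

theorem eqv_left {p p' q : Y.S × W} {w1 w2 : W} (hc : Cl L Y.hor p' p) (h : Eqv Y p w1 q w2) :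
    Eqv Y p' w1 q w2 := by
  obtain ⟨y, v1, v2, u, h1, h2, h3, h4⟩ := h
  exact ⟨y, v1, v2, u, cl_trans hc h1, h2, h3, h4⟩

theorem eqv_hang {p q : Y.S × W} {w1 w2 : W} {y : Y.S} {v1 v2 : W} {r : List A}
    (h1 : Hang Y p w1 y v1 r) (h2 : Hang Y q w2 y v2 r) : Eqv Y p w1 q w2 :=
  ⟨y, v1, v2, r, h1.1, h2.1, h1.2.2.1, h2.2.2.1⟩

theorem eqv_trans {p q r : Y.S × W} {w1 w2 w3 : W} (hp : Y.New p w1) (hq : Y.New q w2)
    (h : Eqv Y p w1 q w2) (h' : Eqv Y q w2 r w3) : Eqv Y p w1 r w3 := by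
  by_cases c1 : Cl L Y.hor p q
  · obtain rfl := eqv_same hp.1 h c1
    exact eqv_left c1 h'
  by_cases c2 : Cl L Y.hor q r
  · obtain rfl := eqv_same hq.1 h' c2
    exact eqv_symm (eqv_left (Y.cl_symm c2) (eqv_symm h))
  obtain ⟨y, v1, v2, s, a1, a2, -, a4⟩ := gate hp h c1
  obtain ⟨y', v2', v3, s', b1, b2, b3, -⟩ := gate hq h' c2
  obtain ⟨rfl, rfl, rfl⟩ := hang_uniq hq.1 a2 b1 (by rw [← hq.2.1]; omega)
  exact eqv_hang a1 b2

/-- A short hanging word of one representative is a hanging word of all representatives. -/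
theorem hang_all {p q : Y.S × W} {w1 w2 : W} {y : Y.S} {v : W} {r : List A} (hp : Y.New p w1)
    (h : Eqv Y p w1 q w2) (hh : Hang Y p w1 y v r) (hl : r.length ≤ 3 * L.len (L.comp w1)) :
    ∃ v', Hang Y q w2 y v' r := by
  by_cases c1 : Cl L Y.hor p q
  · obtain rfl := eqv_same hp.1 h c1
    exact ⟨v, cl_trans (Y.cl_symm c1) hh.1, hh.2⟩
  obtain ⟨y', v1, v2, s, a1, a2, a3, -⟩ := gate hp h c1
  obtain ⟨rfl, rfl, rfl⟩ := hang_uniq hp.1 hh a1 (by rw [← hp.2.1]; omega)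
  exact ⟨v2, a2⟩

theorem exists_red (L : Lab A W) (w : W) (n : ℕ) :
    ∃ u z, Red L.io u ∧ u.length = n ∧ Rd L.E w u z := by
  classical
  suffices h : ∀ c : A, ∃ u z, Red L.io (c :: u) ∧ u.length = n ∧ Rd L.E w u z by
    obtain ⟨a, -⟩ := card_pos.1 (show 0 < (univ.filter fun a => ∃ w', L.E w a w').card by
      rw [L.deg]; norm_num)
    obtain ⟨u, z, h1, h2⟩ := h a
    exact ⟨u, z, (red_cons.1 h1).2, h2⟩
  induction n generalizing w with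
  | zero => exact fun c => ⟨[], w, red_single, rfl, rfl⟩
  | succ n ih =>
    intro c
    obtain ⟨a, ha, hne⟩ := exists_mem_ne (show 1 < (univ.filter fun a => ∃ w', L.E w a w').card by
      rw [L.deg]; norm_num) (L.io c)
    obtain ⟨w', e⟩ := (mem_filter.1 ha).2
    obtain ⟨u, z, h1, h2, h3⟩ := ih w' a
    exact ⟨a :: u, z, red_cons.2 ⟨fun b hb => by
      obtain rfl : a = b := by simpa using hb
      exact hne, h1⟩, by simp [h2], w', e, h3⟩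

end Vale.Agent.P089.C1
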