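import Vale.Agent.P089.PartC0

/-! Two graph lemmas: balls are small, and an owned point has one neighbour near the centre. -/

namespace Vale.Agent.P089

open Finset

variable {A W : Type} [Fintype A]

namespace C3b

theorem ball (L : Lab A W) (m : ℕ) : ∀ w0 : W, ∃ F : Finset W, F.card ≤ 1001 ^ m ∧
    ∀ u w, u.length ≤ m → Rd L.E w0 u w → w ∈ F := by
  classical
  induction m with
  | zero =>
    intro w0
    refine ⟨{w0}, by simp, fun u w hu h => ?_⟩
    have : u = [] := List.length_eq_zero_iff.1 (by omega)
    subst this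
    exact mem_singleton.2 (Eq.symm h)
  | succ m ih =>
    intro w0
    choose F hF1 hF2 using ih
    let nx : A → W := fun a => if h : ∃ w', L.E w0 a w' then h.choose else w0
    have hnx : ∀ a w', L.E w0 a w' → nx a = w' := fun a w' h => by
      have h' : ∃ w', L.E w0 a w' := ⟨w', h⟩
      show (if h : ∃ w', L.E w0 a w' then h.choose else w0) = w'
      rw [dif_pos h']
      exact L.func h'.choose_spec h
    refine ⟨F w0 ∪ (univ.filter fun a => ∃ w', L.E w0 a w').biUnion fun a => F (nx a), ?_, ?_⟩
    · refine (card_union_le _ _).trans ?_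
      have h1 := card_biUnion_le_card_mul (univ.filter fun a => ∃ w', L.E w0 a w')
        (fun a => F (nx a)) (1001 ^ m) fun a _ => hF1 _
      have h2 : (univ.filter fun a => ∃ w', L.E w0 a w').card = 1000 := by
        rw [← L.deg w0]
      rw [h2] at h1
      have := hF1 w0
      rw [pow_succ]
      omega
    · intro u w hu h
      cases u with
      | nil => exact mem_union_left _ (hF2 w0 [] w (Nat.zero_le _) h)
      | cons a u =>
        obtain ⟨z, h1, h2⟩ := h
        refine mem_union_right _ (mem_biUnion.2 ⟨a, mem_filter.2 ⟨mem_univ _, z, h1⟩, ?_⟩)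
        rw [hnx a z h1]
        exact hF2 z u w (by simpa using hu) h2

omit [Fintype A] in
theorem rd_both {E : W → A → W → Prop} {R : W → Prop} {w : W} (hw : ¬ R w) :
    ∀ (u : List A) (x y : W), x ≠ w → Rd (fun z a z' => E z a z' ∧ R z') x u y →
      Rd (fun z a z' => E z a z' ∧ z ≠ w ∧ z' ≠ w) x u y := by
  intro u
  induction u with
  | nil => intro x y _ h; exact h
  | cons a u ih =>
    intro x y hx h
    obtain ⟨z, ⟨h1, h2⟩, h3⟩ := h
    have hz : z ≠ w := fun e => hw (e ▸ h2)
    exact ⟨z, ⟨h1, hx, hz⟩, ih z y hz h3⟩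

theorem one (L : Lab A W) {R R' : W → Prop} {w w0 z z' : W} {a a' : A} {u u' : List A}
    (hw : ¬ R w) (hw' : ¬ R' w) (h0 : w0 ≠ w) (e : L.E w a z) (e' : L.E w a' z')
    (r : Rd (fun z a z' => L.E z a z' ∧ R z') w0 u z)
    (r' : Rd (fun z a z' => L.E z a z' ∧ R' z') w0 u' z')
    (hu : u.length ≤ 2 * L.len (L.comp w)) (hu' : u'.length ≤ 2 * L.len (L.comp w)) : a = a' := by
  by_contra hne
  have r1 := rd_both hw u _ _ h0 r
  have r2 := rd_both hw' u' _ _ h0 r'
  have r3 := rd_rev (io := L.io) (fun x a y h => ⟨L.symm h.1, h.2.2, h.2.1⟩) r1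
  obtain ⟨t, t1, t2, t3⟩ := rd_red (io := L.io)
    (fun x a y z h h' => L.canc x a y z h.1 h'.1) (rd_append.2 ⟨_, r3, r2⟩)
  have t4 : Rd L.E z t z' := rd_mono id (fun _ _ _ h => h.1) t3
  have hr : Rd L.E w (a :: (t ++ [L.io a'])) w :=
    ⟨z, e, rd_append.2 ⟨z', t4, w, L.symm e', rfl⟩⟩
  have hred : Red L.io (a :: (t ++ [L.io a'])) := by
    refine red_cons.2 ⟨fun b hb => ?_, red_append.2 ⟨t1, red_single, fun b hb c hc => ?_⟩⟩
    · cases t with
      | nil =>
        have : L.io a' = b := by simpa using hb
        subst this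
        intro h
        exact hne (by simpa [L.io_io] using (congrArg L.io h).symm)
      | cons c t =>
        have : c = b := by simpa using hb
        subst this
        obtain ⟨y, ⟨h1, _, h2⟩, _⟩ := t3
        intro h
        exact h2 (L.canc w a z y e (h ▸ h1))
    · have hc' : L.io a' = c := by simpa using hc
      subst hc'
      obtain ⟨s, rfl⟩ : ∃ s, t = s ++ [b] := by
        rcases List.eq_nil_or_concat t with h | ⟨s, d, h⟩
        · subst h; simp at hb
        · subst h
          have : d = b := by simpa using hb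
          exact ⟨s, by simp [this]⟩
      obtain ⟨y, _, y', ⟨h1, h2, _⟩, h3⟩ := rd_append.1 t3
      have h3 : y' = z' := h3
      subst h3
      intro h
      have hb' : a' = b := by simpa [L.io_io] using congrArg L.io h
      subst hb'
      exact h2 (L.func (L.symm h1) (L.symm e'))
  have := L.girth hred hr (by simp)
  have h2 := L.len_pos (L.comp w)
  simp only [List.length_cons, List.length_append, List.length_reverse, List.length_map,
    List.length_nil] at this t2
  omega

end C3b

end Vale.Agent.P089
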