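import Mathlib

/-!
Definitions for a group whose reduced algebra contains a projection of irrational trace.
-/

namespace Vale.Agent.P089

open Finset

/-- Reading a word along a labelled relation. -/
def Rd {α A : Type} (E : α → A → α → Prop) : α → List A → α → Prop
  | x, [], y => x = y
  | x, a :: u, y => ∃ z, E x a z ∧ Rd E z u y

/-- Reduced words. -/
def Red {A : Type} (io : A → A) (u : List A) : Prop := u.IsChain fun a b => b ≠ io a

/-- No closed nonbacktracking walk of length between `1` and `g`. -/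
def Gir {N : ℕ} (M : Fin N × Fin 1000 → Fin N × Fin 1000) (g : ℕ) : Prop :=
  ∀ (k : ℕ) (o : ℕ → Fin N × Fin 1000), k < g →
    (∀ j, j < k → (o (j + 1)).1 = (M (o j)).1 ∧ o (j + 1) ≠ M (o j)) → (M (o k)).1 ≠ (o 0).1

/-- The labelled relation of a labelled matching. -/
def EM {N : ℕ} {A : Type} (M : Fin N × Fin 1000 → Fin N × Fin 1000)
    (lab : Fin N × Fin 1000 → A) (v : Fin N) (a : A) (v' : Fin N) : Prop :=
  ∃ i, lab (v, i) = a ∧ (M (v, i)).1 = v'

def flip {S : Type} (a : S × Bool) : S × Bool := (a.1, !a.2)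

open Classical in
/-- A sequence of labelled expanders with small cancellation. -/
structure Lab (A W : Type) [Fintype A] where
  io : A → A
  E : W → A → W → Prop
  comp : W → ℕ
  Vn : ℕ → Finset W
  len : ℕ → ℕ
  io_io : ∀ a, io (io a) = a
  mem_Vn : ∀ w n, w ∈ Vn n ↔ comp w = n
  ne : ∀ n, (Vn n).Nonempty
  len_pos : ∀ n, 2 ≤ len n
  symm : ∀ {w a w'}, E w a w' → E w' (io a) w
  func : ∀ {w a w1 w2}, E w a w1 → E w a w2 → w1 = w2
  comp_eq : ∀ {w a w'}, E w a w' → comp w' = comp w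
  girth : ∀ {w u}, Red io u → Rd E w u w → u ≠ [] → 6 * len (comp w) ≤ u.length
  piece : ∀ {w w' u z z'}, w ≠ w' → Red io u → Rd E w u z → Rd E w' u z' →
    u.length < len (comp w)
  deg : ∀ w, (univ.filter fun a => ∃ w', E w a w').card = 1000
  exp : ∀ n (B : Finset W), B ⊆ Vn n → 2 * B.card ≤ (Vn n).card →
    ((B ×ˢ univ).filter fun p : W × A => ∃ w' ∈ B, E p.1 p.2 w').card ≤ 996 * B.card

variable {A W : Type} [Fintype A]

def Lab.Occ (L : Lab A W) : Prop := ∀ a, ∃ w w', L.E w a w'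

def Lab.Conn (L : Lab A W) : Prop := ∀ w w', L.comp w = L.comp w' → ∃ u, Rd L.E w u w'

/-! ### Layers of the development -/

/-- Steps of pairs. -/
def PE (L : Lab A W) {S : Type} (hor : S → A → S → Prop) (p : S × W) (a : A) (q : S × W) : Prop :=
  hor p.1 a q.1 ∧ L.E p.2 a q.2

def Cl (L : Lab A W) {S : Type} (hor : S → A → S → Prop) (p q : S × W) : Prop :=
  ∃ u, Rd (PE L hor) p u q

structure Layer (L : Lab A W) where
  S : Type
  hor : S → A → S → Prop
  dn : S → A → Prop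
  pres : S × W → Prop
  hsymm : ∀ {y a y'}, hor y a y' → hor y' (L.io a) y
  hfunc : ∀ {y a y1 y2}, hor y a y1 → hor y a y2 → y1 = y2
  hd : ∀ {y a y'}, hor y a y' → ¬ dn y a
  p1 : ∀ {p a q}, pres p → PE L hor p a q → pres q
  p2 : ∀ {p a w'}, pres p → L.E p.2 a w' → dn p.1 a ∨ ∃ y', hor p.1 a y'
  p3 : ∀ {p a w'}, ¬ pres p → L.E p.2 a w' → ¬ dn p.1 a
  cen : ∀ p, ¬ pres p → ∃ p0, Cl L hor p p0 ∧ ∀ q, Cl L hor p q →
    ∃ u, Red L.io u ∧ u.length < L.len (L.comp p.2) ∧ Rd (PE L hor) p0 u q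
  sinj : ∀ {p y w1 w2}, ¬ pres p → Cl L hor p (y, w1) → Cl L hor p (y, w2) → w1 = w2
  ne : ∃ p, ¬ pres p

namespace Layer
variable {L : Lab A W} (Y : Layer L)

/-- Old positions of the copy through `p`. -/
def T (p : Y.S × W) (w : W) : Prop := ∃ y, Cl L Y.hor p (y, w)

/-- New positions of the copy through `p`. -/
def New (p : Y.S × W) (w : W) : Prop := ¬ Y.pres p ∧ L.comp w = L.comp p.2 ∧ ¬ Y.T p w

end Layer

/-- The next layer. -/
structure Step {L : Lab A W} (Y Y' : Layer L) where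
  hi : Y.S × W → W → Y'.S
  surj : ∀ x, ∃ p w, Y.New p w ∧ x = hi p w
  cls : ∀ {p q} w, Cl L Y.hor p q → hi p w = hi q w
  hor_iff : ∀ x a x', Y'.hor x a x' ↔
    ∃ p w w', Y.New p w ∧ Y.New p w' ∧ L.E w a w' ∧ x = hi p w ∧ x' = hi p w'
  dn_iff : ∀ x a, Y'.dn x a ↔ ∃ p w w', Y.New p w ∧ Y.T p w' ∧ L.E w a w' ∧ x = hi p w
  pres_iff : ∀ x w, Y'.pres (x, w) ↔ ∃ p, Y.New p w ∧ x = hi p w
  hinj : ∀ {p w1 w2}, Y.New p w1 → Y.New p w2 → hi p w1 = hi p w2 → w1 = w2
  same : ∀ {p q w}, Y.New p w → Y.New q w → hi p w = hi q w → Cl L Y.hor p q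
  up : ∀ {y v v' a w w'}, Y.New (y, v) w → L.E v a w → ¬ Y.pres (y, v') → L.E v' a w' →
    Y.New (y, v') w' ∧ hi (y, v) w = hi (y, v') w'
  down : ∀ {p w y v a w'}, Y.New p w → Y.New (y, v) w' → L.E v a w' → hi p w = hi (y, v) w' →
    ∃ v', Cl L Y.hor p (y, v') ∧ L.E v' a w
  near : ∀ {p q w w'}, Y.New p w → Y.New q w' → hi p w = hi q w' → ¬ Cl L Y.hor p q →
    ∃ v u, Y.T p v ∧ u.length < L.len (L.comp w) ∧
      Rd (fun z a z' => L.E z a z' ∧ Y.New p z' ∧ ∃ z2, Y.New q z2 ∧ hi p z' = hi q z2) v u w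
  edge : ∀ {p q w w' a}, Y.New p w → Y.New q w' → Y'.hor (hi p w) a (hi q w') →
    (∃ z, L.E w a z) ∨ ∃ z, Y.New q z ∧ hi p w = hi q z ∧ L.E z a w'

/-- The development of a labelled family. -/
structure Dev (L : Lab A W) (Y K : Type) where
  sg : A → Y → Y
  cn : K → ℕ
  ps : K → W → Y
  lev : K → ℕ
  e : Y
  sg_io : ∀ a y, sg (L.io a) (sg a y) = y
  hom : ∀ {k w a w'}, L.comp w = cn k → L.E w a w' → ps k w' = sg a (ps k w)
  cover : ∀ y w, ∃ k, L.comp w = cn k ∧ ps k w = y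
  uniq : ∀ {k k' w}, L.comp w = cn k → L.comp w = cn k' → ps k w = ps k' w → k = k'
  inj : ∀ {k w w'}, L.comp w = cn k → L.comp w' = cn k → ps k w = ps k w' → w = w'
  lev0 : ∀ {k w}, L.comp w = cn k → ps k w = e → lev k = 0
  cen : ∀ k, ∃ w0, L.comp w0 = cn k ∧
    (ps k w0 = e ∨ ∃ k' w', lev k' < lev k ∧ L.comp w' = cn k' ∧ ps k' w' = ps k w0) ∧
    ∀ w k' w', L.comp w = cn k → k' ≠ k → lev k' ≤ lev k → L.comp w' = cn k' →
      ps k' w' = ps k w → ∃ u, u.length ≤ 2 * L.len (cn k) ∧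
        Rd (fun z a z' => L.E z a z' ∧ ∃ k'' z'', (k'' = k' ∨ lev k'' < lev k) ∧
          L.comp z'' = cn k'' ∧ ps k'' z'' = ps k z') w0 u w
  edge : ∀ {k w k' w' a}, L.comp w = cn k → L.comp w' = cn k' → ps k' w' = sg a (ps k w) →
    (∀ k'' z, L.comp z = cn k'' → ps k'' z = ps k w → lev k ≤ lev k'') →
    (∀ k'' z, L.comp z = cn k'' → ps k'' z = ps k' w' → lev k' ≤ lev k'') → lev k' ≤ lev k →
    (∃ z, L.E w a z) ∨ ∃ z, L.comp z = cn k' ∧ ps k' z = ps k w ∧ L.E z a w'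

/-- The group with the positions of the vertices. -/
structure Geo (L : Lab A W) (G : Type) [Group G] where
  gen : A → G
  pos : W → G
  gen_io : ∀ a, gen (L.io a) = (gen a)⁻¹
  pos_E : ∀ {w a w'}, L.E w a w' → pos w' = pos w * gen a
  pos_inj : ∀ {w w'}, L.comp w = L.comp w' → pos w = pos w' → w = w'

/-- The copy through `x` in which `x` has position `w`. -/
def Geo.cp {L : Lab A W} {G : Type} [Group G] (D : Geo L G) (x : G) (w : W) : G × ℕ :=
  (x * (D.pos w)⁻¹, L.comp w)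

open Classical in
/-- Owners of the vertices; the copy `(1, n0)` comes first. -/
structure Own {L : Lab A W} {G : Type} [Group G] (D : Geo L G) (n0 : ℕ) where
  lt : G × ℕ → G × ℕ → Prop
  own : G → W
  wf : WellFounded lt
  tri : ∀ c c', lt c c' ∨ c = c' ∨ lt c' c
  min : ∀ x w, own x = w ∨ lt (D.cp x (own x)) (D.cp x w)
  first : ∀ c, ¬ lt c (1, n0)
  small : ∀ g n, ((L.Vn n).filter fun w => own (g * D.pos w) ≠ w).card ≤ 1001 ^ (2 * L.len n)
  edge : ∀ x a, ¬ lt (D.cp x (own x)) (D.cp (x * D.gen a) (own (x * D.gen a))) →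
    ∃ w', L.E (own x) a w'
  one : ∀ x a a', lt (D.cp (x * D.gen a) (own (x * D.gen a))) (D.cp x (own x)) →
    lt (D.cp (x * D.gen a') (own (x * D.gen a'))) (D.cp x (own x)) → a = a'

/-! ### Codes and configurations -/

abbrev Bit (A : Type) := A ⊕ Fin 3 → ZMod 2

open Classical in
def alive (z : Bit A) : Prop :=
  (∀ i, z (Sum.inr i) = 1) ∧ (univ.filter fun a => z (Sum.inl a) = 1).card ≤ 1000

def rel (io : A → A) (a : A) (z z' : Bit A) : Prop :=
  alive z ∧ alive z' ∧ z (Sum.inl a) = 1 ∧ z' (Sum.inl (io a)) = 1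

open Classical in
/-- The pattern of the labelled graph. -/
noncomputable def Lab.pat (L : Lab A W) (w : W) : Bit A :=
  Sum.elim (fun a => if ∃ w', L.E w a w' then 1 else 0) fun _ => 1

open Classical in
structure IsCode {V : Type} [Fintype V] (w : V → Bit A) (u : ℕ) (C : AddSubgroup (V → Bit A)) :
    Prop where
  mem : w ∈ C
  dist : ∀ z ∈ C, z ≠ w → 2 * (univ.filter fun v => ∀ i, z v (Sum.inr i) = 1).card ≤ Fintype.card V
  onto : ∀ U : Finset V, U.card ≤ u → ∀ f : V → Bit A, ∃ z ∈ C, ∀ v ∈ U, z v = f v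

/-- Configurations whose restriction to every copy is a codeword. -/
def Conf {L : Lab A W} {G : Type} [Group G] (D : Geo L G)
    (C : ∀ n, AddSubgroup (L.Vn n → Bit A)) : AddSubgroup (G → Bit A) where
  carrier := {x | ∀ g n, (fun w : L.Vn n => x (g * D.pos w)) ∈ C n}
  zero_mem' := fun _ n => (C n).zero_mem
  add_mem' := fun ha hb g n => (C n).add_mem (ha g n) (hb g n)
  neg_mem' := fun ha g n => (C n).neg_mem (ha g n)

/-- The copy in which the identity has position `w` is exact. -/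
def Ex {L : Lab A W} {G : Type} [Group G] (D : Geo L G) (x : G → Bit A) (w : W) : Prop :=
  ∀ w', L.comp w' = L.comp w → x ((D.pos w)⁻¹ * D.pos w') = L.pat w'

/-! ### The lazy walk -/

open Classical in
noncomputable def Top {G R : Type} [Group G] [Field R] (gen : A → G) (on : G → A → Prop)
    (v : G → R) : G → R :=
  fun x => v x / 2 + (∑ a, if on x a then v (x * gen a) else 0) / 2000

open Classical in
noncomputable def prs {G : Type} [Group G] (gen : A → G) (on : G → A → Prop) (Z : Finset G) : ℕ :=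
  ((Z ×ˢ univ).filter fun p : G × A => on p.1 p.2 ∧ p.1 * gen p.2 ∈ Z).card

open Classical in
noncomputable def dl {G R : Type} [Group G] [Field R] : G → R := fun x => if x = 1 then 1 else 0

noncomputable def th : ℝ := 1 - 1 / 10 ^ 6

/-- Exponential convergence of the lazy walk. -/
def Conv {G : Type} [Group G] (gen : A → G) (on : G → A → Prop) : Prop :=
  ∀ (s : Finset G) (v : G → ℝ), (∀ x, x ∉ s → v x = 0) → ∀ (k : ℕ) (s' : Finset G),
    ∑ x ∈ s', ((Top gen on)^[k + 1] v x - (Top gen on)^[k] v x) ^ 2 ≤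
      4 * th ^ (2 * k) * ∑ x ∈ s, v x ^ 2

/-- The open edges of a configuration. -/
def onx {G : Type} [Group G] (io : A → A) (gen : A → G) (x : G → Bit A) (g : G) (a : A) : Prop :=
  rel io a (x g) (x (g * gen a))

end Vale.Agent.P089
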