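import Vale.Agent.P089.Defs

/-! The group of pairs (character, group element) and its fibre representations. -/

namespace Vale.Agent.P089.F1

open Finset MeasureTheory

variable {A : Type} {G : Type} [Group G]

/-- Translation invariance. -/
def TInv (X : AddSubgroup (G → Bit A)) : Prop := ∀ x ∈ X, ∀ g, (fun y => x (g * y)) ∈ X

variable {X : AddSubgroup (G → Bit A)}

/-- Translation. -/
def sh (h : TInv X) (g : G) (x : X) : X := ⟨fun y => x.1 (g * y), h x.1 x.2 g⟩

lemma sh_sh (h : TInv X) (g g' : G) (x : X) : sh h g' (sh h g x) = sh h (g * g') x := by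
  apply Subtype.ext; funext y; simp [sh, mul_assoc]

lemma sh_one (h : TInv X) (x : X) : sh h 1 x = x := by
  apply Subtype.ext; funext y; simp [sh]

/-- Finite sums of coordinates. -/
def IsCh (c : X → ZMod 2) : Prop :=
  ∃ l : List (G × (A ⊕ Fin 3)), c = fun x => (l.map fun p => x.1 p.1 p.2).sum

omit [Group G] in
lemma IsCh.add {c c' : X → ZMod 2} (h : IsCh c) (h' : IsCh c') : IsCh (c + c') := by
  obtain ⟨l, rfl⟩ := h
  obtain ⟨l', rfl⟩ := h'
  exact ⟨l ++ l', by funext x; simp⟩

lemma IsCh.sh (h : TInv X) {c : X → ZMod 2} (hc : IsCh c) (g : G) : IsCh (fun x => c (sh h g x)) := by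
  obtain ⟨l, rfl⟩ := hc
  exact ⟨l.map fun p => (g * p.1, p.2), by funext x; simp [F1.sh, Function.comp_def]⟩

omit [Group G] in
lemma IsCh.map_add {c : X → ZMod 2} (hc : IsCh c) (x y : X) : c (x + y) = c x + c y := by
  obtain ⟨l, rfl⟩ := hc
  simp [List.sum_map_add]

omit [Group G] in
lemma IsCh.cont {c : X → ZMod 2} (hc : IsCh c) : Continuous c := by
  obtain ⟨l, rfl⟩ := hc
  exact continuous_list_sum l fun p _ =>
    (continuous_apply p.2).comp ((continuous_apply p.1).comp continuous_subtype_val)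

/-- The group. -/
@[ext] structure El (h : TInv X) where
  c : X → ZMod 2
  g : G
  ch : IsCh c

variable {h : TInv X}

instance : Mul (El h) := ⟨fun a b => ⟨a.c + fun x => b.c (sh h a.g x), a.g * b.g,
  a.ch.add (b.ch.sh h a.g)⟩⟩
instance : One (El h) := ⟨⟨0, 1, [], rfl⟩⟩
instance : Inv (El h) := ⟨fun a => ⟨fun x => a.c (sh h a.g⁻¹ x), a.g⁻¹, a.ch.sh h _⟩⟩

lemma mul_c (a b : El h) (x : X) : (a * b).c x = a.c x + b.c (sh h a.g x) := rfl
lemma mul_g (a b : El h) : (a * b).g = a.g * b.g := rfl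
lemma one_c (x : X) : (1 : El h).c x = 0 := rfl
lemma one_g : (1 : El h).g = 1 := rfl
lemma inv_c (a : El h) (x : X) : (a⁻¹).c x = a.c (sh h a.g⁻¹ x) := rfl
lemma inv_g (a : El h) : (a⁻¹).g = a.g⁻¹ := rfl

instance : Group (El h) := Group.ofLeftAxioms
  (fun a b c => by
    ext x
    · simp only [mul_c, mul_g, sh_sh, add_assoc]
    · simp only [mul_g, mul_assoc])
  (fun a => by
    ext x
    · simp only [mul_c, one_c, one_g, sh_one, zero_add]
    · simp only [mul_g, one_g, one_mul])
  (fun a => by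
    ext x
    · simp only [mul_c, inv_c, inv_g, one_c, CharTwo.add_self_eq_zero]
    · simp only [mul_g, inv_g, one_g, inv_mul_cancel])

instance [Fintype A] [Countable G] : Countable (El h) := by
  let F : List (G × (A ⊕ Fin 3)) × G → El h := fun p =>
    ⟨fun x => (p.1.map fun p => x.1 p.1 p.2).sum, p.2, p.1, rfl⟩
  refine Function.Surjective.countable (f := F) ?_
  rintro ⟨c, g, l, rfl⟩
  exact ⟨(l, g), rfl⟩

/-- Sign. -/
noncomputable def sg (t : ZMod 2) : ℂ := if t = 0 then 1 else -1

lemma z2 (a : ZMod 2) : a = 0 ∨ a = 1 := by revert a; decide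

lemma sg_zero : sg 0 = 1 := by simp [sg]
lemma sg_one : sg 1 = -1 := by simp [sg]

lemma sg_add (a b : ZMod 2) : sg (a + b) = sg a * sg b := by
  rcases z2 a with rfl | rfl <;> rcases z2 b with rfl | rfl <;>
    simp [sg_zero, sg_one, CharTwo.add_self_eq_zero]

lemma conj_sg (a : ZMod 2) : (starRingEnd ℂ) (sg a) = sg a := by
  rcases z2 a with rfl | rfl <;> simp [sg_zero, sg_one]

/-- Fibre representation of the group. -/
noncomputable def rho (x : X) : El h →* Module.End ℂ (G → ℂ) where
  toFun a :=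
    { toFun := fun v y => sg (a.c (sh h y x)) * v (y * a.g)
      map_add' := fun u v => by funext y; simp [mul_add]
      map_smul' := fun r v => by funext y; simp [mul_left_comm] }
  map_one' := by ext v y; simp [one_c, one_g, sg_zero]
  map_mul' a b := by ext v y; simp [mul_c, mul_g, sg_add, sh_sh, mul_assoc]

/-- Fibre representation of the algebra. -/
noncomputable def pi (x : X) : MonoidAlgebra ℂ (El h) →ₐ[ℂ] Module.End ℂ (G → ℂ) :=
  MonoidAlgebra.lift ℂ _ _ (rho x)

lemma pi_apply (x : X) (m : MonoidAlgebra ℂ (El h)) (v : G → ℂ) (y : G) :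
    pi x m v y = ∑ a ∈ m.coeff.support, m.coeff a * (sg (a.c (sh h y x)) * v (y * a.g)) := by
  rw [pi, MonoidAlgebra.lift_apply, Finsupp.sum, LinearMap.sum_apply, Finset.sum_apply]
  rfl

lemma pi_single (x : X) (a : El h) (v : G → ℂ) (y : G) :
    pi x (MonoidAlgebra.single a 1) v y = sg (a.c (sh h y x)) * v (y * a.g) := by
  rw [pi, MonoidAlgebra.lift_single, one_smul]
  rfl

lemma cont_sg (a : El h) (y : G) : Continuous fun x : X => sg (a.c (sh h y x)) :=
  (continuous_of_discreteTopology (f := sg)).comp (a.ch.sh h y).cont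

lemma pi_cont (m : MonoidAlgebra ℂ (El h)) (v : G → ℂ) (y : G) :
    Continuous fun x : X => pi x m v y := by
  simp only [pi_apply]
  exact continuous_finsetSum _ fun a _ =>
    continuous_const.mul ((cont_sg a y).mul continuous_const)

/-- Functions realised by multiplication. -/
def MA (h : TInv X) : Subalgebra ℂ (X → ℂ) where
  carrier := {F | ∃ m : MonoidAlgebra ℂ (El h), ∀ x v y, pi x m v y = F (sh h y x) * v y}
  mul_mem' := by
    rintro F F' ⟨m, hm⟩ ⟨m', hm'⟩
    refine ⟨m * m', fun x v y => ?_⟩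
    rw [map_mul, Module.End.mul_apply, hm, hm', Pi.mul_apply, mul_assoc]
  add_mem' := by
    rintro F F' ⟨m, hm⟩ ⟨m', hm'⟩
    refine ⟨m + m', fun x v y => ?_⟩
    rw [map_add, LinearMap.add_apply, Pi.add_apply, hm, hm', Pi.add_apply, add_mul]
  algebraMap_mem' r := ⟨algebraMap ℂ _ r, fun x v y => by
    rw [AlgHom.commutes]; simp⟩

open Classical in
lemma ind_mem [Fintype A] (g : G) (z : Bit A) :
    (fun x : X => if x.1 g = z then (1 : ℂ) else 0) ∈ MA h := by
  have h1 : ∀ b, (fun x : X => sg (x.1 g b)) ∈ MA h := fun b =>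
    ⟨MonoidAlgebra.single ⟨fun x => x.1 g b, 1, [(g, b)], by simp⟩ 1, fun x v y => by
      rw [pi_single, mul_one]⟩
  have h2 : ∀ b, (fun x : X => if x.1 g b = z b then (1 : ℂ) else 0) ∈ MA h := by
    intro b
    have : (fun x : X => if x.1 g b = z b then (1 : ℂ) else 0) =
        (1 / 2 : ℂ) • (1 + sg (z b) • fun x : X => sg (x.1 g b)) := by
      funext x
      simp only [Pi.smul_apply, Pi.add_apply, Pi.one_apply, smul_eq_mul]
      rcases z2 (x.1 g b) with e | e <;> rcases z2 (z b) with e' | e' <;>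
        simp [e, e', sg_zero, sg_one] <;> norm_num
    rw [this]
    exact (MA h).smul_mem ((MA h).add_mem (MA h).one_mem ((MA h).smul_mem (h1 b) _)) _
  have : (fun x : X => if x.1 g = z then (1 : ℂ) else 0) =
      ∏ b, fun x : X => if x.1 g b = z b then (1 : ℂ) else 0 := by
    funext x
    rw [Finset.prod_apply, Finset.prod_boole]
    simp [funext_iff]
  rw [this]
  exact (MA h).prod_mem fun b _ => h2 b

open Classical in
lemma two_mem [Fintype A] (g g' : G) (P : Bit A → Bit A → Prop) :
    (fun x : X => if P (x.1 g) (x.1 g') then (1 : ℂ) else 0) ∈ MA h := by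
  have : (fun x : X => if P (x.1 g) (x.1 g') then (1 : ℂ) else 0) =
      ∑ z, ∑ z', (if P z z' then (1 : ℂ) else 0) •
        ((fun x : X => if x.1 g = z then (1 : ℂ) else 0) *
          fun x : X => if x.1 g' = z' then (1 : ℂ) else 0) := by
    funext x
    simp only [Finset.sum_apply, Pi.smul_apply, Pi.mul_apply, smul_eq_mul]
    simp
  rw [this]
  exact (MA h).sum_mem fun z _ => (MA h).sum_mem fun z' _ =>
    (MA h).smul_mem ((MA h).mul_mem (ind_mem g z) (ind_mem g' z')) _

lemma exists_T [Fintype A] (io : A → A) (gen : A → G) : ∃ T : MonoidAlgebra ℂ (El h),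
    ∀ (x : X) (v : G → ℂ), pi x T v = Top gen (onx io gen x.1) v := by
  classical
  choose m hm using fun a => two_mem (h := h) 1 (gen a) (rel io a)
  refine ⟨(1 / 2 : ℂ) • 1 + (1 / 2000 : ℂ) • ∑ a, m a * MonoidAlgebra.single ⟨0, gen a, [], rfl⟩ 1,
    fun x v => funext fun y => ?_⟩
  simp only [map_add, map_smul, map_one, map_sum, map_mul, LinearMap.add_apply,
    LinearMap.smul_apply, LinearMap.sum_apply, Module.End.mul_apply, Module.End.one_apply,
    Pi.add_apply, Pi.smul_apply, Finset.sum_apply, hm, pi_single, smul_eq_mul, Top]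
  congr 1
  · ring
  · rw [one_div_mul_eq_div]
    congr 1
    refine Finset.sum_congr rfl fun a _ => ?_
    by_cases hr : rel io a (x.1 y) (x.1 (y * gen a)) <;> simp [sh, onx, sg_zero, hr]

end Vale.Agent.P089.F1
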