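import Vale.Agent.P089.Defs

namespace Vale.Agent.P089

open Finset

namespace B1

open Classical in
/-- Partial assignments without bad events. -/
noncomputable def Good {I S B : Type} [Fintype I] [DecidableEq I] [Fintype S]
    (supp : B → Finset I) (bad : B → (I → S) → Prop) (d : S) (F : Finset I) : Finset (I → S) :=
  univ.filter fun f => (∀ i, i ∉ F → f i = d) ∧ ∀ b, supp b ⊆ F → ¬ bad b f

lemma mem_good {I S B : Type} [Fintype I] [DecidableEq I] [Fintype S]
    {supp : B → Finset I} {bad : B → (I → S) → Prop} {d : S} {F : Finset I} {f : I → S} :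
    f ∈ Good supp bad d F ↔ (∀ i, i ∉ F → f i = d) ∧ ∀ b, supp b ⊆ F → ¬ bad b f := by
  simp [Good]

lemma chain {I : Type} [DecidableEq I] {c : Finset I → ℝ} {be : ℝ} (hbe : 0 ≤ be) (F : Finset I)
    (h : ∀ F' : Finset I, F'.card < F.card → ∀ e, e ∉ F' → be * c F' ≤ c (insert e F'))
    (Q : Finset I) (hQ : Q ⊆ F) : be ^ Q.card * c (F \ Q) ≤ c F := by
  induction Q using Finset.induction_on with
  | empty => simp
  | insert x Q hx ih =>
    have hxF : x ∈ F := hQ (mem_insert_self _ _)
    have h1 := h (F \ insert x Q) (card_lt_card (sdiff_ssubset hQ (insert_nonempty _ _))) x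
      (by simp)
    have h2 : insert x (F \ insert x Q) = F \ Q := by
      ext y
      simp only [mem_insert, mem_sdiff, not_or]
      constructor
      · rintro (rfl | ⟨a, -, b⟩)
        exacts [⟨hxF, hx⟩, ⟨a, b⟩]
      · rintro ⟨a, b⟩
        by_cases hy : y = x
        exacts [Or.inl hy, Or.inr ⟨a, hy, b⟩]
    rw [h2] at h1
    rw [card_insert_of_notMem hx, pow_succ, mul_assoc]
    exact (mul_le_mul_of_nonneg_left h1 (pow_nonneg hbe _)).trans
      (ih ((subset_insert _ _).trans hQ))

end B1

theorem rosenfeld {I S B : Type} [Fintype I] [DecidableEq I] [Fintype S] [Fintype B]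
    (supp : B → Finset I) (bad : B → (I → S) → Prop) (Q : B → I → Finset I) (m : B → ℕ) (be : ℝ)
    (hbe : 1 ≤ be) (hne : ∀ b, (supp b).Nonempty)
    (hdep : ∀ b f f', (∀ i ∈ supp b, f i = f' i) → bad b f → bad b f')
    (hQ : ∀ b, ∀ e ∈ supp b, e ∈ Q b e ∧ Q b e ⊆ supp b)
    (hm : ∀ b, ∀ e ∈ supp b, ∀ (f0 : I → S) (F : Finset (I → S)),
      (∀ f ∈ F, bad b f ∧ ∀ i, i ∉ Q b e → f i = f0 i) → F.card ≤ m b)
    (hs : ∀ e, ∑ b ∈ univ.filter (fun b => e ∈ supp b), (m b : ℝ) * be / be ^ (Q b e).card ≤
      Fintype.card S - be) [Nonempty I] :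
    ∃ f : I → S, ∀ b, ¬ bad b f := by
  classical
  have hbe0 : 0 < be := by linarith
  obtain ⟨d⟩ : Nonempty S := by
    have h1 := hs (Classical.arbitrary I)
    have h2 : 0 ≤ ∑ b ∈ univ.filter (fun b => Classical.arbitrary I ∈ supp b),
      (m b : ℝ) * be / be ^ (Q b (Classical.arbitrary I)).card :=
      sum_nonneg fun b _ => by positivity
    have h3 : (0 : ℝ) < Fintype.card S := by linarith
    exact Fintype.card_pos_iff.mp (by exact_mod_cast h3)
  set c : Finset I → ℝ := fun F => ((B1.Good supp bad d F).card : ℝ) with hc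
  have key : ∀ (n : ℕ) (F : Finset I), F.card = n → ∀ e, e ∉ F → be * c F ≤ c (insert e F) := by
    intro n
    induction n using Nat.strong_induction_on with
    | _ n ih =>
    intro F hF e he
    have hch := B1.chain hbe0.le F fun F' hF' => ih _ (hF ▸ hF') F' rfl
    set Im := (B1.Good supp bad d F ×ˢ (univ : Finset S)).image
      fun p => Function.update p.1 e p.2 with hIm
    have h1 : Im.card = (B1.Good supp bad d F).card * Fintype.card S := by
      rw [hIm, card_image_of_injOn, card_product, card_univ]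
      rintro ⟨f, s⟩ hf ⟨f', s'⟩ hf' hh
      have a1 := (B1.mem_good.mp (mem_product.mp hf).1).1 e he
      have a2 := (B1.mem_good.mp (mem_product.mp hf').1).1 e he
      have a3 : s = s' := by simpa using congrFun hh e
      refine Prod.ext (funext fun i => ?_) a3
      by_cases hi : i = e
      · rw [hi]; exact a1.trans a2.symm
      · simpa [Function.update_of_ne hi] using congrFun hh i
    set Bs := univ.filter fun b => e ∈ supp b ∧ supp b ⊆ insert e F with hBs
    have h2 : Im ⊆ B1.Good supp bad d (insert e F) ∪ Bs.biUnion fun b => Im.filter (bad b) := by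
      intro g hg
      by_cases hb : ∃ b ∈ Bs, bad b g
      · obtain ⟨b, b1, b2⟩ := hb
        exact mem_union_right _ (mem_biUnion.mpr ⟨b, b1, mem_filter.mpr ⟨hg, b2⟩⟩)
      · push Not at hb
        obtain ⟨⟨f, s⟩, hf, rfl⟩ := mem_image.mp hg
        obtain ⟨a1, a2⟩ := B1.mem_good.mp (mem_product.mp hf).1
        refine mem_union_left _ (B1.mem_good.mpr ⟨fun i hi => ?_, fun b hb' hbad => ?_⟩)
        · rw [mem_insert, not_or] at hi
          rw [Function.update_of_ne hi.1]
          exact a1 i hi.2
        · by_cases heb : e ∈ supp b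
          · exact hb b (mem_filter.mpr ⟨mem_univ _, heb, hb'⟩) hbad
          · refine a2 b ((subset_insert_iff_of_notMem heb).mp hb') (hdep b _ _ (fun i hi => ?_) hbad)
            exact Function.update_of_ne (fun h : i = e => heb (h ▸ hi)) _ _
    have h3 : ∀ b ∈ Bs, ((Im.filter (bad b)).card : ℝ) ≤ m b * be / be ^ (Q b e).card * c F := by
      intro b hb
      obtain ⟨b1, b2⟩ := (mem_filter.mp hb).2
      obtain ⟨q1, q2⟩ := hQ b e b1
      have a1 : (Im.filter (bad b)).card ≤ m b * (B1.Good supp bad d (F \ (Q b e).erase e)).card := by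
        refine card_le_mul_card_image_of_maps_to
          (f := fun g i => if i ∈ Q b e then d else g i) (fun g hg => ?_) _ fun f0 _ => ?_
        · obtain ⟨⟨f, s⟩, hf, rfl⟩ := mem_image.mp (mem_filter.mp hg).1
          obtain ⟨a1, a2⟩ := B1.mem_good.mp (mem_product.mp hf).1
          refine B1.mem_good.mpr ⟨fun i hi => ?_, fun b' hb' hbad => ?_⟩
          · split_ifs with h
            · rfl
            · have hie : i ≠ e := fun h' => h (h' ▸ q1)
              rw [Function.update_of_ne hie]
              exact a1 i fun hF' => hi (mem_sdiff.mpr ⟨hF', fun h' => h (mem_of_mem_erase h')⟩)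
          · refine a2 b' (hb'.trans sdiff_subset) (hdep b' _ _ (fun i hi => ?_) hbad)
            obtain ⟨c1, c2⟩ := mem_sdiff.mp (hb' hi)
            have hie : i ≠ e := fun h' => he (h' ▸ c1)
            rw [if_neg fun h' => c2 (mem_erase.mpr ⟨hie, h'⟩), Function.update_of_ne hie]
        · refine hm b e b1 f0 _ fun g hg => ?_
          obtain ⟨g1, g2⟩ := mem_filter.mp hg
          refine ⟨(mem_filter.mp g1).2, fun i hi => ?_⟩
          rw [← g2]
          exact (if_neg hi).symm
      have a2 := hch ((Q b e).erase e) fun i hi => by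
        obtain ⟨c1, c2⟩ := mem_erase.mp hi
        exact (mem_insert.mp (b2 (q2 c2))).resolve_left c1
      have a3 : (Q b e).card = ((Q b e).erase e).card + 1 := (card_erase_add_one q1).symm
      have a4 : c (F \ (Q b e).erase e) ≤ be / be ^ (Q b e).card * c F := by
        rw [a3, pow_succ, div_mul_eq_mul_div, le_div_iff₀ (by positivity)]
        nlinarith
      calc ((Im.filter (bad b)).card : ℝ) ≤ m b * c (F \ (Q b e).erase e) := by
            simp only [hc]; exact_mod_cast a1
        _ ≤ m b * (be / be ^ (Q b e).card * c F) := by gcongr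
        _ = _ := by ring
    have hc0 : 0 ≤ c F := Nat.cast_nonneg _
    have h4 : (Im.card : ℝ) ≤ c (insert e F) + ∑ b ∈ Bs, ((Im.filter (bad b)).card : ℝ) := by
      have := (card_le_card h2).trans ((card_union_le _ _).trans
        (Nat.add_le_add_left card_biUnion_le _))
      simp only [hc]; exact_mod_cast this
    have h5 : ∑ b ∈ Bs, ((Im.filter (bad b)).card : ℝ) ≤ (Fintype.card S - be) * c F := by
      refine (sum_le_sum h3).trans ?_
      rw [← sum_mul]
      refine mul_le_mul_of_nonneg_right (le_trans (sum_le_sum_of_subset_of_nonneg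
        (fun b hb => mem_filter.mpr ⟨mem_univ _, (mem_filter.mp hb).2.1⟩)
        fun b _ _ => by positivity) (hs e)) hc0
    have h6 : (Im.card : ℝ) = c F * Fintype.card S := by rw [h1]; push_cast; rfl
    nlinarith
  have h1 := B1.chain hbe0.le (univ : Finset I) (fun F' _ => key _ F' rfl) univ Subset.rfl
  have h2 : 0 < c (univ \ univ) := by
    rw [sdiff_self, hc]
    have : (B1.Good supp bad d ⊥).Nonempty := ⟨fun _ => d, B1.mem_good.mpr ⟨fun _ _ => rfl,
      fun b hb => absurd (subset_empty.mp hb) (hne b).ne_empty⟩⟩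
    simp only []; exact_mod_cast this.card_pos
  have h3 : 0 < c univ := lt_of_lt_of_le (by positivity) h1
  obtain ⟨f, hf⟩ := card_pos.mp (show 0 < (B1.Good supp bad d univ).card by
    simp only [hc] at h3; exact_mod_cast h3)
  exact ⟨f, fun b => (B1.mem_good.mp hf).2 b (subset_univ _)⟩

end Vale.Agent.P089
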