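import Vale.Agent.P089.B2a

/-! Labellings with small cancellation. -/

namespace Vale.Agent.P089

open Finset

namespace B2

variable {N : ℕ} {M : Fin N × Fin 1000 → Fin N × Fin 1000} {S : Type}

/-- The labelling defined by a function on edges. -/
def lb (M : Fin N × Fin 1000 → Fin N × Fin 1000) (f : Fin N × Fin 1000 → S)
    (h : Fin N × Fin 1000) : S × Bool := (f (ed M h), decide (ed M h = h))

open Classical in
theorem fam0 (hM : ∀ h, M (M h) = h) (hv : ∀ h, (M h).1 ≠ h.1) (be : ℝ) (hbe : 4000 ≤ be) :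
    Fam (S := S) (fun b : (Fin N × Fin 1000) × (Fin N × Fin 1000) => {ed M b.1, ed M b.2})
      (fun b f => (b.1.1 = b.2.1 ∧ b.1 ≠ b.2) ∧ f (ed M b.1) = f (ed M b.2)) (fun _ e => {e})
      (fun b => if b.1.1 = b.2.1 then 1 else 0) be be where
  hne := fun b => insert_nonempty _ _
  hdep := fun b f f' h hb => ⟨hb.1, by rw [← h _ (by simp), ← h _ (by simp), hb.2]⟩
  hQ := fun b e he => ⟨mem_singleton_self _, singleton_subset_iff.2 he⟩
  hm := fun b e he f0 F hF => by
    split_ifs with h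
    · refine card_le_one.2 fun f hf f' hf' => funext fun x => ?_
      obtain ⟨⟨h1, h2⟩, h3⟩ := hF f hf
      obtain ⟨⟨-, h2'⟩, h3'⟩ := hF f' hf'
      have hne : ed M b.1 ≠ ed M b.2 := fun e => by
        rcases ed_eq hM e with e | e
        · exact h1.2 e.symm
        · exact hv b.1 (by rw [← e, h])
      by_cases hx : x = e
      · subst hx
        rcases mem_insert.1 he with rfl | he
        · rw [h2, h2', h3 _ (by simpa using hne.symm), h3' _ (by simpa using hne.symm)]
        · rw [mem_singleton.1 he] at h3 h3' ⊢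
          rw [← h2, ← h2', h3 _ (by simpa using hne), h3' _ (by simpa using hne)]
      · rw [h3 _ (by simpa using hx), h3' _ (by simpa using hx)]
    · rw [Nat.le_zero, card_eq_zero, eq_empty_iff_forall_notMem]
      exact fun f hf => h (hF f hf).1.1.1
  hs := fun e => by
    have h0 : (0 : ℝ) < be := by linarith
    refine (sum_le (fun b : (Fin N × Fin 1000) × (Fin N × Fin 1000) =>
      b.1.1 = b.2.1 ∧ e ∈ ({ed M b.1, ed M b.2} : Finset _)) _ 1 4000 zero_le_one
      (fun b hb => ?_) (fun b hb => ?_) ?_).trans (by simpa using hbe)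
    · split_ifs with h1 h2
      · exact absurd ⟨h2, h1⟩ hb
      · simp
      · rfl
    · rw [if_pos hb.2, if_pos hb.1, card_singleton, pow_one, Nat.cast_one, one_mul, div_self h0.ne']
    · refine (card_le_card (t := (({e, M e} : Finset _) ×ˢ (univ : Finset (Fin 1000))).image
        (fun p => (p.1, (p.1.1, p.2))) ∪ (({e, M e} : Finset _) ×ˢ (univ : Finset (Fin 1000))).image
        (fun p => ((p.1.1, p.2), p.1))) fun b hb => ?_).trans ((card_union_le _ _).trans ?_)
      · obtain ⟨h1, h2⟩ := (mem_filter.1 hb).2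
        rcases mem_insert.1 h2 with h2 | h2
        · exact mem_union_left _ (mem_image.2 ⟨(b.1, b.2.2), mem_product.2
            ⟨by simpa using ed_mem hM h2.symm, mem_univ _⟩, by simp only [h1]⟩)
        · exact mem_union_right _ (mem_image.2 ⟨(b.2, b.1.2), mem_product.2
            ⟨by simpa using ed_mem hM (mem_singleton.1 h2).symm, mem_univ _⟩, by simp only [← h1]⟩)
      · have : (({e, M e} : Finset _) ×ˢ (univ : Finset (Fin 1000))).card ≤ 2 * 1000 := by
          rw [card_product, card_univ, Fintype.card_fin]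
          exact Nat.mul_le_mul_right _ card_le_two
        exact add_le_add (card_image_le.trans this) (card_image_le.trans this)

theorem num1 (j : ℕ) : ((2 * (j + 1) * 1000 ^ (j + 1) : ℕ) : ℝ) *
    ((1000 ^ (8 * (j + 1)) : ℕ) * 1000 ^ 34 / (1000 ^ 34) ^ (j + 1)) ≤
      1000 ^ 34 / 2 * (1 / 2) ^ j := by
  have h1 : 2 * (j + 1) * 1000 ^ (j + 1) * 1000 ^ (8 * (j + 1)) * 2 ^ (j + 1) ≤
      (1000 ^ 34) ^ (j + 1) := by
    calc _ ≤ 1000 ^ (j + 1) * 1000 ^ (j + 1) * 1000 ^ (j + 1) * 1000 ^ (8 * (j + 1)) *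
          1000 ^ (j + 1) := by
          gcongr
          · exact le_trans (by norm_num) (Nat.pow_le_pow_right (by norm_num) (Nat.succ_pos j))
          · exact (Nat.lt_pow_self (by norm_num)).le
          · norm_num
      _ = 1000 ^ (12 * (j + 1)) := by simp only [← pow_add]; congr 1; ring
      _ ≤ _ := by rw [← pow_mul]; exact Nat.pow_le_pow_right (by norm_num) (by omega)
  have h2 : ((2 * (j + 1) * 1000 ^ (j + 1) : ℕ) : ℝ) * (1000 ^ (8 * (j + 1)) : ℕ) * 2 ^ (j + 1) ≤
      (1000 ^ 34) ^ (j + 1) := by exact_mod_cast h1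
  generalize ((2 * (j + 1) * 1000 ^ (j + 1) : ℕ) : ℝ) = a at h2 ⊢
  generalize ((1000 ^ (8 * (j + 1)) : ℕ) : ℝ) = b at h2 ⊢
  have h3 : (0 : ℝ) < 1000 ^ 34 := by positivity
  generalize (1000 ^ 34 : ℝ) = c at h2 h3 ⊢
  rw [← mul_div_assoc, one_div_pow, div_mul_div_comm, div_le_div_iff₀ (by positivity)
    (by positivity)]
  calc _ = c * (a * b * 2 ^ (j + 1)) := by ring
    _ ≤ c * c ^ (j + 1) := mul_le_mul_of_nonneg_left h2 h3.le
    _ = _ := by ring

open Classical in
theorem fam1 (hM : ∀ h, M (M h) = h) {l : ℕ} (hg : Gir M (6 * l))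
    (F : ℕ → Finset (List (S × Bool))) (hF : ∀ j, (F j).card ≤ 1000 ^ (8 * j)) :
    Fam (S := S) (fun b : Σ j : Fin l, (Fin (j + 1) → Fin N × Fin 1000) =>
        univ.image fun i => ed M (b.2 i))
      (fun b f => NB M b.2 ∧ List.ofFn (fun i => lb M f (b.2 i)) ∈ F (b.1.1 + 1))
      (fun b _ => univ.image fun i => ed M (b.2 i))
      (fun b => if NB M b.2 then 1000 ^ (8 * (b.1.1 + 1)) else 0) (1000 ^ 34) (1000 ^ 34) where
  hne := fun b => univ_nonempty.image _
  hdep := fun b f f' h hb => ⟨hb.1, by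
    rw [show (fun i => lb M f' (b.2 i)) = fun i => lb M f (b.2 i) from funext fun i => by
      rw [lb, lb, h _ (mem_image_of_mem _ (mem_univ i))]]
    exact hb.2⟩
  hQ := fun b e he => ⟨he, Subset.rfl⟩
  hm := fun b e he f0 G hG => by
    split_ifs with h
    · refine (card_le_card_of_injOn (fun f => List.ofFn fun i => lb M f (b.2 i))
        (fun f hf => (hG f hf).1.2) fun f hf f' hf' e => funext fun x => ?_).trans (hF _)
      by_cases hx : x ∈ univ.image fun i => ed M (b.2 i)
      · obtain ⟨i, -, rfl⟩ := mem_image.1 hx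
        exact congrArg Prod.fst (congrFun (List.ofFn_injective e) i)
      · rw [(hG f hf).2 x hx, (hG f' hf').2 x hx]
    · rw [Nat.le_zero, card_eq_zero, eq_empty_iff_forall_notMem]
      exact fun f hf => h (hG f hf).1.1
  hs := fun e => by
    rw [Fintype.sum_sigma]
    refine (sum_le_sum (g := fun j : Fin l => (1000 ^ 34 / 2 * (1 / 2) ^ j.1 : ℝ))
      fun j _ => ?_).trans ?_
    · refine (sum_le (fun o : Fin (j + 1) → Fin N × Fin 1000 =>
        NB M o ∧ e ∈ univ.image fun i => ed M (o i)) _ _ _ (by positivity)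
        (fun o ho => ?_) (fun o ho => ?_) (count2 hM _ e)).trans (num1 j)
      · split_ifs with h1 h2
        · exact absurd ⟨h2, h1⟩ ho
        · simp
        · rfl
      · rw [if_pos ho.2, if_pos ho.1, card_image_of_injective _ (ed_inj hM hg (by omega) ho.1),
          card_univ, Fintype.card_fin]
    · rw [← mul_sum, Fin.sum_univ_eq_sum_range (fun j => (1 / 2 : ℝ) ^ j)]
      have := sum_geometric_two_le l
      have h3 : (0 : ℝ) < 1000 ^ 34 := by positivity
      generalize (1000 ^ 34 : ℝ) = c at h3 ⊢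
      nlinarith

open Classical in
theorem fam2 (hM : ∀ h, M (M h) = h) {l : ℕ} (hl : 3 ≤ l) (hN : N ≤ 1000 ^ (7 * l))
    (hg : Gir M (6 * l)) : ∃ Q, Fam (S := S)
      (fun b : (Fin l → Fin N × Fin 1000) × (Fin l → Fin N × Fin 1000) =>
        (univ.image fun i => ed M (b.1 i)) ∪ univ.image fun i => ed M (b.2 i))
      (fun b f => (NB M b.1 ∧ NB M b.2 ∧ ∀ i, ed M (b.1 i) ≠ ed M (b.2 i)) ∧
        ∀ i, f (ed M (b.1 i)) = f (ed M (b.2 i))) Q
      (fun b => if NB M b.1 ∧ NB M b.2 ∧ ∀ i, ed M (b.1 i) ≠ ed M (b.2 i) then 1 else 0)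
      (1000 ^ 34) (1000 ^ 34) := by
  have key : ∀ (b : (Fin l → Fin N × Fin 1000) × (Fin l → Fin N × Fin 1000))
      (e : Fin N × Fin 1000), ∃ Q : Finset (Fin N × Fin 1000),
      e ∈ ((univ.image fun i => ed M (b.1 i)) ∪ univ.image fun i => ed M (b.2 i)) →
      (e ∈ Q ∧ Q ⊆ (univ.image fun i => ed M (b.1 i)) ∪ univ.image fun i => ed M (b.2 i)) ∧
      ((NB M b.1 ∧ NB M b.2 ∧ ∀ i, ed M (b.1 i) ≠ ed M (b.2 i)) → l ≤ 3 * Q.card ∧
        ∀ f f' : Fin N × Fin 1000 → S, (∀ i, f (ed M (b.1 i)) = f (ed M (b.2 i))) →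
          (∀ i, f' (ed M (b.1 i)) = f' (ed M (b.2 i))) → (∀ x, x ∉ Q → f x = f' x) → f = f') := by
    intro b e
    by_cases hb : NB M b.1 ∧ NB M b.2 ∧ ∀ i, ed M (b.1 i) ≠ ed M (b.2 i)
    · have i1 := ed_inj hM hg (by omega) hb.1
      have i2 := ed_inj hM hg (by omega) hb.2.1
      by_cases h1 : e ∈ univ.image fun i => ed M (b.1 i)
      · obtain ⟨i, -, rfl⟩ := mem_image.1 h1
        obtain ⟨Q, q1, q2, q3, q4⟩ := exists_Q (S := S) _ _ i1 i2 hb.2.2 i
        exact ⟨Q, fun _ => ⟨⟨q1, q2.trans subset_union_left⟩, fun _ => ⟨q3, q4⟩⟩⟩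
      · by_cases h2 : e ∈ univ.image fun i => ed M (b.2 i)
        · obtain ⟨i, -, rfl⟩ := mem_image.1 h2
          obtain ⟨Q, q1, q2, q3, q4⟩ := exists_Q (S := S) _ _ i2 i1 (fun i => (hb.2.2 i).symm) i
          exact ⟨Q, fun _ => ⟨⟨q1, q2.trans subset_union_right⟩, fun _ => ⟨q3, fun f f' a a' =>
            q4 f f' (fun i => (a i).symm) fun i => (a' i).symm⟩⟩⟩
        · exact ⟨∅, fun h => absurd (mem_union.1 h) (not_or.2 ⟨h1, h2⟩)⟩
    · exact ⟨{e}, fun h => ⟨⟨mem_singleton_self _, singleton_subset_iff.2 h⟩, fun h => absurd h hb⟩⟩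
  choose Q hQ using key
  have : Nonempty (Fin l) := ⟨⟨0, by omega⟩⟩
  refine ⟨Q, fun b => (univ_nonempty.image _).mono subset_union_left, fun b f f' h hb =>
    ⟨hb.1, fun i => ?_⟩, fun b e he => (hQ b e he).1, fun b e he f0 G hG => ?_, fun e => ?_⟩
  · rw [← h _ (mem_union_left _ (mem_image_of_mem _ (mem_univ i))),
      ← h _ (mem_union_right _ (mem_image_of_mem _ (mem_univ i))), hb.2]
  · split_ifs with h
    · exact card_le_one.2 fun f hf f' hf' => ((hQ b e he).2 h).2 f f' (hG f hf).1.2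
        (hG f' hf').1.2 fun x hx => by rw [(hG f hf).2 x hx, (hG f' hf').2 x hx]
    · rw [Nat.le_zero, card_eq_zero, eq_empty_iff_forall_notMem]
      exact fun f hf => h (hG f hf).1.1
  · refine (sum_le (fun b : (Fin l → Fin N × Fin 1000) × (Fin l → Fin N × Fin 1000) =>
      (NB M b.1 ∧ NB M b.2 ∧ ∀ i, ed M (b.1 i) ≠ ed M (b.2 i)) ∧
        e ∈ (univ.image fun i => ed M (b.1 i)) ∪ univ.image fun i => ed M (b.2 i)) _
      (1000 ^ 34 / 1000 ^ (10 * l + 1)) (1000 ^ (10 * l + 1)) (by positivity)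
      (fun b hb => ?_) (fun b hb => ?_) ?_).trans (le_of_eq ?_)
    · split_ifs with h1 h2
      · exact absurd ⟨h2, h1⟩ hb
      · simp
      · rfl
    · rw [if_pos hb.2, if_pos hb.1, Nat.cast_one, one_mul, ← pow_mul]
      have := ((hQ b e hb.2).2 hb.1).1
      exact div_le_div_of_nonneg_left (by positivity) (by positivity)
        (pow_le_pow_right₀ (by norm_num) (by omega))
    · have c2 := count2 hM l e
      have c3 := count3 hM (⟨0, by omega⟩ : Fin l)
      refine (card_le_card (t := (univ.filter fun o : Fin l → Fin N × Fin 1000 =>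
        NB M o ∧ e ∈ univ.image fun i => ed M (o i)) ×ˢ (univ.filter fun o => NB M o) ∪
        (univ.filter fun o => NB M o) ×ˢ (univ.filter fun o : Fin l → Fin N × Fin 1000 =>
        NB M o ∧ e ∈ univ.image fun i => ed M (o i))) fun b hb => ?_).trans
        ((card_union_le _ _).trans ?_)
      · obtain ⟨⟨h1, h2, -⟩, h3⟩ := (mem_filter.1 hb).2
        rcases mem_union.1 h3 with h3 | h3
        · exact mem_union_left _ (mem_product.2 ⟨mem_filter.2 ⟨mem_univ _, h1, h3⟩,
            mem_filter.2 ⟨mem_univ _, h2⟩⟩)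
        · exact mem_union_right _ (mem_product.2 ⟨mem_filter.2 ⟨mem_univ _, h1⟩,
            mem_filter.2 ⟨mem_univ _, h2, h3⟩⟩)
      · rw [card_product, card_product, mul_comm, ← two_mul]
        have c4 : 4 * l ≤ 1000 ^ l := by
          calc 4 * l ≤ 2 ^ l * 2 ^ l := Nat.mul_le_mul
                (le_trans (by norm_num) (Nat.pow_le_pow_right (by norm_num) hl))
                Nat.lt_two_pow_self.le
            _ ≤ 1000 ^ l := by rw [← mul_pow]; exact Nat.pow_le_pow_left (by norm_num) _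
        calc _ ≤ 2 * (1000 ^ (7 * l) * 1000 * 1000 ^ l * (2 * l * 1000 ^ l)) :=
              Nat.mul_le_mul_left _ (Nat.mul_le_mul (c3.trans (by gcongr)) c2)
          _ = 4 * l * 1000 ^ (9 * l + 1) := by ring
          _ ≤ 1000 ^ l * 1000 ^ (9 * l + 1) := Nat.mul_le_mul_right _ c4
          _ = _ := by ring
    · rw [Nat.cast_pow, Nat.cast_ofNat, mul_div_cancel₀ _ (by positivity)]

theorem nb_of {A : Type} {io : A → A} {lab : Fin N × Fin 1000 → A}
    (h1 : ∀ h, lab (M h) = io (lab h)) {u : List A} (hu : Red io u) {o : ℕ → Fin N × Fin 1000}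
    (ho : ∀ k (hk : k < u.length), (o (k + 1)).1 = (M (o k)).1 ∧ lab (o k) = u[k]) (k : ℕ)
    (hk : k + 1 < u.length) : (o (k + 1)).1 = (M (o k)).1 ∧ o (k + 1) ≠ M (o k) :=
  ⟨(ho k (by omega)).1, fun e => List.isChain_iff_getElem.1 hu k hk (by
    rw [← (ho _ hk).2, e, h1, (ho k (by omega)).2])⟩

end B2

open B2

theorem label {S : Type} [Fintype S] (hS : 4 * 1000 ^ 34 ≤ Fintype.card S) (N l : ℕ) (hl : 3 ≤ l)
    (hN0 : 0 < N) (hN : N ≤ 1000 ^ (7 * l)) (M : Fin N × Fin 1000 → Fin N × Fin 1000)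
    (hM : ∀ h, M (M h) = h) (hg : Gir M (6 * l)) (F : ℕ → Finset (List (S × Bool)))
    (hF : ∀ j, (F j).card ≤ 1000 ^ (8 * j)) :
    ∃ lab : Fin N × Fin 1000 → S × Bool, (∀ h, lab (M h) = flip (lab h)) ∧
      (∀ v i j, lab (v, i) = lab (v, j) → i = j) ∧
      (∀ v u, Red flip u → Rd (EM M lab) v u v → u ≠ [] → 6 * l ≤ u.length) ∧
      (∀ v u v', Red flip u → Rd (EM M lab) v u v' → 1 ≤ u.length → u.length ≤ l →
        u ∉ F u.length) ∧
      ∀ v v' u z z', v ≠ v' → Red flip u → Rd (EM M lab) v u z → Rd (EM M lab) v' u z' →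
        u.length < l := by
  classical
  have hv := gir0 hg (by omega)
  have : Nonempty (Fin N × Fin 1000) := ⟨(⟨0, hN0⟩, 0)⟩
  obtain ⟨Q, h2⟩ := fam2 (S := S) hM hl hN hg
  obtain ⟨f, hf⟩ := (((fam0 hM hv (1000 ^ 34) (by norm_num)).sum (fam1 hM hg F hF)).sum h2).ex
    (by norm_num) (by
      have : ((4 * 1000 ^ 34 : ℕ) : ℝ) ≤ Fintype.card S := Nat.cast_le.2 hS
      rw [Nat.cast_mul, Nat.cast_pow, Nat.cast_ofNat, Nat.cast_ofNat] at this
      linarith)
  have p1 : ∀ h, lb M f (M h) = flip (lb M f h) := fun h => by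
    have : M h ≠ h := fun e => hv h (by rw [e])
    rw [lb, lb, flip, ed_M hM]
    rcases ed_or (M := M) h with e | e <;> simp [e, this, this.symm]
  have p2 : ∀ h h' : Fin N × Fin 1000, h.1 = h'.1 → lb M f h = lb M f h' → h = h' :=
    fun h h' e e' => by_contra fun hne =>
      hf (Sum.inl (Sum.inl (h, h'))) ⟨⟨e, hne⟩, congrArg Prod.fst e'⟩
  refine ⟨lb M f, p1, fun v i j h => congrArg Prod.snd (p2 (v, i) (v, j) rfl h), fun v u hu h hne => ?_,
    fun v u v' hu h h1 h2 hmem => ?_, fun v v' u z z' hne hu h h' => ?_⟩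
  · obtain ⟨o, o0, o1, o2⟩ := walk _ h
    have := List.length_pos_iff.2 hne
    by_contra hc
    refine hg (u.length - 1) o (by omega) (fun j hj => nb_of p1 hu o2 j (by omega)) ?_
    rw [← (o2 _ (by omega)).1, Nat.sub_add_cancel this, o0, o1]
  · obtain ⟨o, -, -, o2⟩ := walk _ h
    obtain ⟨j, hj⟩ : ∃ j, u.length = j + 1 := ⟨u.length - 1, by omega⟩
    refine hf (Sum.inl (Sum.inr ⟨⟨j, by omega⟩, fun i => o i⟩)) ⟨fun a b hab => ?_, ?_⟩
    · have := b.2
      simp only [hab]
      exact nb_of p1 hu o2 _ (by simp only at this; omega)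
    · rw [show (List.ofFn fun i : Fin (j + 1) => lb M f (o i)) = u from
        List.ext_getElem (by simp [hj]) fun i h1 h2 => by
          rw [List.getElem_ofFn]; exact (o2 i h2).2]
      exact hj ▸ hmem
  · by_contra hc
    obtain ⟨o, o0, -, o2⟩ := walk _ h
    obtain ⟨o', o0', -, o2'⟩ := walk _ h'
    have hl' : ∀ k, k < l → lb M f (o k) = lb M f (o' k) := fun k hk => by
      rw [(o2 k (by omega)).2, (o2' k (by omega)).2]
    have hd : ∀ k, k < l → o k ≠ o' k := fun k => by
      induction k with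
      | zero => exact fun _ e => hne (by rw [← o0, ← o0', e])
      | succ k ih =>
        refine fun hk e => ih (by omega) ?_
        rw [← hM (o k), ← hM (o' k), p2 (M (o k)) (M (o' k))
          (by rw [← (o2 k (by omega)).1, ← (o2' k (by omega)).1, e])
          (by rw [p1, p1, hl' k (by omega)])]
    refine hf (Sum.inr (fun i => o i, fun i => o' i)) ⟨⟨fun a b hab => ?_, fun a b hab => ?_,
      fun i e => ?_⟩, fun i => congrArg Prod.fst (hl' i i.2)⟩
    · have := b.2
      simp only [hab]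
      exact nb_of p1 hu o2 _ (by omega)
    · have := b.2
      simp only [hab]
      exact nb_of p1 hu o2' _ (by omega)
    · rcases ed_eq hM e with e' | e'
      · exact hd i i.2 e'.symm
      · have := hl' i i.2
        rw [show o' i = M (o i) from e', p1] at this
        simpa [flip] using congrArg Prod.snd this

end Vale.Agent.P089
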