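import Vale.Agent.P089.Defs

/-!
Reading words along labelled relations.
-/

namespace Vale.Agent.P089

open Finset

variable {A W : Type} [Fintype A]

omit [Fintype A] in
theorem rd_append {α : Type} {E : α → A → α → Prop} {x z : α} {u v : List A} :
    Rd E x (u ++ v) z ↔ ∃ y, Rd E x u y ∧ Rd E y v z := by
  induction u generalizing x with
  | nil => simp [Rd]
  | cons a u ih =>
    simp only [List.cons_append, Rd, ih]
    constructor
    · rintro ⟨w, h, y, h1, h2⟩; exact ⟨y, ⟨w, h, h1⟩, h2⟩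
    · rintro ⟨y, ⟨w, h, h1⟩, h2⟩; exact ⟨w, h, y, h1, h2⟩

omit [Fintype A] in
theorem rd_single {α : Type} {E : α → A → α → Prop} {x y : α} {a : A} :
    Rd E x [a] y ↔ E x a y := by simp [Rd]

omit [Fintype A] in
theorem rd_mono {α β : Type} {E : α → A → α → Prop} {E' : β → A → β → Prop} (f : α → β)
    (h : ∀ x a y, E x a y → E' (f x) a (f y)) {x y : α} {u : List A} (hu : Rd E x u y) :
    Rd E' (f x) u (f y) := by
  induction u generalizing x with
  | nil => exact congrArg f hu
  | cons a u ih =>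
    obtain ⟨z, h1, h2⟩ := hu
    exact ⟨f z, h _ _ _ h1, ih h2⟩

omit [Fintype A] in
theorem rd_rev {α : Type} {E : α → A → α → Prop} {io : A → A}
    (hs : ∀ x a y, E x a y → E y (io a) x) {x y : α} {u : List A} (hu : Rd E x u y) :
    Rd E y (u.map io).reverse x := by
  induction u generalizing x with
  | nil => exact Eq.symm hu
  | cons a u ih =>
    obtain ⟨z, h1, h2⟩ := hu
    rw [List.map_cons, List.reverse_cons, rd_append]
    exact ⟨z, ih h2, rd_single.2 (hs _ _ _ h1)⟩

omit [Fintype A] in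
theorem rd_func {α : Type} {E : α → A → α → Prop} (hf : ∀ x a y z, E x a y → E x a z → y = z)
    {x y z : α} {u : List A} (h1 : Rd E x u y) (h2 : Rd E x u z) : y = z := by
  induction u generalizing x with
  | nil => exact Eq.trans (Eq.symm h1) h2
  | cons a u ih =>
    obtain ⟨p, p1, p2⟩ := h1
    obtain ⟨q, q1, q2⟩ := h2
    obtain rfl := hf _ _ _ _ p1 q1
    exact ih p2 q2

omit [Fintype A] in
theorem red_cons {io : A → A} {a : A} {u : List A} :
    Red io (a :: u) ↔ (∀ b, u.head? = some b → b ≠ io a) ∧ Red io u := by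
  cases u with
  | nil => simp [Red]
  | cons b u => simp [Red, List.isChain_cons_cons]

omit [Fintype A] in
theorem red_nil {io : A → A} : Red io [] := by simp [Red]

omit [Fintype A] in
theorem red_single {io : A → A} {a : A} : Red io [a] := by simp [Red]

omit [Fintype A] in
theorem red_append {io : A → A} {u v : List A} : Red io (u ++ v) ↔
    Red io u ∧ Red io v ∧ ∀ a ∈ u.getLast?, ∀ b ∈ v.head?, b ≠ io a := List.isChain_append

omit [Fintype A] in
theorem red_rev {io : A → A} (hio : ∀ a, io (io a) = a) {u : List A} (h : Red io u) :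
    Red io (u.map io).reverse := by
  unfold Red at *
  rw [List.isChain_reverse, List.isChain_map]
  refine h.imp fun a b hab e => hab ?_
  rw [hio] at e
  rw [← e]

omit [Fintype A] in
theorem rd_red {α : Type} {E : α → A → α → Prop} {io : A → A}
    (hc : ∀ x a y z, E x a y → E y (io a) z → z = x) {x y : α} {u : List A} (hu : Rd E x u y) :
    ∃ u', Red io u' ∧ u'.length ≤ u.length ∧ Rd E x u' y := by
  induction u generalizing x with
  | nil => exact ⟨[], red_nil, le_rfl, hu⟩
  | cons a u ih =>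
    obtain ⟨z, h1, h2⟩ := hu
    obtain ⟨u', r1, r2, r3⟩ := ih h2
    by_cases h : u'.head? = some (io a)
    · cases u' with
      | nil => simp at h
      | cons b u'' =>
        obtain rfl : b = io a := by simpa using h
        obtain ⟨z', e1, e2⟩ := r3
        obtain rfl := hc _ _ _ _ h1 e1
        exact ⟨u'', (red_cons.1 r1).2, by simp at r2 ⊢; omega, e2⟩
    · exact ⟨a :: u', red_cons.2 ⟨fun b hb e => h (e ▸ hb), r1⟩, by simpa using r2, z, h1, r3⟩

theorem rd_comp (L : Lab A W) {w w' : W} {u : List A} (h : Rd L.E w u w') :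
    L.comp w' = L.comp w := by
  induction u generalizing w with
  | nil => exact congrArg L.comp (Eq.symm h)
  | cons a u ih =>
    obtain ⟨z, h1, h2⟩ := h
    rw [ih h2, L.comp_eq h1]

theorem Lab.canc (L : Lab A W) (x : W) (a : A) (y z : W) (h1 : L.E x a y) (h2 : L.E y (L.io a) z) :
    z = x := L.func h2 (L.symm h1)

theorem rd_uniq (L : Lab A W) {w z : W} {u u' : List A} (h : Red L.io u) (h' : Red L.io u')
    (r : Rd L.E w u z) (r' : Rd L.E w u' z) (hl : u.length + u'.length < 6 * L.len (L.comp w)) :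
    u = u' := by
  induction u generalizing w u' with
  | nil =>
    obtain rfl : w = z := r
    by_contra hne
    have := L.girth h' r' (Ne.symm hne)
    simp at hl; omega
  | cons a u ih =>
    cases u' with
    | nil =>
      obtain rfl : w = z := r'
      have := L.girth h r (by simp)
      simp at hl this; omega
    | cons b u' =>
      by_cases hab : a = b
      · subst hab
        obtain ⟨p, p1, p2⟩ := r
        obtain ⟨q, q1, q2⟩ := r'
        obtain rfl := L.func p1 q1
        rw [ih (red_cons.1 h).2 (red_cons.1 h').2 p2 q2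
          (by rw [L.comp_eq p1]; simp at hl; omega)]
      · exfalso
        have r1 : Rd L.E z (((a :: u).map L.io).reverse ++ b :: u') z :=
          rd_append.2 ⟨w, rd_rev (fun _ _ _ => L.symm) r, r'⟩
        have r2 : Red L.io (((a :: u).map L.io).reverse ++ b :: u') := by
          refine red_append.2 ⟨red_rev L.io_io h, h', ?_⟩
          intro c hc d hd
          simp at hc hd
          subst hc hd
          rw [L.io_io]; exact Ne.symm hab
        have := L.girth r2 r1 (by simp)
        rw [rd_comp L r] at this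
        simp at this hl; omega

theorem cl_refl (L : Lab A W) {S : Type} (hor : S → A → S → Prop) (p : S × W) : Cl L hor p p :=
  ⟨[], rfl⟩

theorem Layer.pe_symm {L : Lab A W} (Y : Layer L) (p : Y.S × W) (a : A) (q : Y.S × W)
    (h : PE L Y.hor p a q) : PE L Y.hor q (L.io a) p := ⟨Y.hsymm h.1, L.symm h.2⟩

theorem Layer.pe_func {L : Lab A W} (Y : Layer L) (p : Y.S × W) (a : A) (q r : Y.S × W)
    (h : PE L Y.hor p a q) (h' : PE L Y.hor p a r) : q = r :=
  Prod.ext (Y.hfunc h.1 h'.1) (L.func h.2 h'.2)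

theorem Layer.pe_canc {L : Lab A W} (Y : Layer L) (p : Y.S × W) (a : A) (q r : Y.S × W)
    (h : PE L Y.hor p a q) (h' : PE L Y.hor q (L.io a) r) : r = p :=
  Y.pe_func _ _ _ _ h' (Y.pe_symm _ _ _ h)

theorem Layer.cl_symm {L : Lab A W} (Y : Layer L) {p q : Y.S × W} (h : Cl L Y.hor p q) :
    Cl L Y.hor q p := by
  obtain ⟨u, hu⟩ := h
  exact ⟨_, rd_rev Y.pe_symm hu⟩

theorem cl_trans {L : Lab A W} {S : Type} {hor : S → A → S → Prop} {p q r : S × W}
    (h : Cl L hor p q) (h' : Cl L hor q r) : Cl L hor p r := by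
  obtain ⟨u, hu⟩ := h
  obtain ⟨v, hv⟩ := h'
  exact ⟨u ++ v, rd_append.2 ⟨q, hu, hv⟩⟩

theorem rd_snd {L : Lab A W} {S : Type} {hor : S → A → S → Prop} {p q : S × W} {u : List A}
    (h : Rd (PE L hor) p u q) : Rd L.E p.2 u q.2 := rd_mono Prod.snd (fun _ _ _ h => h.2) h

theorem cl_comp {L : Lab A W} {S : Type} {hor : S → A → S → Prop} {p q : S × W}
    (h : Cl L hor p q) : L.comp q.2 = L.comp p.2 := by
  obtain ⟨u, hu⟩ := h
  exact rd_comp L (rd_snd hu)

theorem Layer.pres_cl {L : Lab A W} (Y : Layer L) {p q : Y.S × W} (hp : Y.pres p)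
    (h : Cl L Y.hor p q) : Y.pres q := by
  obtain ⟨u, hu⟩ := h
  induction u generalizing p with
  | nil => exact (show p = q from hu) ▸ hp
  | cons a u ih =>
    obtain ⟨z, h1, h2⟩ := hu
    exact ih (Y.p1 hp h1) h2

theorem Layer.npres {L : Lab A W} (Y : Layer L) {p q : Y.S × W} (hp : ¬ Y.pres p)
    (h : Cl L Y.hor p q) : ¬ Y.pres q := fun hq => hp (Y.pres_cl hq (Y.cl_symm h))

theorem Layer.new_cl {L : Lab A W} (Y : Layer L) {p q : Y.S × W} {w : W} (hp : Y.New p w)
    (h : Cl L Y.hor p q) : Y.New q w :=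
  ⟨Y.npres hp.1 h, hp.2.1.trans (cl_comp h).symm, fun ⟨y, hy⟩ => hp.2.2 ⟨y, cl_trans h hy⟩⟩

/-- Two points of a class are joined by a short reduced path. -/
theorem Layer.short {L : Lab A W} (Y : Layer L) {p q r : Y.S × W} (hp : ¬ Y.pres p)
    (h1 : Cl L Y.hor p q) (h2 : Cl L Y.hor p r) :
    ∃ t, Red L.io t ∧ t.length + 2 ≤ 2 * L.len (L.comp p.2) ∧ Rd (PE L Y.hor) q t r := by
  obtain ⟨p0, -, h0⟩ := Y.cen p hp
  obtain ⟨u, -, u2, u3⟩ := h0 q h1
  obtain ⟨v, -, v2, v3⟩ := h0 r h2
  obtain ⟨t, t1, t2, t3⟩ := rd_red Y.pe_canc (rd_append.2 ⟨p0, rd_rev Y.pe_symm u3, v3⟩)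
  refine ⟨t, t1, ?_, t3⟩
  simp at t2; omega

theorem Layer.winj {L : Lab A W} (Y : Layer L) {p : Y.S × W} {y1 y2 : Y.S} {w : W}
    (hp : ¬ Y.pres p) (h1 : Cl L Y.hor p (y1, w)) (h2 : Cl L Y.hor p (y2, w)) : y1 = y2 := by
  obtain ⟨t, t1, t2, t3⟩ := Y.short hp h1 h2
  have e : L.comp w = L.comp p.2 := cl_comp h1
  obtain rfl : t = [] := rd_uniq L t1 red_nil (rd_snd t3) rfl (by simp [e]; omega)
  exact congrArg Prod.fst (show (y1, w) = (y2, w) from t3)

theorem Layer.t_step {L : Lab A W} (Y : Layer L) {p : Y.S × W} {y y' : Y.S} {w w' : W} {a : A}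
    (hp : ¬ Y.pres p) (h1 : Cl L Y.hor p (y, w)) (h2 : Cl L Y.hor p (y', w')) (e : L.E w a w') :
    Y.hor y a y' := by
  obtain ⟨t, t1, t2, t3⟩ := Y.short hp h1 h2
  have e' : L.comp w = L.comp p.2 := cl_comp h1
  obtain rfl : t = [a] := rd_uniq L t1 red_single (rd_snd t3) (rd_single.2 e)
    (by simp [e']; omega)
  exact (rd_single.1 t3).1

end Vale.Agent.P089
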