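import Vale.Agent.P089.C1a

/-!
The next layer of the development.
-/

namespace Vale.Agent.P089

open Finset

variable {A W : Type} [Fintype A] {L : Lab A W}

namespace C1

variable {Y : Layer L}

theorem far (Y : Layer L) :
    ∃ p z, Y.New p z ∧ ∀ y v r, Hang Y p z y v r → L.len (L.comp z) ≤ r.length := by
  obtain ⟨p, hp⟩ := Y.ne
  obtain ⟨p0, c0, h0⟩ := Y.cen p hp
  obtain ⟨u, z, u1, u2, u3⟩ := exists_red L p0.2 (2 * L.len (L.comp p.2))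
  have e0 : L.comp p0.2 = L.comp p.2 := cl_comp c0
  have e1 : L.comp z = L.comp p.2 := (rd_comp L u3).trans e0
  refine ⟨p, z, ⟨hp, e1, fun ⟨y, hy⟩ => ?_⟩, fun y v r hr => ?_⟩
  · obtain ⟨t, t1, t2, t3⟩ := h0 _ hy
    have := rd_uniq L u1 t1 u3 (rd_snd t3) (by rw [e0]; omega)
    rw [this] at u2; omega
  · by_contra hl
    obtain ⟨t, -, t2, t3⟩ := h0 _ hr.1
    obtain ⟨u', v1, v2, v3⟩ := rd_red L.canc (rd_append.2 ⟨v, rd_snd t3, hr.2.2.1⟩)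
    rw [List.length_append] at v2
    rw [e1] at hl
    have := rd_uniq L u1 v1 u3 v3 (by rw [e0]; omega)
    rw [this] at u2; omega

structure Hi (Y : Layer L) (S' : Type) where
  hi : Y.S × W → W → S'
  surj : ∀ x, ∃ p w, Y.New p w ∧ x = hi p w
  cls : ∀ {p q} w, Cl L Y.hor p q → hi p w = hi q w
  eqv : ∀ {p q w w'}, Y.New p w → Y.New q w' → (hi p w = hi q w' ↔ Eqv Y p w q w')

theorem exists_hi (hc : L.Conn) (Y : Layer L) : ∃ S', Nonempty (Hi Y S') := by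
  classical
  let st : Setoid {x : (Y.S × W) × W // Y.New x.1 x.2} :=
    ⟨fun a b => Eqv Y a.1.1 a.1.2 b.1.1 b.1.2,
      fun a => eqv_cl hc a.2.2.1 (cl_refl _ _ _), eqv_symm, fun {a b _} => eqv_trans a.2 b.2⟩
  obtain ⟨p0, z0, h0, -⟩ := far Y
  refine ⟨Quotient st, ⟨⟨fun p w => if h : Y.New p w then Quotient.mk st ⟨(p, w), h⟩ else
    Quotient.mk st ⟨(p0, z0), h0⟩, ?_, ?_, ?_⟩⟩⟩
  · intro x
    obtain ⟨⟨⟨p, w⟩, h⟩, rfl⟩ := Quotient.exists_rep x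
    exact ⟨p, w, h, by rw [dif_pos h]⟩
  · intro p q w h
    by_cases hp : Y.New p w
    · rw [dif_pos hp, dif_pos (Y.new_cl hp h)]
      exact Quotient.sound (eqv_cl hc hp.2.1 h)
    · rw [dif_neg hp, dif_neg fun hq => hp (Y.new_cl hq (Y.cl_symm h))]
  · intro p q w w' hp hq
    rw [dif_pos hp, dif_pos hq]
    exact Quotient.eq

variable {S' : Type} (I : Hi Y S')

def hor (x : S') (a : A) (x' : S') : Prop :=
  ∃ p w w', Y.New p w ∧ Y.New p w' ∧ L.E w a w' ∧ x = I.hi p w ∧ x' = I.hi p w'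

def dn (x : S') (a : A) : Prop := ∃ p w w', Y.New p w ∧ Y.T p w' ∧ L.E w a w' ∧ x = I.hi p w

def pres (x : S' × W) : Prop := ∃ p, Y.New p x.2 ∧ x.1 = I.hi p x.2

theorem hi_same {p q : Y.S × W} {w w' : W} (hp : Y.New p w) (hq : Y.New q w')
    (e : I.hi p w = I.hi q w') (c : Cl L Y.hor p q) : w = w' :=
  eqv_same hp.1 ((I.eqv hp hq).1 e) c

theorem hi_hang {p q : Y.S × W} {w w' : W} {y : Y.S} {v v' : W} {r : List A} (hp : Y.New p w)
    (hq : Y.New q w') (h : Hang Y p w y v r) (h' : Hang Y q w' y v' r) : I.hi p w = I.hi q w' :=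
  (I.eqv hp hq).2 (eqv_hang h h')

theorem hi_ext {p q : Y.S × W} {w w' z z' : W} {a : A} (hp : Y.New p w) (hq : Y.New q w')
    (e : I.hi p w = I.hi q w') (e1 : L.E w a z) (e2 : L.E w' a z') (hp' : Y.New p z)
    (hq' : Y.New q z') : I.hi p z = I.hi q z' := by
  obtain ⟨y, v1, v2, u, h1, h2, h3, h4⟩ := (I.eqv hp hq).1 e
  exact (I.eqv hp' hq').2 ⟨y, v1, v2, u ++ [a], h1, h2, rd_append.2 ⟨_, h3, rd_single.2 e1⟩,
    rd_append.2 ⟨_, h4, rd_single.2 e2⟩⟩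

theorem dn_tr {p q : Y.S × W} {w w' z : W} {a : A} (hp : Y.New p w) (hq : Y.New q w')
    (e : I.hi p w = I.hi q w') (e1 : L.E w a z) (hT : Y.T p z) : ∃ z', L.E w' a z' ∧ Y.T q z' := by
  obtain ⟨y, hy⟩ := hT
  have := L.len_pos (L.comp w)
  obtain ⟨v', h⟩ := hang_all hp ((I.eqv hp hq).1 e) (hang_one hp hy (L.symm e1)) (by simp; omega)
  have e2 := L.symm (rd_single.1 h.2.2.1)
  rw [L.io_io] at e2
  exact ⟨v', e2, y, h.1⟩

theorem up {y : Y.S} {v v' : W} {a : A} {w w' : W} (h : Y.New (y, v) w) (e : L.E v a w)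
    (h' : ¬ Y.pres (y, v')) (e' : L.E v' a w') :
    Y.New (y, v') w' ∧ I.hi (y, v) w = I.hi (y, v') w' := by
  have h1 := hang_one h (cl_refl _ _ _) e
  have h2 : Hang Y (y, v') w' y v' [a] := ⟨cl_refl _ _ _, red_single, rd_single.2 e', h1.2.2.2⟩
  have := L.len_pos (L.comp v')
  have h3 := hang_notT h' h2 (by simp; omega)
  exact ⟨h3, hi_hang I h h3 h1 h2⟩

theorem hsymm {x : S'} {a : A} {x' : S'} (h : hor I x a x') : hor I x' (L.io a) x := by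
  obtain ⟨p, w, w', a1, a2, a3, a4, a5⟩ := h
  exact ⟨p, w', w, a2, a1, L.symm a3, a5, a4⟩

theorem hfunc {x : S'} {a : A} {x1 x2 : S'} (h : hor I x a x1) (h' : hor I x a x2) : x1 = x2 := by
  obtain ⟨p, w, w', a1, a2, a3, a4, rfl⟩ := h
  obtain ⟨q, z, z', b1, b2, b3, b4, rfl⟩ := h'
  exact hi_ext I a1 b1 (a4.symm.trans b4) a3 b3 a2 b2

theorem hd {x : S'} {a : A} {x' : S'} (h : hor I x a x') : ¬ dn I x a := by
  obtain ⟨p, w, w', a1, a2, a3, a4, -⟩ := h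
  rintro ⟨q, z, z', b1, b2, b3, b4⟩
  obtain ⟨z2, c1, c2⟩ := dn_tr I b1 a1 (b4.symm.trans a4) b3 b2
  exact a2.2.2 (L.func c1 a3 ▸ c2)

theorem p1 {P : S' × W} {a : A} {Q : S' × W} (h : pres I P) (e : PE L (hor I) P a Q) :
    pres I Q := by
  obtain ⟨p, a1, a2⟩ := h
  obtain ⟨⟨q, z, z', b1, b2, b3, b4, b5⟩, e2⟩ := e
  have hn : Y.New p Q.2 := ⟨a1.1, (L.comp_eq e2).trans a1.2.1, fun hT => by
    obtain ⟨z2, c1, c2⟩ := dn_tr I a1 b1 (a2.symm.trans b4) e2 hT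
    exact b2.2.2 (L.func c1 b3 ▸ c2)⟩
  exact ⟨p, hn, b5.trans (hi_ext I b1 a1 (b4.symm.trans a2) b3 e2 b2 hn)⟩

theorem p2 {P : S' × W} {a : A} {w' : W} (h : pres I P) (e : L.E P.2 a w') :
    dn I P.1 a ∨ ∃ x', hor I P.1 a x' := by
  obtain ⟨p, a1, a2⟩ := h
  by_cases hT : Y.T p w'
  · exact Or.inl ⟨p, _, w', a1, hT, e, a2⟩
  · exact Or.inr ⟨_, p, _, w', a1, ⟨a1.1, (L.comp_eq e).trans a1.2.1, hT⟩, e, a2, rfl⟩

theorem p3 {P : S' × W} {a : A} {w' : W} (h : ¬ pres I P) (e : L.E P.2 a w') : ¬ dn I P.1 a := by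
  rintro ⟨q, z, z', b1, ⟨y, b2⟩, b3, b4⟩
  have n1 : Y.New (y, z') z := Y.new_cl b1 b2
  by_cases hp : Y.pres (y, w')
  · rcases Y.p2 hp (L.symm e) with c | ⟨y', c⟩
    · exact Y.p3 n1.1 (L.symm b3) c
    · exact n1.2.2 ⟨y', [L.io a], rd_single.2 ⟨c, L.symm b3⟩⟩
  · obtain ⟨c1, c2⟩ := up I n1 (L.symm b3) hp (L.symm e)
    exact h ⟨_, c1, b4.trans ((I.cls z b2).trans c2)⟩

theorem cl_symm' {P Q : S' × W} (h : Cl L (hor I) P Q) : Cl L (hor I) Q P := by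
  obtain ⟨u, hu⟩ := h
  exact ⟨_, rd_rev (io := L.io) (fun _ _ _ h => ⟨hsymm I h.1, L.symm h.2⟩) hu⟩

omit [Fintype A] in
theorem rd_ind {α : Type} {E : α → A → α → Prop} (G : α → Prop)
    (h : ∀ x a y, G x → E x a y → G y) {x y : α} {u : List A} (hx : G x) (hu : Rd E x u y) :
    G y := by
  induction u generalizing x with
  | nil => exact (show x = y from hu) ▸ hx
  | cons a u ih =>
    obtain ⟨z, h1, h2⟩ := hu
    exact ih (h _ _ _ hx h1) h2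

theorem npres' {P Q : S' × W} (hp : ¬ pres I P) (h : Cl L (hor I) P Q) : ¬ pres I Q := by
  obtain ⟨u, hu⟩ := cl_symm' I h
  exact fun hq => hp (rd_ind (pres I) (fun _ _ _ => p1 I) hq hu)

theorem near_aux {p q : Y.S × W} {w w' : W} {y : Y.S} {v v' : W} (hp : ¬ Y.pres p)
    (hq : ¬ Y.pres q) (r2 r1 : List A) (z : W) (h0 : Rd L.E v r1 z)
    (h1 : Hang Y p w y v (r1 ++ r2)) (h2 : Hang Y q w' y v' (r1 ++ r2))
    (l1 : (r1 ++ r2).length ≤ 4 * L.len (L.comp p.2))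
    (l2 : (r1 ++ r2).length ≤ 4 * L.len (L.comp q.2)) :
    Rd (fun z a z' => L.E z a z' ∧ Y.New p z' ∧ ∃ z2, Y.New q z2 ∧ I.hi p z' = I.hi q z2)
      z r2 w := by
  induction r2 generalizing r1 z with
  | nil => exact rd_func (E := L.E) (fun _ _ _ _ => L.func) h0 (by simpa using h1.2.2.1)
  | cons b r2 ih =>
    have e : r1 ++ b :: r2 = (r1 ++ [b]) ++ r2 := by simp
    rw [e] at h1 h2 l1 l2
    obtain ⟨z1, a1, -⟩ := hang_pre h1 (by simp)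
    obtain ⟨z2, b1, -⟩ := hang_pre h2 (by simp)
    have n1 := hang_notT hp a1 (by rw [List.length_append] at l1; omega)
    have n2 := hang_notT hq b1 (by rw [List.length_append] at l2; omega)
    obtain ⟨z0, c1, c2⟩ := rd_append.1 a1.2.2.1
    obtain rfl := rd_func (E := L.E) (fun _ _ _ _ => L.func) h0 c1
    exact ⟨z1, ⟨rd_single.1 c2, n1, z2, n2, hi_hang I n1 n2 a1 b1⟩,
      ih (r1 ++ [b]) z1 a1.2.2.1 h1 h2 l1 l2⟩

theorem edge {p q : Y.S × W} {w w' : W} {a : A} (hp : Y.New p w) (hq : Y.New q w')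
    (h : hor I (I.hi p w) a (I.hi q w')) :
    (∃ z, L.E w a z) ∨ ∃ z, Y.New q z ∧ I.hi p w = I.hi q z ∧ L.E z a w' := by
  obtain ⟨r, z1, z2, a1, a2, a3, a4, a5⟩ := h
  by_cases c1 : Cl L Y.hor p r
  · obtain rfl := hi_same I hp a1 a4 c1
    exact Or.inl ⟨_, a3⟩
  by_cases c2 : Cl L Y.hor q r
  · obtain rfl := hi_same I hq a2 a5 c2
    exact Or.inr ⟨z1, Y.new_cl a1 (Y.cl_symm c2), a4.trans (I.cls _ c2).symm, a3⟩
  obtain ⟨y, vp, v, r1, b1, b2, -, b4⟩ := gate hp ((I.eqv hp a1).1 a4) c1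
  obtain ⟨y', vq, v', r2, d1, d2, d3, d4⟩ := gate hq ((I.eqv hq a2).1 a5) c2
  rcases hang_step b2 a3 a2.2.2 with e | ⟨r', rfl, -⟩
  · obtain ⟨rfl, rfl, rfl⟩ := hang_uniq a1.1 e d2
      (by rw [a1.2.1] at b4; rw [a2.2.1] at d4; simp; omega)
    obtain ⟨z, f1, f2⟩ := hang_pre d1 (by obtain ⟨-, -, -, _, _, rfl, -⟩ := b1; simp)
    have n := hang_notT hq.1 f1 (by rw [hq.2.1] at d3; simp at d3; omega)
    exact Or.inr ⟨z, n, hi_hang I hp n b1 f1, rd_single.1 f2⟩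
  · obtain ⟨z, hz⟩ := rd_last b1.2.2.1 (b := L.io a) (by simp)
    have := L.symm hz
    rw [L.io_io] at this
    exact Or.inl ⟨z, this⟩

def KP (Y : Layer L) (p : Y.S × W) (s : W × W) (a : A) (s' : W × W) : Prop :=
  L.E s.1 a s'.1 ∧ L.E s.2 a s'.2 ∧ Y.New p s.1 ∧ Y.New p s'.1

theorem kp_fst {p : Y.S × W} {s s' : W × W} {u : List A} (h : Rd (KP Y p) s u s') :
    Rd L.E s.1 u s'.1 := rd_mono Prod.fst (fun _ _ _ h => h.1) h

theorem kp_snd {p : Y.S × W} {s s' : W × W} {u : List A} (h : Rd (KP Y p) s u s') :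
    Rd L.E s.2 u s'.2 := rd_mono Prod.snd (fun _ _ _ h => h.2.1) h

theorem kp_pe {p : Y.S × W} {s s' : W × W} {u : List A} (h : Rd (KP Y p) s u s') :
    Rd (PE L (hor I)) (I.hi p s.1, s.2) u (I.hi p s'.1, s'.2) :=
  rd_mono (fun s : W × W => (I.hi p s.1, s.2))
    (fun _ _ _ h => ⟨⟨p, _, _, h.2.2.1, h.2.2.2, h.1, rfl, rfl⟩, h.2.1⟩) h

theorem kp_step {p : Y.S × W} {s s' s'' : W × W} {u : List A} {a : A} (h : Rd (KP Y p) s u s')
    (e : KP Y p s' a s'') : ∃ u', Red L.io u' ∧ Rd (KP Y p) s u' s'' := by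
  obtain ⟨u', a1, -, a3⟩ := rd_red (io := L.io) (E := KP Y p) (fun x a y z h h' =>
    Prod.ext (L.canc _ _ _ _ h.1 h'.1) (L.canc _ _ _ _ h.2.1 h'.2.1))
    (rd_append.2 ⟨_, h, rd_single.2 e⟩)
  exact ⟨u', a1, a3⟩

theorem hang_path {q : Y.S × W} {z : W} {y : Y.S} {v : W} (hq : ¬ Y.pres q) (u r : List A)
    (z0 w0 w1 : W) (h0 : Hang Y q z0 y v r) (h1 : Hang Y q z y v (r ++ u))
    (l : (r ++ u).length ≤ 4 * L.len (L.comp q.2)) (hw : Rd L.E w0 u w1) :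
    Rd (KP Y q) (z0, w0) u (z, w1) := by
  induction u generalizing r z0 w0 with
  | nil =>
    exact Prod.ext (rd_func (E := L.E) (fun _ _ _ _ => L.func) h0.2.2.1
      (by simpa using h1.2.2.1)) hw
  | cons b u ih =>
    have e : r ++ b :: u = (r ++ [b]) ++ u := by simp
    rw [e] at h1 l
    obtain ⟨z1, a1, -⟩ := hang_pre h1 (by simp)
    obtain ⟨w2, b1, b2⟩ := hw
    have n0 := hang_notT hq h0 (by simp at l; omega)
    have n1 := hang_notT hq a1 (by rw [List.length_append] at l; omega)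
    obtain ⟨z2, c1, c2⟩ := rd_append.1 a1.2.2.1
    obtain rfl := rd_func (E := L.E) (fun _ _ _ _ => L.func) h0.2.2.1 c1
    exact ⟨(z1, w2), ⟨rd_single.1 c2, b1, n0, n1⟩, ih (r ++ [b]) z1 w2 a1 h1 l b2⟩

/-- Points that lie in two new copies. -/
def Sh (x : S') (y : Y.S) (r : List A) : Prop :=
  ∃ p q z z' v v', Y.New p z ∧ Y.New q z' ∧ ¬ Cl L Y.hor p q ∧ Hang Y p z y v r ∧
    Hang Y q z' y v' r ∧ x = I.hi p z ∧ r.length < L.len (L.comp z) ∧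
    r.length < L.len (L.comp z')

theorem sh_of {p q : Y.S × W} {z z' : W} (hp : Y.New p z) (hq : Y.New q z')
    (e : I.hi p z = I.hi q z') (c : ¬ Cl L Y.hor p q) : ∃ y r, Sh I (I.hi p z) y r := by
  obtain ⟨y, v, v', r, a1, a2, a3, a4⟩ := gate hp ((I.eqv hp hq).1 e) c
  exact ⟨y, r, p, q, z, z', v, v', hp, hq, c, a1, a2, rfl, a3, a4⟩

theorem sh_hang {p : Y.S × W} {z : W} {y : Y.S} {r : List A} (hp : Y.New p z)
    (h : Sh I (I.hi p z) y r) : ∃ v, Hang Y p z y v r ∧ r.length < L.len (L.comp z) := by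
  obtain ⟨pa, -, za, -, va, -, a1, -, -, a4, -, a6, a7, -⟩ := h
  by_cases c : Cl L Y.hor p pa
  · obtain rfl := hi_same I hp a1 a6 c
    exact ⟨va, ⟨cl_trans c a4.1, a4.2⟩, a7⟩
  · obtain ⟨y', v, v', r', b1, b2, b3, b4⟩ := gate hp ((I.eqv hp a1).1 a6) c
    obtain ⟨rfl, rfl, rfl⟩ := hang_uniq a1.1 a4 b2 (by rw [← a1.2.1]; omega)
    exact ⟨v, b1, b3⟩

theorem climb {P : S' × W} {y : Y.S} {r : List A} {p : Y.S × W} {z0 w0 z1 w1 v : W} {u : List A}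
    (hP : Cl L (hor I) P (I.hi p z0, w0)) (hs : Sh I (I.hi p z0) y r)
    (hmin : ∀ Q y' r', Cl L (hor I) P Q → Sh I Q.1 y' r' → r.length ≤ r'.length)
    (hh : Hang Y p z0 y v r) (hu : Red L.io u) (hk : Rd (KP Y p) (z0, w0) u (z1, w1)) :
    Hang Y p z1 y v (r ++ u) := by
  cases u with
  | nil =>
    obtain rfl : z0 = z1 := congrArg Prod.fst (show (z0, w0) = (z1, w1) from hk)
    simpa using hh
  | cons b u =>
    obtain ⟨s, s1, s2⟩ := hk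
    rcases hang_step hh s1.1 s1.2.2.2.2.2 with e | ⟨r', rfl, e⟩
    · refine hang_ext hh ⟨_, s1.1, kp_fst s2⟩ (red_append.2 ⟨hh.2.1, hu, ?_⟩)
      simpa using (red_append.1 e.2.1).2.2
    · exfalso
      obtain ⟨pa, pb, za, zb, va, vb, a1, a2, a3, a4, a5, -, a7, a8⟩ := hs
      have hne : r' ≠ [] := by obtain ⟨-, -, -, _, _, rfl, -⟩ := e; simp
      obtain ⟨za', b1, b2⟩ := hang_pre a4 hne
      obtain ⟨zb', c1, c2⟩ := hang_pre a5 hne
      simp only [List.length_append, List.length_singleton] at a7 a8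
      have n1 := hang_notT a1.1 b1 (by rw [← a1.2.1]; omega)
      have n2 := hang_notT a2.1 c1 (by rw [← a2.2.1]; omega)
      have := hmin (I.hi p s.1, s.2) y r'
        (cl_trans hP ⟨[b], kp_pe I (rd_single.2 s1)⟩)
        ⟨pa, pb, za', zb', va, vb, n1, n2, a3, b1, c1, hi_hang I s1.2.2.2 n1 e b1,
          by rw [← rd_comp L b2]; omega, by rw [← rd_comp L c2]; omega⟩
      simp at this

def Good (P1 Q : S' × W) : Prop :=
  ∃ p z0 z1 u, Y.New p z0 ∧ Y.New p z1 ∧ P1.1 = I.hi p z0 ∧ Q.1 = I.hi p z1 ∧ Red L.io u ∧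
    Rd (KP Y p) (z0, P1.2) u (z1, Q.2)

theorem kp_len {P1 : S' × W} (hP : ¬ pres I P1) {p : Y.S × W} {z0 : W} {s : W × W} {u : List A}
    (n : Y.New p z0) (e : P1.1 = I.hi p z0) (hu : Red L.io u) (h : Rd (KP Y p) (z0, P1.2) u s) :
    u.length < L.len (L.comp z0) ∧ u.length < L.len (L.comp P1.2) := by
  have hne : z0 ≠ P1.2 := fun e' => hP ⟨p, e' ▸ n, e' ▸ e⟩
  exact ⟨L.piece hne hu (kp_fst h) (kp_snd h), L.piece hne.symm hu (kp_snd h) (kp_fst h)⟩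

theorem center {P : S' × W} (hP : ¬ pres I P) : ∃ P1, Cl L (hor I) P P1 ∧
    (∀ Q, Cl L (hor I) P Q → Good I P1 Q) ∧
    ∀ y r, Sh I P1.1 y r → ∀ Q y' r', Cl L (hor I) P Q → Sh I Q.1 y' r' → r.length ≤ r'.length := by
  classical
  have key : ∀ P1, Cl L (hor I) P P1 →
      ((∀ Q y' r', Cl L (hor I) P Q → ¬ Sh I Q.1 y' r') ∨ ∃ y r, Sh I P1.1 y r ∧
        ∀ Q y' r', Cl L (hor I) P Q → Sh I Q.1 y' r' → r.length ≤ r'.length) →
      ∀ Q, Cl L (hor I) P Q → Good I P1 Q := by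
    intro P1 c1 hc Q hQ
    obtain ⟨u0, hu0⟩ := cl_trans (cl_symm' I c1) hQ
    obtain ⟨p0, z0, n0, e0⟩ := I.surj P1.1
    refine (rd_ind (fun Q => Cl L (hor I) P Q ∧ Good I P1 Q) ?_
      ⟨c1, p0, z0, z0, [], n0, n0, e0, e0, red_nil, rfl⟩ hu0).2
    rintro Q a Q' ⟨hQ, p, z0, z1, u, a1, a2, a3, a4, a5, a6⟩ e
    refine ⟨cl_trans hQ ⟨[a], rd_single.2 e⟩, ?_⟩
    obtain ⟨⟨q, z, z', b1, b2, b3, b4, b5⟩, e2⟩ := e
    by_cases c : Cl L Y.hor p q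
    · obtain rfl := hi_same I a2 b1 (a4.symm.trans b4) c
      have n := Y.new_cl b2 (Y.cl_symm c)
      obtain ⟨u', d1, d2⟩ := kp_step a6 (s'' := (z', Q'.2)) ⟨b3, e2, a2, n⟩
      exact ⟨p, z0, z', u', a1, n, a3, b5.trans (I.cls _ c).symm, d1, d2⟩
    · rcases hc with hc | ⟨y, r, hs, hmin⟩
      · obtain ⟨y, r, h⟩ := sh_of I a2 b1 (a4.symm.trans b4) c
        exact absurd (a4 ▸ h) (hc Q y r hQ)
      · rw [a3] at hs
        obtain ⟨v, f1, f2⟩ := sh_hang I a1 hs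
        have f3 := climb I (P := P) (by rw [← a3]; exact c1) hs hmin f1 a5 a6
        obtain ⟨y', v1, v2, s, g1, g2, g3, g4⟩ := gate a2 ((I.eqv a2 b1).1 (a4.symm.trans b4)) c
        have l := (kp_len I (npres' I hP c1) a1 a3 a5 a6).1
        obtain ⟨rfl, rfl, rfl⟩ := hang_uniq a1.1 f3 g1
          (by rw [a1.2.1] at f2 l; rw [a2.2.1] at g3; simp; omega)
        obtain ⟨z0', k1, -⟩ := hang_pre g2 (by obtain ⟨-, -, -, _, _, rfl, -⟩ := f1; simp)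
        rw [b1.2.1] at g4
        have n := hang_notT b1.1 k1 (by simp at g4; omega)
        have k3 := hang_path b1.1 u r z0' P1.2 Q.2 k1 g2 (by omega) (kp_snd a6)
        obtain ⟨u', d1, d2⟩ := kp_step k3 (s'' := (z', Q'.2)) ⟨b3, e2, b1, b2⟩
        exact ⟨q, z0', z', u', n, b2, a3.trans (hi_hang I a1 n f1 k1), b5, d1, d2⟩
  by_cases h : ∃ n, ∃ Q y r, Cl L (hor I) P Q ∧ Sh I Q.1 y r ∧ r.length = n
  · obtain ⟨P1, y, r, c1, hs, hn⟩ := Nat.find_spec h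
    have hmin : ∀ Q y' r', Cl L (hor I) P Q → Sh I Q.1 y' r' → r.length ≤ r'.length :=
      fun Q y' r' a b => hn ▸ Nat.find_min' h ⟨Q, y', r', a, b, rfl⟩
    refine ⟨P1, c1, key P1 c1 (Or.inr ⟨y, r, hs, hmin⟩), fun y2 r2 h2 Q y' r' a b => ?_⟩
    obtain ⟨p0, z0, n0, e0⟩ := I.surj P1.1
    rw [e0] at hs h2
    obtain ⟨v, f1, f2⟩ := sh_hang I n0 hs
    obtain ⟨v', g1, g2⟩ := sh_hang I n0 h2
    obtain ⟨-, -, rfl⟩ := hang_uniq n0.1 f1 g1 (by rw [← n0.2.1]; omega)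
    exact hmin Q y' r' a b
  · have h' : ∀ Q y' r', Cl L (hor I) P Q → ¬ Sh I Q.1 y' r' :=
      fun Q y' r' a b => h ⟨_, Q, y', r', a, b, rfl⟩
    exact ⟨P, cl_refl _ _ _, key P (cl_refl _ _ _) (Or.inl h'),
      fun y r hs => absurd hs (h' P y r (cl_refl _ _ _))⟩

theorem cen (P : S' × W) (hP : ¬ pres I P) : ∃ P1, Cl L (hor I) P P1 ∧ ∀ Q, Cl L (hor I) P Q →
    ∃ u, Red L.io u ∧ u.length < L.len (L.comp P.2) ∧ Rd (PE L (hor I)) P1 u Q := by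
  obtain ⟨P1, c1, h1, -⟩ := center I hP
  refine ⟨P1, c1, fun Q hQ => ?_⟩
  obtain ⟨p, z0, z1, u, a1, -, a3, a4, a5, a6⟩ := h1 Q hQ
  refine ⟨u, a5, ?_, ?_⟩
  · rw [← cl_comp c1]; exact (kp_len I (npres' I hP c1) a1 a3 a5 a6).2
  · have := kp_pe I a6
    rwa [← a3, ← a4] at this

theorem sinj {P : S' × W} {x : S'} {w1 w2 : W} (hP : ¬ pres I P) (h1 : Cl L (hor I) P (x, w1))
    (h2 : Cl L (hor I) P (x, w2)) : w1 = w2 := by
  obtain ⟨P1, c1, g, hmin⟩ := center I hP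
  obtain ⟨p, z0, z1, u, a1, a2, a3, a4, a5, a6⟩ := g _ h1
  obtain ⟨q, s0, s1, t, b1, b2, b3, b4, b5, b6⟩ := g _ h2
  have l1 := (kp_len I (npres' I hP c1) a1 a3 a5 a6).1
  have l2 := (kp_len I (npres' I hP c1) b1 b3 b5 b6).1
  suffices e : u = t by
    subst e
    exact rd_func (E := L.E) (fun _ _ _ _ => L.func) (kp_snd a6) (kp_snd b6)
  by_cases c : Cl L Y.hor p q
  · obtain rfl := hi_same I a1 b1 (a3.symm.trans b3) c
    obtain rfl := hi_same I a2 b2 (a4.symm.trans b4) c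
    exact rd_uniq L a5 b5 (kp_fst a6) (show Rd L.E z0 t z1 from kp_fst b6) (by simp only; omega)
  · obtain ⟨y, r, hs⟩ := sh_of I a1 b1 (a3.symm.trans b3) c
    have hs' : Sh I (I.hi q s0) y r := by rw [← b3, a3]; exact hs
    have hm := hmin y r (a3 ▸ hs)
    obtain ⟨v, f1, f2⟩ := sh_hang I a1 hs
    obtain ⟨v', g1, g2⟩ := sh_hang I b1 hs'
    have f3 := climb I (P := P) (by rw [← a3]; exact c1) hs hm f1 a5 a6
    have g3 := climb I (P := P) (by rw [← b3]; exact c1) hs' hm g1 b5 b6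
    obtain ⟨y', v1, v2, s, k1, k2, k3, k4⟩ := gate a2 ((I.eqv a2 b2).1 (a4.symm.trans b4)) c
    have e1 := (hang_uniq a1.1 f3 k1
      (by rw [a1.2.1] at f2 l1; rw [a2.2.1] at k3; simp; omega)).2.2
    have e2 := (hang_uniq b1.1 g3 k2
      (by rw [b1.2.1] at g2 l2; rw [b2.2.1] at k4; simp; omega)).2.2
    exact List.append_cancel_left (e1.trans e2.symm)

theorem ne : ∃ P, ¬ pres I P := by
  obtain ⟨p, z, n, h⟩ := far Y
  obtain ⟨w, hw⟩ := L.ne (L.comp z + 1)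
  rw [L.mem_Vn] at hw
  refine ⟨(I.hi p z, w), fun ⟨q, n', e⟩ => ?_⟩
  by_cases c : Cl L Y.hor p q
  · have := congrArg L.comp (hi_same I n n' e c)
    simp only at this; omega
  · obtain ⟨y, v, -, r, a1, -, a3, -⟩ := gate n ((I.eqv n n').1 e) c
    exact absurd (h y v r a1) (not_le.2 a3)

end C1

open C1 in
theorem step {L : Lab A W} (hc : L.Conn) (Y : Layer L) :
    ∃ Y' : Layer L, Nonempty (Step Y Y') := by
  obtain ⟨S', ⟨I⟩⟩ := exists_hi hc Y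
  refine ⟨⟨S', hor I, dn I, pres I, hsymm I, hfunc I, hd I, p1 I, p2 I, p3 I, cen I, sinj I, ne I⟩,
    ⟨⟨I.hi, I.surj, I.cls, fun _ _ _ => Iff.rfl, fun _ _ => Iff.rfl, fun _ _ => Iff.rfl,
      fun h1 h2 e => hi_same I h1 h2 e (cl_refl _ _ _), ?_, up I, ?_, ?_, edge I⟩⟩⟩
  · intro p q w hp hq e
    by_contra c
    obtain ⟨y, v1, v2, r, a1, a2, -, -⟩ := gate hp ((I.eqv hp hq).1 e) c
    obtain rfl := rd_func (E := L.E) (fun _ _ _ _ => L.func)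
      (rd_rev (fun _ _ _ => L.symm) a1.2.2.1) (rd_rev (fun _ _ _ => L.symm) a2.2.2.1)
    exact c (cl_trans a1.1 (Y.cl_symm a2.1))
  · intro p w y v a w' hp hq e h
    have := L.len_pos (L.comp w')
    obtain ⟨v', h'⟩ := hang_all hq ((I.eqv hq hp).1 h.symm) (hang_one hq (cl_refl _ _ _) e)
      (by simp; omega)
    exact ⟨v', h'.1, rd_single.1 h'.2.2.1⟩
  · intro p q w w' hp hq e c
    obtain ⟨y, v1, v2, r, a1, a2, a3, a4⟩ := gate hp ((I.eqv hp hq).1 e) c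
    exact ⟨v1, r, ⟨y, a1.1⟩, a3, near_aux I hp.1 hq.1 r [] v1 rfl a1 a2
      (by rw [hp.2.1] at a3; simp; omega) (by rw [hq.2.1] at a4; simp; omega)⟩

end Vale.Agent.P089
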