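import Vale.Agent.P089.PartC1

/-! Part C2 of P089: the development is the union of the layers. -/

namespace Vale.Agent.P089

variable {A W : Type} [Fintype A]

namespace C2

omit [Fintype A] in
lemma rd_inv {α β : Type} {E : α → A → α → Prop} {E' : β → A → β → Prop} (f : α → β)
    (P : α → Prop) (h : ∀ x a y, P x → E x a y → P y ∧ E' (f x) a (f y)) {x y : α} {u : List A}
    (hx : P x) (hu : Rd E x u y) : Rd E' (f x) u (f y) := by
  induction u generalizing x with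
  | nil => exact congrArg f hu
  | cons a u ih =>
    obtain ⟨z, h1, h2⟩ := hu
    exact ⟨f z, (h _ _ _ hx h1).2, ih (h _ _ _ hx h1).1 h2⟩

lemma cl_false {L : Lab A W} {S : Type} {p q : S × W} (h : Cl L (fun _ _ _ => False) p q) :
    p = q := by
  obtain ⟨u, hu⟩ := h
  cases u with
  | nil => exact hu
  | cons a u => exact hu.choose_spec.1.1.elim

/-- The first layer. -/
def base (L : Lab A W) : Layer L where
  S := Unit
  hor := fun _ _ _ => False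
  dn := fun _ _ => False
  pres := fun _ => False
  hsymm := fun h => h
  hfunc := fun h => h.elim
  hd := fun h => h.elim
  p1 := fun h => h.elim
  p2 := fun h => h.elim
  p3 := fun _ _ h => h
  cen := fun p _ => ⟨p, cl_refl L _ p, fun q hq => ⟨[], red_nil,
    lt_of_lt_of_le (by simp) (L.len_pos _), cl_false hq⟩⟩
  sinj := fun _ h1 h2 => congrArg Prod.snd ((cl_false h1).symm.trans (cl_false h2))
  ne := ⟨((), (L.ne 0).choose), fun h => h⟩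

/-- A tower of layers. -/
structure Tw (L : Lab A W) where
  Y : ℕ → Layer L
  st : ∀ n, Step (Y n) (Y (n + 1))
  e : (Y 0).S
  he : ∀ y, y = e
  h0 : ∀ y a y', ¬ (Y 0).hor y a y'
  d0 : ∀ y a, ¬ (Y 0).dn y a
  p0 : ∀ p, ¬ (Y 0).pres p

lemma exists_tw {L : Lab A W} (hc : L.Conn) : Nonempty (Tw L) :=
  ⟨{ Y := fun n => Nat.rec (base L) (fun _ Y => (step hc Y).choose) n
     st := fun _ => (step hc _).choose_spec.some
     e := ()
     he := fun _ => rfl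
     h0 := fun _ _ _ h => h
     d0 := fun _ _ h => h
     p0 := fun _ h => h }⟩

variable {L : Lab A W} (T : Tw L)

/-- Points. -/
abbrev Pt : Type := Σ n, (T.Y n).S

lemma pt_inj {n : ℕ} {y y' : (T.Y n).S} (h : (⟨n, y⟩ : Pt T) = ⟨n, y'⟩) : y = y' :=
  eq_of_heq (Sigma.mk.inj h).2

def Up (x : Pt T) (a : A) (x' : Pt T) : Prop :=
  ∃ n y v w, (T.Y n).New (y, v) w ∧ L.E v a w ∧ x = ⟨n, y⟩ ∧ x' = ⟨n + 1, (T.st n).hi (y, v) w⟩

def EY (x : Pt T) (a : A) (x' : Pt T) : Prop :=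
  (∃ n y y', (T.Y n).hor y a y' ∧ x = ⟨n, y⟩ ∧ x' = ⟨n, y'⟩) ∨ Up T x a x' ∨ Up T x' (L.io a) x

variable {T}

lemma symm' {w w' : W} {a : A} (h : L.E w (L.io a) w') : L.E w' a w := by
  have := L.symm h
  rwa [L.io_io] at this

lemma EY.symm {x x' : Pt T} {a : A} (h : EY T x a x') : EY T x' (L.io a) x := by
  rcases h with ⟨n, y, y', h, rfl, rfl⟩ | h | h
  · exact Or.inl ⟨n, y', y, (T.Y n).hsymm h, rfl, rfl⟩
  · exact Or.inr (Or.inr (by rwa [L.io_io]))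
  · exact Or.inr (Or.inl h)

lemma up_of {n : ℕ} {p : (T.Y n).S × W} {y : (T.Y n).S} {v w : W} {a : A}
    (h1 : Cl L (T.Y n).hor p (y, v)) (h2 : (T.Y n).New p w) (h3 : L.E v a w) :
    Up T ⟨n, y⟩ a ⟨n + 1, (T.st n).hi p w⟩ :=
  ⟨n, y, v, w, (T.Y n).new_cl h2 h1, h3, rfl, by rw [(T.st n).cls w h1]⟩

lemma total (ho : L.Occ) (x : Pt T) (a : A) : ∃ x', EY T x a x' := by
  obtain ⟨n, y⟩ := x
  by_cases h1 : ∃ y', (T.Y n).hor y a y'
  · obtain ⟨y', h⟩ := h1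
    exact ⟨_, Or.inl ⟨n, y, y', h, rfl, rfl⟩⟩
  by_cases h2 : (T.Y n).dn y a
  · cases n with
    | zero => exact absurd h2 (T.d0 y a)
    | succ m =>
      obtain ⟨p, w, w', a1, ⟨y0, a2⟩, a3, rfl⟩ := ((T.st m).dn_iff y a).1 h2
      exact ⟨_, Or.inr (Or.inr (up_of a2 a1 (L.symm a3)))⟩
  · obtain ⟨v, w, e⟩ := ho a
    have hp : ¬ (T.Y n).pres (y, v) := fun h => ((T.Y n).p2 h e).elim h2 h1
    exact ⟨_, Or.inr (Or.inl (up_of (cl_refl L _ (y, v)) ⟨hp, L.comp_eq e, fun ⟨y', h⟩ =>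
      h1 ⟨y', (T.Y n).t_step hp (cl_refl L _ _) h e⟩⟩ e))⟩

lemma dn_of {x x' : Pt T} {a : A} (h : Up T x' (L.io a) x) : (T.Y x.1).dn x.2 a := by
  obtain ⟨n, y, v, w, a1, a2, rfl, rfl⟩ := h
  exact ((T.st n).dn_iff _ a).2 ⟨_, w, v, a1, ⟨y, cl_refl L _ _⟩, symm' a2, rfl⟩

lemma func {x x1 x2 : Pt T} {a : A} (h1 : EY T x a x1) (h2 : EY T x a x2) : x1 = x2 := by
  have hu : ∀ {z}, (∃ n y y', (T.Y n).hor y a y' ∧ x = ⟨n, y⟩ ∧ z = (⟨n, y'⟩ : Pt T)) →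
      ∀ {z'}, Up T x a z' ∨ Up T z' (L.io a) x → False := by
    rintro _ ⟨n, y, y', h, rfl, -⟩ _ (⟨m, y1, v, w, a1, a2, e, -⟩ | k)
    · obtain rfl : n = m := congrArg Sigma.fst e
      obtain rfl := pt_inj T e
      exact a1.2.2 ⟨y', [a], rd_single.2 ⟨h, a2⟩⟩
    · exact (T.Y n).hd h (dn_of k)
  have ud : ∀ {z z'}, Up T x a z → Up T z' (L.io a) x → False := by
    rintro _ _ ⟨n, y, v, w, a1, a2, rfl, -⟩ k
    exact (T.Y n).p3 a1.1 a2 (dn_of k)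
  rcases h1 with h1 | h1 | h1 <;> rcases h2 with h2 | h2 | h2
  · obtain ⟨n, y, y', h, rfl, rfl⟩ := h1
    obtain ⟨m, y1, y2, h', e, rfl⟩ := h2
    obtain rfl : n = m := congrArg Sigma.fst e
    obtain rfl := pt_inj T e
    rw [(T.Y n).hfunc h h']
  · exact (hu h1 (Or.inl h2)).elim
  · exact (hu h1 (Or.inr h2)).elim
  · exact (hu h2 (Or.inl h1)).elim
  · obtain ⟨n, y, v, w, a1, a2, rfl, rfl⟩ := h1
    obtain ⟨m, y1, v', w', b1, b2, e, rfl⟩ := h2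
    obtain rfl : n = m := congrArg Sigma.fst e
    obtain rfl := pt_inj T e
    rw [((T.st n).up a1 a2 b1.1 b2).2]
  · exact (ud h1 h2).elim
  · exact (hu h2 (Or.inr h1)).elim
  · exact (ud h2 h1).elim
  · obtain ⟨n, y, v, w, a1, a2, rfl, rfl⟩ := h1
    obtain ⟨m, y1, v', w', b1, b2, rfl, e⟩ := h2
    obtain rfl : n = m := Nat.succ_injective (congrArg Sigma.fst e)
    obtain ⟨v2, c1, c2⟩ := (T.st n).down a1 b1 b2 (pt_inj T e)
    obtain rfl := L.func (symm' c2) (symm' a2)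
    rw [(T.Y n).winj a1.1 c1 (cl_refl L _ _)]

variable (T) in
/-- The classes of a layer. -/
def sd (n : ℕ) : Setoid {p : (T.Y n).S × W // ¬ (T.Y n).pres p} :=
  ⟨fun p q => Cl L (T.Y n).hor p.1 q.1,
    fun _ => cl_refl L _ _, (T.Y n).cl_symm, cl_trans⟩

variable (T) in
/-- Copies. -/
abbrev Cp : Type := Σ n, Quotient (sd T n)

noncomputable def rp (k : Cp T) : (T.Y k.1).S × W := k.2.out.1

lemma nrp (k : Cp T) : ¬ (T.Y k.1).pres (rp k) := k.2.out.2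

lemma cp_eq {n : ℕ} {q q' : Quotient (sd T n)}
    (h : Cl L (T.Y n).hor (rp ⟨n, q⟩) (rp ⟨n, q'⟩)) : q = q' := Quotient.out_equiv_out.1 h

lemma exK {n : ℕ} {p : (T.Y n).S × W} (hp : ¬ (T.Y n).pres p) :
    ∃ q : Quotient (sd T n), Cl L (T.Y n).hor p (rp ⟨n, q⟩) :=
  ⟨Quotient.mk _ ⟨p, hp⟩, (T.Y n).cl_symm (Quotient.mk_out (s := sd T n) ⟨p, hp⟩)⟩

open Classical in
noncomputable def ps (k : Cp T) (w : W) : Pt T :=
  if h : (T.Y k.1).T (rp k) w then ⟨k.1, h.choose⟩ else ⟨k.1 + 1, (T.st k.1).hi (rp k) w⟩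

noncomputable def cn (k : Cp T) : ℕ := L.comp (rp k).2

lemma psT {k : Cp T} {y : (T.Y k.1).S} {w : W} (h : Cl L (T.Y k.1).hor (rp k) (y, w)) :
    ps k w = ⟨k.1, y⟩ := by
  have e : (T.Y k.1).T (rp k) w := ⟨y, h⟩
  rw [ps, dif_pos e, (T.Y k.1).winj (nrp k) e.choose_spec h]

lemma psN {k : Cp T} {w : W} (h : (T.Y k.1).New (rp k) w) :
    ps k w = ⟨k.1 + 1, (T.st k.1).hi (rp k) w⟩ := by rw [ps, dif_neg h.2.2]

lemma dich {k : Cp T} {w : W} (h : L.comp w = cn k) :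
    (∃ y, Cl L (T.Y k.1).hor (rp k) (y, w)) ∨ (T.Y k.1).New (rp k) w :=
  (em _).imp_right fun e => ⟨nrp k, h, e⟩

lemma covN {n : ℕ} {p : (T.Y n).S × W} {w : W} (h : (T.Y n).New p w) :
    ∃ q : Quotient (sd T n), L.comp w = cn ⟨n, q⟩ ∧ ps ⟨n, q⟩ w = ⟨n + 1, (T.st n).hi p w⟩ := by
  obtain ⟨q, hq⟩ := exK h.1
  have := (T.Y n).new_cl h hq
  exact ⟨q, this.2.1, by rw [psN this, (T.st n).cls w hq]⟩

lemma lower {n : ℕ} (y : (T.Y n).S) (hn : n ≠ 0) :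
    ∃ (k : Cp T) (w : W), k.1 < n ∧ L.comp w = cn k ∧ ps k w = ⟨n, y⟩ := by
  cases n with
  | zero => exact absurd rfl hn
  | succ m =>
    obtain ⟨p, w, h, rfl⟩ := (T.st m).surj y
    obtain ⟨q, a1, a2⟩ := covN h
    exact ⟨⟨m, q⟩, w, Nat.lt_succ_self m, a1, a2⟩

lemma hor_ne {n : ℕ} {y y' : (T.Y n).S} {a : A} (h : (T.Y n).hor y a y') : n ≠ 0 := by
  rintro rfl
  exact T.h0 _ _ _ h

lemma hom {k : Cp T} {w w' : W} {a : A} (h : L.comp w = cn k) (e : L.E w a w') :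
    EY T (ps k w) a (ps k w') := by
  rcases dich h with ⟨y, a1⟩ | a1 <;> rcases dich ((L.comp_eq e).trans h) with ⟨y', b1⟩ | b1
  · exact Or.inl ⟨_, y, y', (T.Y _).t_step (nrp k) a1 b1 e, psT a1, psT b1⟩
  · rw [psT a1, psN b1]
    exact Or.inr (Or.inl (up_of a1 b1 e))
  · rw [psN a1, psT b1]
    exact Or.inr (Or.inr (up_of b1 a1 (L.symm e)))
  · exact Or.inl ⟨_, _, _, ((T.st _).hor_iff _ _ _).2 ⟨_, w, w', a1, b1, e, rfl, rfl⟩, psN a1,
      psN b1⟩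

lemma cover (y : Pt T) (w : W) : ∃ k, L.comp w = cn k ∧ ps k w = y := by
  obtain ⟨n, s⟩ := y
  by_cases hp : (T.Y n).pres (s, w)
  · cases n with
    | zero => exact absurd hp (T.p0 _)
    | succ m =>
      obtain ⟨p, h, rfl⟩ := ((T.st m).pres_iff s w).1 hp
      obtain ⟨q, a⟩ := covN h
      exact ⟨_, a⟩
  · obtain ⟨q, hq⟩ := exK hp
    exact ⟨⟨n, q⟩, (cl_comp hq).symm, psT ((T.Y n).cl_symm hq)⟩

lemma uniq {k k' : Cp T} {w : W} (h : L.comp w = cn k) (h' : L.comp w = cn k')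
    (e : ps k w = ps k' w) : k = k' := by
  have mix : ∀ {k k' : Cp T} {y}, Cl L (T.Y k.1).hor (rp k) (y, w) → (T.Y k'.1).New (rp k') w →
      ps k w = ps k' w → False := by
    rintro ⟨n, q⟩ ⟨m, q'⟩ y a1 b1 e
    rw [psT a1, psN b1] at e
    obtain rfl : n = m + 1 := congrArg Sigma.fst e
    exact (T.Y _).npres (nrp _) a1 (((T.st m).pres_iff _ w).2 ⟨_, b1, pt_inj T e⟩)
  obtain ⟨n, q⟩ := k
  obtain ⟨m, q'⟩ := k'
  rcases dich h with ⟨y, a1⟩ | a1 <;> rcases dich h' with ⟨y', b1⟩ | b1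
  · rw [psT a1, psT b1] at e
    obtain rfl : n = m := congrArg Sigma.fst e
    obtain rfl := pt_inj T e
    rw [cp_eq (cl_trans a1 ((T.Y n).cl_symm b1))]
  · exact (mix a1 b1 e).elim
  · exact (mix b1 a1 e.symm).elim
  · rw [psN a1, psN b1] at e
    obtain rfl : n = m := Nat.succ_injective (congrArg Sigma.fst e)
    rw [cp_eq ((T.st n).same a1 b1 (pt_inj T e))]

lemma inj {k : Cp T} {w w' : W} (h : L.comp w = cn k) (h' : L.comp w' = cn k)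
    (e : ps k w = ps k w') : w = w' := by
  rcases dich h with ⟨y, a1⟩ | a1 <;> rcases dich h' with ⟨y', b1⟩ | b1
  · rw [psT a1, psT b1] at e
    obtain rfl := pt_inj T e
    exact (T.Y _).sinj (nrp k) a1 b1
  · rw [psT a1, psN b1] at e
    exact absurd (congrArg Sigma.fst e) (Nat.lt_succ_self _).ne
  · rw [psN a1, psT b1] at e
    exact absurd (congrArg Sigma.fst e) (Nat.lt_succ_self _).ne'
  · rw [psN a1, psN b1] at e
    exact (T.st _).hinj a1 b1 (pt_inj T e)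

lemma lev0 {k : Cp T} {w : W} (h : L.comp w = cn k) (e : ps k w = ⟨0, T.e⟩) : k.1 = 0 := by
  rcases dich h with ⟨y, a1⟩ | a1
  · rw [psT a1] at e
    exact congrArg Sigma.fst e
  · rw [psN a1] at e
    exact absurd (congrArg Sigma.fst e) (Nat.succ_ne_zero _)

lemma cen (k : Cp T) : ∃ w0, L.comp w0 = cn k ∧
    (ps k w0 = ⟨0, T.e⟩ ∨ ∃ k' w', k'.1 < k.1 ∧ L.comp w' = cn k' ∧ ps k' w' = ps k w0) ∧
    ∀ w k' w', L.comp w = cn k → k' ≠ k → k'.1 ≤ k.1 → L.comp w' = cn k' →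
      ps k' w' = ps k w → ∃ u : List A, u.length ≤ 2 * L.len (cn k) ∧
        Rd (fun z a z' => L.E z a z' ∧ ∃ k'' z'', (k'' = k' ∨ k''.1 < k.1) ∧
          L.comp z'' = cn k'' ∧ ps k'' z'' = ps k z') w0 u w := by
  obtain ⟨n, q⟩ := k
  obtain ⟨⟨y0, w0⟩, c1, c2⟩ := (T.Y n).cen _ (nrp ⟨n, q⟩)
  refine ⟨w0, cl_comp c1, ?_, ?_⟩
  · rw [psT c1]
    by_cases hn : n = 0
    · subst hn
      exact Or.inl (by rw [T.he y0])
    · exact Or.inr (lower y0 hn)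
  rintro w ⟨m, q'⟩ w' h1 h2 h3 h4 h5
  have old : ∀ y v, Cl L (T.Y n).hor (rp ⟨n, q⟩) (y, v) → ∃ u : List A,
      u.length < L.len (cn ⟨n, q⟩) ∧ Rd (fun z a z' => L.E z a z' ∧ ∃ (k'' : Cp T) (z'' : W),
        (k'' = ⟨m, q'⟩ ∨ k''.1 < n) ∧ L.comp z'' = cn k'' ∧ ps k'' z'' = ps ⟨n, q⟩ z') w0 u v := by
    intro y v hv
    obtain ⟨u, -, u2, u3⟩ := c2 _ hv
    refine ⟨u, u2, rd_inv Prod.snd (Cl L (T.Y n).hor (rp ⟨n, q⟩)) ?_ c1 u3⟩
    rintro x a ⟨y', z'⟩ hx e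
    have k1 := cl_trans hx ⟨[a], rd_single.2 e⟩
    obtain ⟨k'', z'', b1, b2, b3⟩ := lower y' (hor_ne e.1)
    exact ⟨k1, e.2, k'', z'', Or.inr b1, b2, b3.trans (psT (k := ⟨n, q⟩) k1).symm⟩
  rcases dich h1 with ⟨y, a1⟩ | a1
  · obtain ⟨u, u1, u2⟩ := old y w a1
    exact ⟨u, by omega, u2⟩
  · rcases dich h4 with ⟨y', b1⟩ | b1
    · rw [psT b1, psN a1] at h5
      have : m = n + 1 := congrArg Sigma.fst h5
      have : m ≤ n := h3
      omega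
    · rw [psN b1, psN a1] at h5
      obtain rfl : m = n := Nat.succ_injective (congrArg Sigma.fst h5)
      obtain ⟨v, u, ⟨y, d1⟩, d2, d3⟩ := (T.st m).near a1 b1 (pt_inj T h5).symm
        fun e => h2 (by rw [cp_eq e])
      obtain ⟨u', u1, u2⟩ := old y v d1
      refine ⟨u' ++ u, by rw [List.length_append, ← h1] at *; omega,
        rd_append.2 ⟨v, u2, rd_mono id ?_ d3⟩⟩
      rintro z a z' ⟨e1, e2, z2, e3, e4⟩
      exact ⟨e1, _, z2, Or.inl rfl, e3.2.1, (psN (k := ⟨m, q'⟩) e3).trans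
        ((congrArg (fun y => (⟨m + 1, y⟩ : Pt T)) e4.symm).trans (psN (k := ⟨m, q⟩) e2).symm)⟩

lemma minN {k : Cp T} {w : W} (h : L.comp w = cn k)
    (hm : ∀ k'' z, L.comp z = cn k'' → ps k'' z = ps k w → k.1 ≤ k''.1) (h0 : (ps k w).1 ≠ 0) :
    (T.Y k.1).New (rp k) w := by
  refine (dich h).resolve_left fun ⟨y, a1⟩ => ?_
  rw [psT a1] at h0 hm
  obtain ⟨k'', z, b1, b2, b3⟩ := lower y h0
  exact absurd (hm k'' z b2 b3) (not_le.2 b1)

lemma edge {k k' : Cp T} {w w' : W} {a : A} (h : L.comp w = cn k) (h' : L.comp w' = cn k')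
    (e : EY T (ps k w) a (ps k' w'))
    (m1 : ∀ k'' z, L.comp z = cn k'' → ps k'' z = ps k w → k.1 ≤ k''.1)
    (m2 : ∀ k'' z, L.comp z = cn k'' → ps k'' z = ps k' w' → k'.1 ≤ k''.1) :
    (∃ z, L.E w a z) ∨ ∃ z, L.comp z = cn k' ∧ ps k' z = ps k w ∧ L.E z a w' := by
  obtain ⟨n, q⟩ := k
  obtain ⟨m, q'⟩ := k'
  rcases e with ⟨j, y, y', e, e1, e2⟩ | ⟨j, y, v, w1, a1, a2, e1, e2⟩ |
    ⟨j, y, v, w1, a1, a2, e1, e2⟩
  · have n1 := minN h m1 (by rw [e1]; exact hor_ne e)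
    have n2 := minN h' m2 (by rw [e2]; exact hor_ne e)
    rw [psN n1] at e1
    rw [psN n2] at e2
    obtain rfl : n + 1 = j := congrArg Sigma.fst e1
    obtain rfl : m = n := Nat.succ_injective (congrArg Sigma.fst e2)
    obtain rfl := pt_inj T e1
    obtain rfl := pt_inj T e2
    refine ((T.st m).edge n1 n2 e).imp_right fun ⟨z, b1, b2, b3⟩ => ⟨z, b1.2.1, ?_, b3⟩
    rw [psN b1, psN n1, b2]
  · have n2 := minN h' m2 (by rw [e2]; exact Nat.succ_ne_zero _)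
    rw [psN n2] at e2
    obtain rfl : m = j := Nat.succ_injective (congrArg Sigma.fst e2)
    obtain ⟨v', b1, b2⟩ := (T.st m).down n2 a1 a2 (pt_inj T e2)
    exact Or.inr ⟨v', cl_comp b1, by rw [psT b1, e1], b2⟩
  · have n1 := minN h m1 (by rw [e2]; exact Nat.succ_ne_zero _)
    rw [psN n1] at e2
    obtain rfl : n = j := Nat.succ_injective (congrArg Sigma.fst e2)
    obtain ⟨v', -, b2⟩ := (T.st n).down n1 a1 a2 (pt_inj T e2)
    exact Or.inl ⟨v', symm' b2⟩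

end C2

theorem dev (L : Lab A W) (hc : L.Conn) (ho : L.Occ) : ∃ Y K : Type, Nonempty (Dev L Y K) := by
  obtain ⟨T⟩ := C2.exists_tw hc
  choose sg hsg using C2.total (T := T) ho
  exact ⟨C2.Pt T, C2.Cp T, ⟨{
    sg := fun a x => sg x a
    cn := C2.cn
    ps := C2.ps
    lev := Sigma.fst
    e := ⟨0, T.e⟩
    sg_io := fun a y => C2.func (hsg _ _) (hsg y a).symm
    hom := fun h e => C2.func (C2.hom h e) (hsg _ _)
    cover := C2.cover
    uniq := C2.uniq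
    inj := C2.inj
    lev0 := C2.lev0
    cen := C2.cen
    edge := fun h h' e m1 m2 _ => C2.edge h h' (e ▸ hsg _ _) m1 m2 }⟩⟩

end Vale.Agent.P089
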