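import Vale.Agent.P089.PartC0

/-! Part C3 of P089: the group and the owners of its elements. -/

namespace Vale.Agent.P089

open Finset MulOpposite

variable {A W : Type} [Fintype A]

namespace C3

lemma exists_ord {K : Type} (lev : K → ℕ) (k0 : K) (h0 : lev k0 = 0) :
    ∃ (T : Type) (_ : LinearOrder T) (_ : WellFoundedLT T) (f : K → T), Function.Injective f ∧
      (∀ k k', lev k < lev k' → f k < f k') ∧ ∀ k, f k0 ≤ f k := by
  classical
  obtain ⟨_, _⟩ := exists_wellOrder K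
  refine ⟨ℕ ×ₗ ℕ ×ₗ K, inferInstance, inferInstance,
    fun k => toLex (lev k, toLex (if k = k0 then 0 else 1, k)), fun k k' h => ?_,
    fun k k' h => Prod.Lex.toLex_lt_toLex.2 (Or.inl h), fun k => ?_⟩
  · exact congrArg (fun p : ℕ ×ₗ ℕ ×ₗ K => (ofLex (ofLex p).2).2) h
  · by_cases hk : k = k0
    · rw [hk]
    · refine Prod.Lex.toLex_le_toLex.2 ?_
      rcases Nat.eq_zero_or_pos (lev k) with h | h
      · exact Or.inr ⟨h0.trans h.symm, Prod.Lex.toLex_le_toLex.2 (Or.inl (by simp [hk]))⟩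
      · exact Or.inl (by simpa [h0] using h)

lemma ball (L : Lab A W) (w0 : W) (m : ℕ) : ∃ B : Finset W, B.card ≤ 1001 ^ m ∧
    ∀ u w, u.length ≤ m → Rd L.E w0 u w → w ∈ B := by
  classical
  induction m generalizing w0 with
  | zero =>
    refine ⟨{w0}, by simp, fun u w hu h => ?_⟩
    obtain rfl := List.length_eq_zero_iff.1 (Nat.le_zero.1 hu)
    exact mem_singleton.2 (Eq.symm h)
  | succ m ih =>
    choose B h1 h2 using ih
    have : Nonempty W := ⟨w0⟩
    have ex : ∀ a, ∃ z, ∀ z', L.E w0 a z' → z' = z := fun a => by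
      by_cases h : ∃ z, L.E w0 a z
      · obtain ⟨z, hz⟩ := h
        exact ⟨z, fun z' hz' => L.func hz' hz⟩
      · exact ⟨w0, fun z' hz' => (h ⟨z', hz'⟩).elim⟩
    choose nx hn using ex
    refine ⟨insert w0 ((univ.filter fun a => ∃ w', L.E w0 a w').biUnion fun a => B (nx a)), ?_,
      fun u w hu h => ?_⟩
    · refine (card_insert_le _ _).trans ?_
      have := card_biUnion_le_card_mul (univ.filter fun a => ∃ w', L.E w0 a w')
        (fun a => B (nx a)) _ fun a _ => h1 (nx a)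
      have e := L.deg w0
      have p : 1 ≤ 1001 ^ m := Nat.one_le_pow _ _ (by norm_num)
      rw [pow_succ]
      have e' : (univ.filter fun a => ∃ w', L.E w0 a w').card = 1000 := by convert e
      rw [e'] at this
      omega
    · cases u with
      | nil => exact mem_insert.2 (Or.inl (Eq.symm h))
      | cons a u =>
        obtain ⟨z, hz, hr⟩ := h
        refine mem_insert_of_mem (mem_biUnion.2 ⟨a, by simpa using ⟨z, hz⟩, ?_⟩)
        rw [← hn a z hz]
        exact h2 z u w (by simpa using hu) hr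

/-- The relators. -/
def rels (L : Lab A W) : Set (FreeGroup A) :=
  {r | (∃ u w, Rd L.E w u w ∧ r = (u.map FreeGroup.of).prod) ∨
    ∃ a, r = FreeGroup.of a * FreeGroup.of (L.io a)}

variable {L : Lab A W} {Y K : Type}

lemma exists_geo (hc : L.Conn) (D : Dev L Y K) :
    ∃ (G : Type) (_ : Group G) (_ : Countable G) (gen : A → G) (pos : W → G) (act : Y → G → Y)
      (base : ℕ → W), (∀ a, gen (L.io a) = (gen a)⁻¹) ∧
      (∀ w a w', L.E w a w' → pos w' = pos w * gen a) ∧ (∀ n, L.comp (base n) = n) ∧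
      (∀ n, pos (base n) = 1) ∧ (∀ y, act y 1 = y) ∧ (∀ y g h, act y (g * h) = act (act y g) h) ∧
      (∀ y a, act y (gen a) = D.sg a y) ∧ Subgroup.closure (Set.range gen) = ⊤ := by
  let σ : A → Equiv.Perm Y := fun a => ⟨D.sg a, D.sg (L.io a), D.sg_io a, fun y => by
    have := D.sg_io (L.io a) y
    rwa [L.io_io] at this⟩
  have h1 : ∀ (u : List A) (k : K) (w w' : W), L.comp w = D.cn k → Rd L.E w u w' →
      (FreeGroup.lift (fun a => op (σ a)) (u.map FreeGroup.of).prod).unop (D.ps k w) =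
        D.ps k w' := fun u => by
    induction u with
    | nil => intro k w w' _ h; rw [show w = w' from h]; simp
    | cons a u ih =>
      rintro k w w' hw ⟨z, e, h⟩
      rw [List.map_cons, List.prod_cons, map_mul, unop_mul, FreeGroup.lift_apply_of, unop_op,
        Equiv.Perm.mul_apply, ← ih k z w' ((L.comp_eq e).trans hw) h, D.hom hw e]
      rfl
  have h2 : ∀ r ∈ rels L, FreeGroup.lift (fun a => op (σ a)) r = 1 := by
    rintro r (⟨u, w, h, rfl⟩ | ⟨a, rfl⟩)
    · refine unop_injective (Equiv.ext fun y => ?_)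
      obtain ⟨k, hk, rfl⟩ := D.cover y w
      exact h1 u k w w hk h
    · refine unop_injective (Equiv.ext fun y => ?_)
      rw [map_mul, FreeGroup.lift_apply_of, FreeGroup.lift_apply_of]
      exact D.sg_io a y
  have hb : ∀ n, ∃ w, L.comp w = n := fun n => (L.ne n).imp fun w hw => (L.mem_Vn w n).1 hw
  choose base hbase using hb
  have hw : ∀ w, ∃ u, Rd L.E (base (L.comp w)) u w := fun w => hc _ _ (hbase _)
  choose wd hwd using hw
  let gen : A → PresentedGroup (rels L) := PresentedGroup.of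
  have g1 : ∀ a, gen (L.io a) = (gen a)⁻¹ := fun a => by
    have := PresentedGroup.one_of_mem (rels := rels L) (Or.inr ⟨a, rfl⟩)
    rw [map_mul] at this
    exact eq_inv_of_mul_eq_one_right this
  have g2 : ∀ u w, Rd L.E w u w → (u.map gen).prod = 1 := fun u w h => by
    have := PresentedGroup.one_of_mem (rels := rels L) (Or.inl ⟨u, w, h, rfl⟩)
    rwa [map_list_prod, List.map_map] at this
  have g3 : ∀ u : List A, (((u.map L.io).reverse).map gen).prod = (u.map gen).prod⁻¹ := fun u => by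
    induction u with
    | nil => simp
    | cons a u ih =>
      rw [List.map_cons, List.reverse_cons, List.map_append, List.prod_append, ih]
      simp [g1]
  have g4 : ∀ u u' w w', Rd L.E w u w' → Rd L.E w u' w' → (u.map gen).prod = (u'.map gen).prod :=
    fun u u' w w' h h' => by
    have := g2 _ _ (rd_append.2 ⟨w', h, rd_rev (fun _ _ _ => L.symm) h'⟩)
    rwa [List.map_append, List.prod_append, g3, mul_inv_eq_one] at this
  refine ⟨PresentedGroup (rels L), inferInstance, QuotientGroup.mk_surjective.countable, gen,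
    fun w => ((wd w).map gen).prod, fun y g => (PresentedGroup.toGroup h2 g).unop y, base, g1,
    fun w a w' e => ?_, hbase, fun n => ?_, fun y => by simp, fun y g h => by simp,
    fun y a => by simp [gen, σ], PresentedGroup.closure_range_of _⟩
  · have h := hwd w'
    rw [L.comp_eq e] at h
    exact (g4 _ _ _ _ h (rd_append.2 ⟨w, hwd w, rd_single.2 e⟩)).trans (by simp)
  · have h := hwd (base n)
    rw [hbase] at h
    exact g2 _ _ h

/-- Owners in the development. -/
structure Ow (D : Dev L Y K) (T : Type) [LinearOrder T] where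
  f : K → T
  k0 : K
  ok : Y → K
  ow : Y → W
  inj : Function.Injective f
  mono : ∀ k k', D.lev k < D.lev k' → f k < f k'
  first : ∀ k, f k0 ≤ f k
  e0 : ∃ w, L.comp w = D.cn k0 ∧ D.ps k0 w = D.e
  cmp : ∀ y, L.comp (ow y) = D.cn (ok y)
  ps : ∀ y, D.ps (ok y) (ow y) = y
  min : ∀ k w, L.comp w = D.cn k → f (ok (D.ps k w)) ≤ f k

variable {D : Dev L Y K} {T : Type} [LinearOrder T] (O : Ow D T)

lemma Ow.lev {k k' : K} (h : O.f k ≤ O.f k') : D.lev k ≤ D.lev k' :=
  not_lt.1 fun h' => absurd (O.mono _ _ h') (not_lt.2 h)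

lemma Ow.edge (y : Y) (a : A) (h : D.lev (O.ok (D.sg a y)) ≤ D.lev (O.ok y)) :
    (∃ z, L.E (O.ow y) a z) ∨ ∃ z, L.comp z = D.cn (O.ok (D.sg a y)) ∧
      D.ps (O.ok (D.sg a y)) z = y ∧ L.E z a (O.ow (D.sg a y)) := by
  have := D.edge (a := a) (O.cmp y) (O.cmp (D.sg a y)) (by rw [O.ps, O.ps])
    (fun k z hz e => O.lev (by rw [O.ps] at e; rw [← e]; exact O.min k z hz))
    (fun k z hz e => O.lev (by rw [O.ps] at e; rw [← e]; exact O.min k z hz)) h
  rwa [O.ps] at this

/-- Points owned by earlier copies are close to a centre. -/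
lemma Ow.cen (k : K) : ∃ w0, L.comp w0 = D.cn k ∧ (k ≠ O.k0 → O.f (O.ok (D.ps k w0)) < O.f k) ∧
    ∀ w, L.comp w = D.cn k → O.f (O.ok (D.ps k w)) < O.f k → ∃ u, u.length ≤ 2 * L.len (D.cn k) ∧
      Rd (fun z a z' => L.E z a z' ∧ O.f (O.ok (D.ps k z')) < O.f k) w0 u w := by
  obtain ⟨w0, h1, h2, h3⟩ := D.cen k
  refine ⟨w0, h1, fun hk => ?_, fun w hw hl => ?_⟩
  · rcases h2 with h | ⟨k', w', a, b, c⟩
    · obtain ⟨w, a, b⟩ := O.e0
      rw [h, ← b]
      exact (O.min _ _ a).trans_lt ((O.first k).lt_of_ne fun e => hk (O.inj e).symm)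
    · rw [← c]
      exact (O.min _ _ b).trans_lt (O.mono _ _ a)
  · obtain ⟨u, a, b⟩ := h3 w _ _ hw (fun e => by rw [e] at hl; exact lt_irrefl _ hl) (O.lev hl.le)
      (O.cmp _) (O.ps _)
    refine ⟨u, a, rd_mono id (fun z a z' h => ⟨h.1, ?_⟩) b⟩
    obtain ⟨k'', z'', c1, c2, c3⟩ := h.2
    rw [id, ← c3]
    refine (O.min _ _ c2).trans_lt ?_
    rcases c1 with rfl | c1
    · exact hl
    · exact O.mono _ _ c1

lemma Ow.phi [WellFoundedLT T] {G : Type} [Group G] {gen : A → G} {pos : W → G}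
    (g1 : ∀ a, gen (L.io a) = (gen a)⁻¹) (g2 : ∀ w a w', L.E w a w' → pos w' = pos w * gen a) :
    ∃ φ : Y → G, (∀ y a, φ (D.sg a y) = φ y * gen a) ∧
      ∀ w, L.comp w = D.cn O.k0 → φ (D.ps O.k0 w) = pos w := by
  classical
  choose c c1 c2 c3 using O.cen
  have wf : WellFounded fun k k' => O.f k < O.f k' := InvImage.wf O.f wellFounded_lt
  obtain ⟨gk, hg⟩ : ∃ gk : K → G, ∀ k, gk k = if k = O.k0 then 1 else
      gk (O.ok (D.ps k (c k))) * pos (O.ow (D.ps k (c k))) * (pos (c k))⁻¹ := by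
    refine ⟨wf.fix fun k r => if h : k = O.k0 then 1 else
      r (O.ok (D.ps k (c k))) (c2 k h) * pos (O.ow (D.ps k (c k))) * (pos (c k))⁻¹, fun k => ?_⟩
    rw [wf.fix_eq]
    by_cases h : k = O.k0
    · rw [dif_pos h, if_pos h]
    · rw [dif_neg h, if_neg h]
  obtain ⟨φ, hφ⟩ : ∃ φ : Y → G, ∀ y, φ y = gk (O.ok y) * pos (O.ow y) := ⟨_, fun _ => rfl⟩
  have half : ∀ y a, (∀ w, L.comp w = D.cn (O.ok y) → φ (D.ps (O.ok y) w) = gk (O.ok y) * pos w) →
      (∀ w, L.comp w = D.cn (O.ok (D.sg a y)) →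
        φ (D.ps (O.ok (D.sg a y)) w) = gk (O.ok (D.sg a y)) * pos w) →
      D.lev (O.ok (D.sg a y)) ≤ D.lev (O.ok y) → φ (D.sg a y) = φ y * gen a := by
    intro y a h1 h2 hl
    rcases O.edge y a hl with ⟨z, e⟩ | ⟨z, a1, a2, e⟩
    · have := h1 z ((L.comp_eq e).trans (O.cmp y))
      rw [D.hom (O.cmp y) e, O.ps] at this
      rw [this, g2 _ _ _ e, hφ y, mul_assoc]
    · have := h2 z a1
      rw [a2] at this
      rw [this, hφ, g2 _ _ _ e, mul_assoc]
  have step : ∀ y a, (∀ w, L.comp w = D.cn (O.ok y) → φ (D.ps (O.ok y) w) = gk (O.ok y) * pos w) →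
      (∀ w, L.comp w = D.cn (O.ok (D.sg a y)) →
        φ (D.ps (O.ok (D.sg a y)) w) = gk (O.ok (D.sg a y)) * pos w) →
      φ (D.sg a y) = φ y * gen a := by
    intro y a h1 h2
    rcases le_total (D.lev (O.ok (D.sg a y))) (D.lev (O.ok y)) with hl | hl
    · exact half y a h1 h2 hl
    · have := half (D.sg a y) (L.io a) h2 (by rw [D.sg_io]; exact h1) (by rw [D.sg_io]; exact hl)
      rw [D.sg_io, g1] at this
      rw [this, inv_mul_cancel_right]
  have H : ∀ k w, L.comp w = D.cn k → φ (D.ps k w) = gk k * pos w := fun k => by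
    induction k using wf.induction with
    | _ k ih =>
    intro w hw
    rcases (O.min k w hw).eq_or_lt with h | h
    · have h' := O.inj h
      have h'' : O.ow (D.ps k w) = w := D.inj (by rw [O.cmp, h']) hw (by
        have := O.ps (D.ps k w)
        rwa [h'] at this)
      rw [hφ, h', h'']
    · have hk : k ≠ O.k0 := fun e => absurd h (not_lt.2 (by rw [e]; exact O.first _))
      obtain ⟨u, -, hu⟩ := c3 k w hw h
      have walk : ∀ (u : List A) (z : W), L.comp z = D.cn k → O.f (O.ok (D.ps k z)) < O.f k →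
          φ (D.ps k z) = gk k * pos z →
          Rd (fun z a z' => L.E z a z' ∧ O.f (O.ok (D.ps k z')) < O.f k) z u w →
          φ (D.ps k w) = gk k * pos w := fun u => by
        induction u with
        | nil => intro z _ _ a r; rwa [← show z = w from r]
        | cons a u ihu =>
          rintro z b1 b2 b3 ⟨z', ⟨e, b4⟩, r⟩
          refine ihu z' ((L.comp_eq e).trans b1) b4 ?_ r
          have e' := D.hom b1 e
          rw [e', step _ a (ih _ b2) (by rw [← e']; exact ih _ b4), b3, g2 _ _ _ e, mul_assoc]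
      refine walk u (c k) (c1 k) (c2 k hk) ?_ hu
      rw [hg k, if_neg hk, inv_mul_cancel_right, hφ]
  refine ⟨φ, fun y a => step y a (H _) (H _), fun w hw => ?_⟩
  rw [H _ w hw, hg, if_pos rfl, one_mul]

lemma exists_ow (D : Dev L Y K) (w0 : W) : ∃ (T : Type) (_ : LinearOrder T) (_ : WellFoundedLT T)
    (O : Ow D T), D.cn O.k0 = L.comp w0 := by
  obtain ⟨k0, a1, a2⟩ := D.cover D.e w0
  obtain ⟨T, _, _, f, f1, f2, f3⟩ := exists_ord D.lev k0 (D.lev0 a1 a2)
  have wf : WellFounded fun k k' => f k < f k' := InvImage.wf f wellFounded_lt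
  have ex : ∀ y, ∃ k w, L.comp w = D.cn k ∧ D.ps k w = y ∧
      ∀ k' w', L.comp w' = D.cn k' → D.ps k' w' = y → f k ≤ f k' := fun y => by
    obtain ⟨k, ⟨w, b1, b2⟩, h⟩ := wf.has_min {k | ∃ w, L.comp w = D.cn k ∧ D.ps k w = y}
      ((D.cover y w0).imp fun k hk => ⟨w0, hk⟩)
    exact ⟨k, w, b1, b2, fun k' w' c1 c2 => not_lt.1 (h k' ⟨w', c1, c2⟩)⟩
  choose ok ow b1 b2 b3 using ex
  exact ⟨T, inferInstance, inferInstance, ⟨f, k0, ok, ow, f1, f2, f3, ⟨w0, a1, a2⟩, b1, b2,
    fun k w hw => b3 _ k w hw rfl⟩, a1.symm⟩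

end C3

open C3 in
theorem geo {L : Lab A W} (hc : L.Conn) {Y K : Type} (D : Dev L Y K) :
    ∃ (G : Type) (_ : Group G) (_ : Countable G) (D : Geo L G), ∀ n0, Nonempty (Own D n0) := by
  classical
  obtain ⟨G, _, _, gen, pos, act, base, g1, g2, b1, b2, a1, a2, a3, gt⟩ := exists_geo hc D
  have rd : ∀ (u : List A) k z w, L.comp z = D.cn k → Rd L.E z u w →
      D.ps k w = act (D.ps k z) ((pos z)⁻¹ * pos w) := fun u => by
    induction u with
    | nil => intro k z w _ h; rw [show z = w from h, inv_mul_cancel, a1]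
    | cons a u ih =>
      rintro k z w hz ⟨z', e, r⟩
      rw [ih k z' w ((L.comp_eq e).trans hz) r, D.hom hz e, ← a3, ← a2, g2 _ _ _ e]
      simp [mul_assoc]
  have pw : ∀ k w, L.comp w = D.cn k → D.ps k w = act (D.ps k (base (D.cn k))) (pos w) :=
    fun k w hw => by
    obtain ⟨u, hu⟩ := hc (base (D.cn k)) w (by rw [b1, hw])
    rw [rd u k _ w (b1 _) hu, b2, inv_one, one_mul]
  let P : Geo L G := ⟨gen, pos, g1, fun e => g2 _ _ _ e, fun {w w'} h e => by
    obtain ⟨k, hk, -⟩ := D.cover D.e w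
    exact D.inj hk (h.symm.trans hk) (by rw [pw k w hk, pw k w' (h.symm.trans hk), e])⟩
  refine ⟨G, inferInstance, inferInstance, P, fun n0 => ?_⟩
  obtain ⟨T, _, _, O, h0⟩ := exists_ow D (base n0)
  rw [b1] at h0
  obtain ⟨φ, p1, p2⟩ := O.phi g1 g2
  obtain ⟨ψ, hψ⟩ : ∃ ψ : G → Y, ∀ g, ψ g = act (D.ps O.k0 (base n0)) g := ⟨_, fun _ => rfl⟩
  have q1 : ∀ g a, ψ (g * gen a) = D.sg a (ψ g) := fun g a => by rw [hψ, hψ, a2, a3]
  have q2 : ∀ g y, φ (act y g) = φ y * g := fun g => by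
    have hg : g ∈ Subgroup.closure (Set.range gen) := by rw [gt]; trivial
    induction hg using Subgroup.closure_induction with
    | mem x hx => obtain ⟨a, rfl⟩ := hx; intro y; rw [a3, p1]
    | one => intro y; rw [a1, mul_one]
    | mul x z _ _ hx hz => intro y; rw [a2, hz, hx, mul_assoc]
    | inv x _ hx =>
      intro y
      have := hx (act y x⁻¹)
      rw [← a2, inv_mul_cancel, a1] at this
      rw [this, mul_inv_cancel_right]
  have q3 : Function.Injective ψ := Function.LeftInverse.injective (g := φ) fun g => by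
    rw [hψ, q2, p2 _ (by rw [b1, h0]), b2, one_mul]
  have ex : ∀ c : G × ℕ, ∃ k, D.cn k = c.2 ∧ ∀ w, L.comp w = c.2 → D.ps k w = ψ (c.1 * pos w) :=
    fun c => by
    obtain ⟨k, hk, e⟩ := D.cover (ψ c.1) (base c.2)
    rw [b1] at hk
    refine ⟨k, hk.symm, fun w hw => ?_⟩
    rw [pw k w (hw.trans hk), ← hk, e, hψ, hψ, a2]
  choose κ k1 k2 using ex
  have k3 : ∀ x w k, L.comp w = D.cn k → D.ps k w = ψ x → κ (P.cp x w) = k := fun x w k hw e =>
    D.uniq (w := w) (k1 (P.cp x w)).symm hw (by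
      rw [k2 _ w rfl, e]
      exact congrArg ψ (inv_mul_cancel_right _ _))
  have k4 : ∀ x, κ (P.cp x (O.ow (ψ x))) = O.ok (ψ x) := fun x => k3 _ _ _ (O.cmp _) (O.ps _)
  have k5 : ∀ x w, D.ps (κ (P.cp x w)) w = ψ x := fun x w => by
    rw [k2 _ w rfl]
    exact congrArg ψ (inv_mul_cancel_right _ _)
  have ed : ∀ x a, O.f (O.ok (ψ (x * gen a))) ≤ O.f (O.ok (ψ x)) → ∃ w', L.E (O.ow (ψ x)) a w' := by
    intro x a h
    rw [q1] at h
    rcases O.edge (ψ x) a (O.lev h) with e | ⟨z, c1, c2, e⟩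
    · exact e
    · have h2 := O.min _ z c1
      rw [c2] at h2
      have h3 := O.inj (le_antisymm h h2)
      rw [h3] at c1 c2
      rw [D.inj (O.cmp _) c1 (by rw [O.ps, c2])]
      exact ⟨_, e⟩
  refine ⟨⟨fun c c' => O.f (κ c) < O.f (κ c'), fun x => O.ow (ψ x),
    InvImage.wf (fun c => O.f (κ c)) wellFounded_lt, fun c c' => ?_, fun x w => ?_, fun c => ?_,
    fun g n => ?_, fun x a h => ?_, fun x a a' h h' => ?_⟩⟩
  · rcases lt_trichotomy (O.f (κ c)) (O.f (κ c')) with h | h | h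
    · exact Or.inl h
    · have h' := O.inj h
      have hn : c.2 = c'.2 := by rw [← k1, ← k1, h']
      have := k2 c (base c.2) (b1 _)
      rw [h', k2 c' _ (by rw [b1, hn]), b2, mul_one, mul_one] at this
      exact Or.inr (Or.inl (Prod.ext (q3 this).symm hn))
    · exact Or.inr (Or.inr h)
  · have := O.min (κ (P.cp x w)) w (k1 (P.cp x w)).symm
    rw [k5] at this
    rcases this.eq_or_lt with h | h
    · have h' := O.inj h
      exact Or.inl (D.inj (O.cmp _) (by rw [h']; exact (k1 (P.cp x w)).symm) (by rw [O.ps, h', k5]))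
    · exact Or.inr (by rw [k4]; exact h)
  · have : κ (1, n0) = O.k0 := D.uniq (w := base n0) (by rw [k1, b1]) (by rw [b1, h0]) (by
      rw [k2 _ _ (b1 _), b2, mul_one, hψ, a1])
    rw [this]
    exact not_lt.2 (O.first _)
  · obtain ⟨w0, -, -, c3⟩ := O.cen (κ (g, n))
    obtain ⟨B, hB, hB'⟩ := ball L w0 (2 * L.len n)
    refine (card_le_card fun w hw => ?_).trans hB
    obtain ⟨hw1, hw2⟩ := mem_filter.1 hw
    have hw3 : L.comp w = D.cn (κ (g, n)) := ((L.mem_Vn w n).1 hw1).trans (k1 (g, n)).symm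
    have e := k2 (g, n) w ((L.mem_Vn w n).1 hw1)
    obtain ⟨u, u1, u2⟩ := c3 w hw3 ((O.min _ w hw3).lt_of_ne fun h => hw2 (by
      have h' := O.inj h
      change O.ow (ψ (g * pos w)) = w
      rw [← e]
      exact D.inj (by rw [O.cmp, h']) hw3 (by
        have := O.ps (D.ps (κ (g, n)) w)
        rwa [h'] at this)))
    rw [k1] at u1
    exact hB' u w u1 (rd_mono id (fun _ _ _ h => h.1) u2)
  · rw [k4, k4] at h
    exact ed x a (not_lt.1 h)
  · rw [k4, k4] at h h'
    obtain ⟨w1, e1⟩ := ed x a h.le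
    obtain ⟨w2, e2⟩ := ed x a' h'.le
    obtain ⟨w0, -, c2, c3⟩ := O.cen (O.ok (ψ x))
    have hk : O.ok (ψ x) ≠ O.k0 := fun e => absurd h (not_lt.2 (by rw [e]; exact O.first _))
    have ne : ∀ z, O.f (O.ok (D.ps (O.ok (ψ x)) z)) < O.f (O.ok (ψ x)) → z ≠ O.ow (ψ x) :=
      fun z hz e => by rw [e, O.ps] at hz; exact lt_irrefl _ hz
    have path : ∀ b w, L.E (O.ow (ψ x)) b w → O.f (O.ok (ψ (x * gen b))) < O.f (O.ok (ψ x)) →
        ∃ u, u.length ≤ 2 * L.len (L.comp (O.ow (ψ x))) ∧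
          Rd (fun z a z' => L.E z a z' ∧ z ≠ O.ow (ψ x) ∧ z' ≠ O.ow (ψ x)) w0 u w := by
      intro b w e hl
      obtain ⟨u, u1, u2⟩ := c3 w ((L.comp_eq e).trans (O.cmp _)) (by
        rw [D.hom (O.cmp _) e, O.ps, ← q1]; exact hl)
      refine ⟨u, by rw [O.cmp]; exact u1, ?_⟩
      have h0 := ne w0 (c2 hk)
      clear u1 c2 c3
      induction u generalizing w0 with
      | nil => exact u2
      | cons d u ih =>
        obtain ⟨z, ⟨d1, d2⟩, r⟩ := u2
        exact ⟨z, ⟨d1, h0, ne z d2⟩, ih z r (ne z d2)⟩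
    obtain ⟨u, u1, u2⟩ := path a w1 e1 h
    obtain ⟨v, v1, v2⟩ := path a' w2 e2 h'
    obtain ⟨t, t1, t2, t3⟩ := rd_red (io := L.io) (fun p d q r h h' => L.canc p d q r h.1 h'.1)
      (rd_append.2 ⟨w0, rd_rev (io := L.io) (fun _ _ _ h => ⟨L.symm h.1, h.2.2, h.2.1⟩) u2, v2⟩)
    have r1 : Red L.io (a :: t) := red_cons.2 ⟨fun b hb e => by
      cases t with
      | nil => simp at hb
      | cons d t =>
        obtain rfl : d = b := by simpa using hb
        obtain ⟨z, d1, -⟩ := t3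
        rw [e] at d1
        exact d1.2.2 (L.canc _ _ _ _ e1 d1.1), t1⟩
    have := rd_uniq L r1 red_single ⟨w1, e1, rd_mono id (fun _ _ _ h => h.1) t3⟩ (rd_single.2 e2) (by
      have := L.len_pos (L.comp (O.ow (ψ x)))
      simp at t2 ⊢
      omega)
    exact (List.cons.inj this).1

end Vale.Agent.P089
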