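import Vale.Agent.P089.Defs

/-! Random linear codes. -/

namespace Vale.Agent.P089

open Finset

variable {A : Type} [Fintype A]

namespace D

lemma fib {G H : Type} [AddGroup G] [AddGroup H] [Fintype G] [Fintype H] (f : G →+ H)
    (hf : Function.Surjective f) (S : Finset H) (Q : Finset G) (hQ : ∀ x, x ∈ Q ↔ f x ∈ S) :
    Q.card * Fintype.card H = S.card * Fintype.card G := by
  classical
  obtain rfl : Q = univ.filter fun x => f x ∈ S := by ext x; simp [hQ]
  have h1 : ∀ T : Finset H, (univ.filter fun x => f x ∈ T).card =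
      T.card * (univ.filter fun x => f x = 0).card := fun T => by
    rw [card_eq_sum_card_fiberwise (f := f) (t := T) fun x hx => by simpa using hx,
      ← smul_eq_mul, ← sum_const]
    refine sum_congr rfl fun y hy => ?_
    rw [← AddMonoidHom.card_fiber_eq_of_mem_range f (hf y) (hf 0), filter_filter]
    congr 1
    exact filter_congr fun x _ => ⟨fun h => h.2, fun h => ⟨h ▸ hy, h⟩⟩
  have h2 := h1 univ
  simp only [mem_univ, filter_true, card_univ] at h2
  rw [h1, h2]
  ring

lemma card_bit [Fintype (Bit A)] : Fintype.card (Bit A) = 2 ^ (Fintype.card A + 3) := by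
  rw [← Nat.card_eq_fintype_card, Nat.card_fun]
  simp

lemma one_of_ne : ∀ x : ZMod 2, x ≠ 0 → x = 1 := by decide

open Classical in
lemma heavy {V : Type} [Fintype V] (k : ℕ) (hk : 2 * k ≤ Fintype.card V) :
    (univ.filter fun z : V → Bit A =>
      ¬ 2 * (univ.filter fun v => ∀ i, z v (Sum.inr i) = 1).card ≤ Fintype.card V).card * 2 ^ k ≤
        Fintype.card (V → Bit A) := by
  have h1 : ∀ T : Finset V, Fintype.card V < 2 * T.card →
      (univ.filter fun z : V → Bit A => ∀ v ∈ T, ∀ i, z v (Sum.inr i) = 1).card *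
        2 ^ (Fintype.card V + k) ≤ Fintype.card (V → Bit A) := fun T hT => by
    let f : (V → Bit A) →+ (T → Fin 3 → ZMod 2) :=
      { toFun := fun z v i => z v (Sum.inr i), map_zero' := rfl, map_add' := fun _ _ => rfl }
    have := fib f (fun y => ⟨fun v => Sum.elim (fun _ => 0)
      (fun i => if h : v ∈ T then y ⟨v, h⟩ i else 0), by ext v i; simp [f]⟩) {fun _ _ => 1}
      (univ.filter fun z : V → Bit A => ∀ v ∈ T, ∀ i, z v (Sum.inr i) = 1)
      fun z => by simp [f, funext_iff]
    rw [card_singleton, one_mul] at this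
    rw [← this]
    refine Nat.mul_le_mul_left _ ?_
    · simp only [Fintype.card_pi, ZMod.card, prod_const, card_univ, Fintype.card_fin,
        Fintype.card_coe, ← pow_mul]
      exact Nat.pow_le_pow_right (by norm_num) (by omega)
  let P := (univ : Finset (Finset V)).filter fun T => Fintype.card V < 2 * T.card
  have h2 : (univ.filter fun z : V → Bit A =>
      ¬ 2 * (univ.filter fun v => ∀ i, z v (Sum.inr i) = 1).card ≤ Fintype.card V) ⊆
      P.biUnion fun T => univ.filter fun z : V → Bit A => ∀ v ∈ T, ∀ i, z v (Sum.inr i) = 1 := by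
    intro z hz
    simp only [mem_filter, mem_univ, true_and, not_le] at hz
    simp only [P, mem_biUnion, mem_filter, mem_univ, true_and]
    exact ⟨_, hz, fun v hv => (mem_filter.1 hv).2⟩
  have h3 := Nat.mul_le_mul_right (2 ^ (Fintype.card V + k)) ((card_le_card h2).trans card_biUnion_le)
  rw [sum_mul] at h3
  have h4 := h3.trans (sum_le_card_nsmul _ _ _ fun T hT => h1 T (mem_filter.1 hT).2)
  have h5 : P.card ≤ 2 ^ Fintype.card V := (card_le_univ _).trans_eq (by simp)
  rw [smul_eq_mul, pow_add, mul_comm (2 ^ _), ← mul_assoc] at h4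
  have h6 := h4.trans (Nat.mul_le_mul_right _ h5)
  rw [mul_comm (2 ^ _)] at h6
  exact Nat.le_of_mul_le_mul_right h6 (by positivity)

lemma nums (l a : ℕ) (hl : a + 5 ≤ l) :
    2 * (71 * l * 1001 ^ (2 * l) + 2 + 3) ≤ 1000 ^ (7 * l) ∧
      (1000 ^ (7 * l)).choose (1001 ^ (2 * l)) * 2 ^ (1001 ^ (2 * l) * (a + 3)) ≤
        2 ^ (71 * l * 1001 ^ (2 * l)) := by
  have h1 : 1001 ^ (2 * l) ≤ 1000 ^ (3 * l) := by
    rw [pow_mul, pow_mul]; exact Nat.pow_le_pow_left (by norm_num) _
  have h2 : l < 1000 ^ l := Nat.lt_pow_self (by norm_num)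
  have h3 : 1000 ≤ 1000 ^ (3 * l) := Nat.le_self_pow (by omega) _
  have h0 : 0 < 1001 ^ (2 * l) := by positivity
  constructor
  · have e : 1000 ^ (7 * l) = 1000 ^ l * 1000 ^ (3 * l) * 1000 ^ (3 * l) := by
      rw [← pow_add, ← pow_add]; congr 1; ring
    rw [e]
    generalize 1001 ^ (2 * l) = u at *
    generalize 1000 ^ (3 * l) = y at *
    generalize 1000 ^ l = x at *
    calc 2 * (71 * l * u + 2 + 3) ≤ (l + 1) * 1000 * u := by nlinarith
      _ ≤ x * y * y := Nat.mul_le_mul (Nat.mul_le_mul h2 h3) h1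
  · have h4 : 1000 ^ (7 * l) ≤ 2 ^ (70 * l) := by
      rw [pow_mul, pow_mul]; exact Nat.pow_le_pow_left (by norm_num) _
    generalize 1001 ^ (2 * l) = u at *
    calc _ ≤ (2 ^ (70 * l)) ^ u * 2 ^ (u * (a + 3)) :=
          Nat.mul_le_mul_right _ ((Nat.choose_le_pow _ _).trans (Nat.pow_le_pow_left h4 _))
      _ ≤ _ := by
        rw [← pow_mul, ← pow_add]
        exact Nat.pow_le_pow_right (by norm_num) (by nlinarith)

open Classical in
lemma exists_r {V : Type} [Fintype V] (w : V → Bit A) (u m : ℕ)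
    (h1 : 2 * (m + 2 + 3) ≤ Fintype.card V)
    (h2 : (Fintype.card V).choose u * 2 ^ (u * (Fintype.card A + 3)) ≤ 2 ^ m) :
    ∃ r : Fin (m + 2) → V → Bit A, (∀ (e : ZMod 2) (t : Fin (m + 2) → ZMod 2), t ≠ 0 →
      2 * (univ.filter fun v => ∀ i, (e • w + ∑ j, t j • r j) v (Sum.inr i) = 1).card ≤
        Fintype.card V) ∧ ∀ U : Finset V, U.card = u →
          ∀ f : Module.Dual (ZMod 2) (U → Bit A), f ≠ 0 → ∃ j, f (fun v => r j v) ≠ 0 := by
  let Ω := Fin (m + 2) → V → Bit A
  let B1 : ZMod 2 × (Fin (m + 2) → ZMod 2) → Finset Ω := fun p => univ.filter fun r => p.2 ≠ 0 ∧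
    ¬ 2 * (univ.filter fun v => ∀ i, (p.1 • w + ∑ j, p.2 j • r j) v (Sum.inr i) = 1).card ≤
      Fintype.card V
  have b1 : ∀ p, (B1 p).card * 2 ^ (m + 2 + 3) ≤ Fintype.card Ω := fun p => by
    by_cases hp : p.2 = 0
    · simp [B1, hp]
    obtain ⟨j0, hj⟩ := Function.ne_iff.1 hp
    have hj1 : p.2 j0 = 1 := one_of_ne _ hj
    let f : Ω →+ (V → Bit A) :=
      { toFun := fun r => ∑ j, p.2 j • r j, map_zero' := by simp [Ω]
        map_add' := fun r r' => by simp [Ω, sum_add_distrib] }
    have hf : Function.Surjective f := fun y => ⟨Pi.single j0 y, by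
      change ∑ j, p.2 j • (Pi.single j0 y : Ω) j = y
      rw [sum_eq_single j0 (fun j _ h => by simp [h]) (by simp), hj1]; simp⟩
    have e1 := heavy (A := A) _ h1
    set Hv := univ.filter fun z : V → Bit A =>
      ¬ 2 * (univ.filter fun v => ∀ i, z v (Sum.inr i) = 1).card ≤ Fintype.card V
    have e2 := fib f hf (Hv.map (Equiv.subRight (p.1 • w)).toEmbedding) (B1 p) fun r => by
      rw [mem_map_equiv, Equiv.subRight_symm_apply, add_comm (f r)]
      simp only [B1, Hv, mem_filter, mem_univ, true_and, ne_eq, hp, not_false_eq_true]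
      rfl
    rw [card_map] at e2
    refine Nat.le_of_mul_le_mul_right ?_ (Fintype.card_pos (α := V → Bit A))
    rw [mul_right_comm, e2, mul_right_comm, mul_comm (Fintype.card Ω)]
    exact Nat.mul_le_mul_right _ e1
  have : ∀ U : Finset V, Finite (Module.Dual (ZMod 2) (U → Bit A)) := fun U =>
    Module.finite_of_finite (ZMod 2)
  let _ : ∀ U : Finset V, Fintype (Module.Dual (ZMod 2) (U → Bit A)) := fun U => Fintype.ofFinite _
  let B2 : (Σ U : Finset V, Module.Dual (ZMod 2) (U → Bit A)) → Finset Ω := fun p =>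
    univ.filter fun r => p.2 ≠ 0 ∧ ∀ j, p.2 (fun v => r j v) = 0
  have b2 : ∀ p, (B2 p).card * 2 ^ (m + 2) ≤ Fintype.card Ω := fun p => by
    by_cases hp : p.2 = 0
    · simp [B2, hp]
    obtain ⟨y0, hy⟩ := DFunLike.ne_iff.1 hp
    have hy1 : p.2 y0 = 1 := one_of_ne _ hy
    let f : Ω →+ (Fin (m + 2) → ZMod 2) :=
      { toFun := fun r j => p.2 (fun v => r j v), map_zero' := by ext j; exact map_zero _
        map_add' := fun r r' => by ext j; exact map_add p.2 _ _ }
    have hf : Function.Surjective f := fun y =>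
      ⟨fun j v => if h : v ∈ p.1 then y j • y0 ⟨v, h⟩ else 0, by
        ext j
        have : (fun v : p.1 => if h : (v : V) ∈ p.1 then y j • y0 ⟨v, h⟩ else 0) = y j • y0 := by
          ext v; simp
        change p.2 _ = _
        rw [this, map_smul, hy1, smul_eq_mul, mul_one]⟩
    have e2 := fib f hf {0} (B2 p) fun r => by
      simp only [B2, mem_filter, mem_univ, ne_eq, hp, not_false_eq_true, true_and, mem_singleton]
      exact ⟨fun h => funext h, fun h j => congrFun h j⟩
    rw [card_singleton, one_mul] at e2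
    rw [← e2]
    simp
  let I2 : Finset (Σ U : Finset V, Module.Dual (ZMod 2) (U → Bit A)) :=
    (powersetCard u univ).sigma fun _ => univ
  have i2 : I2.card ≤ 2 ^ m := by
    refine le_trans (le_of_eq ?_) h2
    rw [card_sigma, sum_congr rfl (g := fun _ => 2 ^ (u * (Fintype.card A + 3))), sum_const,
      card_powersetCard, card_univ, smul_eq_mul]
    intro U hU
    rw [card_univ, Module.card_eq_pow_finrank (K := ZMod 2), Subspace.dual_finrank_eq,
      ← Module.card_eq_pow_finrank, Fintype.card_pi, prod_const, card_bit, card_univ,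
      Fintype.card_coe, (mem_powersetCard.1 hU).2, ← pow_mul, mul_comm]
  have c1 : (univ.biUnion B1).card * 4 ≤ Fintype.card Ω := by
    have := (Nat.mul_le_mul_right (2 ^ (m + 2 + 3)) (card_biUnion_le (s := univ) (t := B1))).trans
      ((sum_mul _ _ _).le.trans (sum_le_card_nsmul _ _ _ fun p _ => b1 p))
    simp only [card_univ, Fintype.card_prod, ZMod.card, Fintype.card_pi, prod_const,
      Fintype.card_fin, smul_eq_mul] at this ⊢
    refine Nat.le_of_mul_le_mul_right (le_trans (le_of_eq ?_) (this.trans_eq (mul_comm _ _)))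
      (by positivity)
    ring
  have c2 : (I2.biUnion B2).card * 4 ≤ Fintype.card Ω := by
    have := (Nat.mul_le_mul_right (2 ^ (m + 2)) (card_biUnion_le (s := I2) (t := B2))).trans
      ((sum_mul _ _ _).le.trans (sum_le_card_nsmul _ _ _ fun p _ => b2 p))
    rw [smul_eq_mul] at this
    refine Nat.le_of_mul_le_mul_right (le_trans (le_of_eq ?_)
      ((this.trans (Nat.mul_le_mul_right _ i2)).trans_eq (mul_comm _ _))) (by positivity)
    ring
  have c3 : (univ.biUnion B1 ∪ I2.biUnion B2).card < (univ : Finset Ω).card := by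
    have := card_union_le (univ.biUnion B1) (I2.biUnion B2)
    have h0 : 0 < Fintype.card Ω := Fintype.card_pos
    rw [card_univ]
    omega
  obtain ⟨r, -, hr⟩ := exists_mem_notMem_of_card_lt_card c3
  simp only [mem_union, mem_biUnion, not_or, not_exists, not_and] at hr
  refine ⟨r, fun e t ht => ?_, fun U hU f hf => ?_⟩
  · by_contra h
    exact hr.1 (e, t) (mem_univ _) (mem_filter.2 ⟨mem_univ _, ht, h⟩)
  · by_contra h
    refine hr.2 ⟨U, f⟩ ?_ (mem_filter.2 ⟨mem_univ _, hf, fun j => ?_⟩)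
    · simp [I2, hU]
    · by_contra h'
      exact h ⟨j, h'⟩

end D

open D

theorem code {V : Type} [Fintype V] (w : V → Bit A) (l : ℕ) (hV : Fintype.card V = 1000 ^ (7 * l))
    (hl : Fintype.card A + 5 ≤ l) : ∃ C, IsCode w (1001 ^ (2 * l)) C := by
  classical
  obtain ⟨n1, n2⟩ := nums l _ hl
  have hu : 1001 ^ (2 * l) ≤ Fintype.card V := by
    rw [hV, pow_mul, pow_mul]; exact Nat.pow_le_pow_left (by norm_num) _
  rw [← hV] at n1 n2
  generalize 1001 ^ (2 * l) = u at *
  obtain ⟨r, r1, r2⟩ := exists_r w u _ n1 n2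
  let C : AddSubgroup (V → Bit A) :=
    { carrier := {z | ∃ (e : ZMod 2) (t : Fin (71 * l * u + 2) → ZMod 2),
        z = e • w + ∑ j, t j • r j}
      zero_mem' := ⟨0, 0, by simp⟩
      add_mem' := by
        rintro _ _ ⟨e, t, rfl⟩ ⟨e', t', rfl⟩
        exact ⟨e + e', t + t', by simp only [add_smul, Pi.add_apply, sum_add_distrib]; abel⟩
      neg_mem' := by
        rintro _ ⟨e, t, rfl⟩
        exact ⟨-e, -t, by simp only [neg_smul, Pi.neg_apply, sum_neg_distrib]; abel⟩ }
  refine ⟨C, ⟨1, 0, by simp⟩, ?_, fun U0 hU0 f => ?_⟩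
  · rintro _ ⟨e, t, rfl⟩ hz
    by_cases ht : t = 0
    · have he : e = 0 := by
        by_contra h
        exact hz (by simp [ht, one_of_ne e h])
      rw [filter_false_of_mem fun v _ h => by simpa [ht, he] using h 0]
      simp
    · exact r1 e t ht
  · obtain ⟨U, hU1, -, hU⟩ := exists_subsuperset_card_eq (subset_univ U0) hU0
      (by rwa [card_univ])
    have : Submodule.span (ZMod 2) (Set.range fun j => fun v : U => r j v) = ⊤ := by
      by_contra h
      obtain ⟨g, hg, hle⟩ := Submodule.exists_le_ker_of_lt_top _ (lt_top_iff_ne_top.2 h)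
      obtain ⟨j, hj⟩ := r2 U hU g hg
      exact hj (hle (Submodule.subset_span ⟨j, rfl⟩))
    obtain ⟨t, ht⟩ := (Submodule.mem_span_range_iff_exists_fun _).1
      (this ▸ Submodule.mem_top : (fun v : U => f v) ∈ _)
    refine ⟨_, ⟨0, t, rfl⟩, fun v hv => ?_⟩
    have := congrFun ht ⟨v, hU1 hv⟩
    simpa using this

theorem code_card {V : Type} [Fintype V] {w : V → Bit A} {u : ℕ} {C : AddSubgroup (V → Bit A)}
    (h : IsCode w u C) (hu : u ≤ Fintype.card V) :
    ∃ a, Nat.card C = 2 ^ a ∧ u ≤ a ∧ a ≤ Fintype.card V * (Fintype.card A + 3) := by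
  classical
  have h1 := AddSubgroup.card_addSubgroup_dvd_card C
  rw [Nat.card_eq_fintype_card (α := V → Bit A), Fintype.card_pi, prod_const, card_bit, card_univ,
    ← pow_mul, mul_comm, Nat.dvd_prime_pow Nat.prime_two] at h1
  obtain ⟨a, ha, e⟩ := h1
  refine ⟨a, e, ?_, ha⟩
  obtain ⟨U, -, hU⟩ := exists_subset_card_eq (s := (univ : Finset V)) (n := u) (by rwa [card_univ])
  have h2 := Nat.card_le_card_of_surjective (fun (z : C) (v : U) => z.1 v) fun y => by
    obtain ⟨z, hz, hz'⟩ := h.onto U hU.le fun v => if h : v ∈ U then y ⟨v, h⟩ else 0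
    exact ⟨⟨z, hz⟩, by ext1 v; simp [hz' v v.2]⟩
  rw [e, Nat.card_eq_fintype_card, Fintype.card_pi, prod_const, card_bit, card_univ,
    Fintype.card_coe, hU, ← pow_mul] at h2
  have := (Nat.pow_le_pow_iff_right (by norm_num)).1 h2
  nlinarith

end Vale.Agent.P089
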