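import Vale.Agent.P089.Defs

/-! The compact group of configurations and an irrational sum. -/

namespace Vale.Agent.P089

open Finset Filter Topology

variable {A W : Type} [Fintype A]

theorem conf_compact {L : Lab A W} {G : Type} [Group G] (D : Geo L G)
    (C : ∀ n, AddSubgroup (L.Vn n → Bit A)) : CompactSpace (Conf D C) := by
  have hc : IsClosed (Conf D C : Set (G → Bit A)) := by
    have e : (Conf D C : Set (G → Bit A)) = ⋂ g, ⋂ n,
        (fun x : G → Bit A => fun w : L.Vn n => x (g * D.pos w)) ⁻¹' (C n : Set _) := by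
      ext x
      simp only [Set.mem_iInter]
      rfl
    rw [e]
    refine isClosed_iInter fun g => isClosed_iInter fun n => IsClosed.preimage ?_ ?_
    · exact continuous_pi fun w => continuous_apply _
    · exact (Set.toFinite _).isClosed
  exact isCompact_iff_compactSpace.1 hc.isCompact

theorem conf_inv {L : Lab A W} {G : Type} [Group G] (D : Geo L G)
    (C : ∀ n, AddSubgroup (L.Vn n → Bit A)) (x : G → Bit A) (hx : x ∈ Conf D C) (g : G) :
    (fun y => x (g * y)) ∈ Conf D C := by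
  intro h n
  have := hx (g * h) n
  simpa only [mul_assoc] using this

namespace E

theorem wf_choice {α : Type} {T : α → Type} {r : α → α → Prop} (wf : WellFounded r)
    (P : ∀ c, (∀ c', r c' c → T c') → T c → Prop) (h : ∀ c f, ∃ x, P c f x) :
    ∃ g : ∀ c, T c, ∀ c, P c (fun c' _ => g c') (g c) := by
  let F : ∀ c, (∀ c', r c' c → T c') → T c := fun c f => Classical.choose (h c f)
  let g : ∀ c, T c := wf.fix F
  refine ⟨g, fun c => ?_⟩
  have e : g c = F c fun c' _ => g c' := wf.fix_eq F c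
  rw [e]
  exact Classical.choose_spec (h c _)

theorem cp_pos {L : Lab A W} {G : Type} [Group G] (D : Geo L G) (g : G) (w : W) :
    D.cp (g * D.pos w) w = (g, L.comp w) := by
  simp [Geo.cp]

theorem onto1 {L : Lab A W} {G : Type} [Group G] (D : Geo L G) (n : ℕ) (O : Own D n)
    (C : ∀ n, AddSubgroup (L.Vn n → Bit A))
    (hC : ∀ n, IsCode (fun w : L.Vn n => L.pat w) (1001 ^ (2 * L.len n)) (C n))
    (z : L.Vn n → Bit A) (hz : z ∈ C n) :
    ∃ x ∈ Conf D C, ∀ w : L.Vn n, x (D.pos w) = z w := by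
  classical
  obtain ⟨ga, hga⟩ := wf_choice (T := fun _ : G × ℕ => W → Bit A) O.wf
    (fun c f y => (fun w : L.Vn c.2 => y w) ∈ C c.2 ∧
      (c = (1, n) → ∀ w : L.Vn n, y w = z w) ∧
      ∀ w, L.comp w = c.2 → ∀ h : O.lt (D.cp (c.1 * D.pos w) (O.own (c.1 * D.pos w))) c,
        y w = f _ h (O.own (c.1 * D.pos w))) (by
    rintro ⟨g, m⟩ f
    by_cases hc : (g, m) = (1, n)
    · obtain ⟨rfl, rfl⟩ := Prod.mk.inj hc
      refine ⟨fun w => if h : w ∈ L.Vn m then z ⟨w, h⟩ else 0, ?_, fun _ w => ?_,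
        fun w _ h => absurd h (O.first _)⟩
      · have : (fun w : L.Vn m => if h : (w : W) ∈ L.Vn m then z ⟨w, h⟩ else 0) = z := by
          funext w
          rw [dif_pos w.2]
        exact (congrArg (· ∈ C m) this).mpr hz
      · exact dif_pos w.2
    · let U : Finset (L.Vn m) := univ.filter fun w => O.own (g * D.pos w) ≠ w
      have hU : U.card ≤ 1001 ^ (2 * L.len m) := by
        refine le_trans ?_ (O.small g m)
        refine card_le_card_of_injOn (fun w => (w : W)) ?_ fun _ _ _ _ e => Subtype.ext e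
        intro w hw
        exact mem_coe.2 (mem_filter.2 ⟨w.2, (mem_filter.1 (mem_coe.1 hw)).2⟩)
      obtain ⟨y, hy, hy'⟩ := (hC m).onto U hU fun w =>
        if h : O.lt (D.cp (g * D.pos w) (O.own (g * D.pos w))) (g, m) then
          f _ h (O.own (g * D.pos w)) else 0
      refine ⟨fun w => if h : w ∈ L.Vn m then y ⟨w, h⟩ else 0, ?_, fun e => absurd e hc,
        fun w hw h => ?_⟩
      · have : (fun w : L.Vn m => if h : (w : W) ∈ L.Vn m then y ⟨w, h⟩ else 0) = y := by
          funext w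
          rw [dif_pos w.2]
        exact (congrArg (· ∈ C m) this).mpr hy
      · have hw' : w ∈ L.Vn m := (L.mem_Vn _ _).2 hw
        have hne : O.own (g * D.pos w) ≠ w := by
          intro e
          have h' : O.lt (D.cp (g * D.pos w) (O.own (g * D.pos w))) (g, m) := h
          rw [e, cp_pos, show L.comp w = m from hw] at h'
          exact O.wf.irrefl.irrefl _ h'
        show (if h : w ∈ L.Vn m then y ⟨w, h⟩ else 0) = _
        rw [dif_pos hw', hy' ⟨w, hw'⟩ (mem_filter.2 ⟨mem_univ _, hne⟩)]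
        exact dif_pos h)
  have key : ∀ g m (w : W), L.comp w = m →
      ga (D.cp (g * D.pos w) (O.own (g * D.pos w))) (O.own (g * D.pos w)) = ga (g, m) w := by
    intro g m w hw
    rcases O.min (g * D.pos w) w with e | e
    · rw [e, cp_pos, hw]
    · rw [cp_pos, hw] at e
      exact ((hga (g, m)).2.2 w hw e).symm
  refine ⟨fun y => ga (D.cp y (O.own y)) (O.own y), fun g m => ?_, fun w => ?_⟩
  · have e : (fun w : L.Vn m => ga (D.cp (g * D.pos w) (O.own (g * D.pos w)))
        (O.own (g * D.pos w))) = fun w : L.Vn m => ga (g, m) w :=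
      funext fun w => key g m w ((L.mem_Vn _ _).1 w.2)
    show (fun w : L.Vn m => ga (D.cp (g * D.pos w) (O.own (g * D.pos w)))
        (O.own (g * D.pos w))) ∈ C m
    rw [e]
    exact (hga (g, m)).1
  · have := key 1 n w ((L.mem_Vn _ _).1 w.2)
    rw [one_mul] at this
    exact this.trans ((hga (1, n)).2.1 rfl w)

end E

theorem conf_onto {L : Lab A W} {G : Type} [Group G] (D : Geo L G) (hO : ∀ n, Nonempty (Own D n))
    (C : ∀ n, AddSubgroup (L.Vn n → Bit A))
    (hC : ∀ n, IsCode (fun w : L.Vn n => L.pat w) (1001 ^ (2 * L.len n)) (C n)) (g : G) (n : ℕ)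
    (z : L.Vn n → Bit A) (hz : z ∈ C n) :
    ∃ x ∈ Conf D C, ∀ w : L.Vn n, x (g * D.pos w) = z w := by
  obtain ⟨O⟩ := hO n
  obtain ⟨x, hx, h⟩ := E.onto1 D n O C hC z hz
  refine ⟨fun y => x (g⁻¹ * y), conf_inv D C x hx _, fun w => ?_⟩
  show x (g⁻¹ * (g * D.pos w)) = z w
  rw [inv_mul_cancel_left]
  exact h w

namespace E

theorem lb (a : ℕ → ℕ) (ha : ∀ n, a n + n ≤ a (n + 1)) (n : ℕ) (hn : 1 ≤ n) (k : ℕ) :
    a n + n + k ≤ a (k + (n + 1)) := by
  induction k with
  | zero => simpa using ha n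
  | succ k ih =>
    have := ha (k + (n + 1))
    rw [show k + 1 + (n + 1) = k + (n + 1) + 1 by ring]
    omega

end E

theorem irr (a : ℕ → ℕ) (ha : ∀ n, a n + n ≤ a (n + 1)) :
    Irrational (∑' n, 1 / (2 : ℝ) ^ a n) := by
  have hmono : Monotone a := monotone_nat_of_le_succ fun n => le_trans (Nat.le_add_right _ _) (ha n)
  have geo : ∀ m : ℕ, HasSum (fun k : ℕ => 1 / (2 : ℝ) ^ (m + k)) (2 / 2 ^ m) := by
    intro m
    have := hasSum_geometric_two.mul_left (1 / (2 : ℝ) ^ m)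
    have e : (fun k : ℕ => 1 / (2 : ℝ) ^ (m + k)) = fun k : ℕ => 1 / (2 : ℝ) ^ m * (1 / 2) ^ k := by
      funext k
      rw [pow_add, one_div_pow]
      field_simp
    rw [e, show (2 : ℝ) / 2 ^ m = 1 / 2 ^ m * 2 by ring]
    exact this
  have hle : ∀ n, 1 ≤ n → ∀ k, 1 / (2 : ℝ) ^ a (k + (n + 1)) ≤ 1 / (2 : ℝ) ^ (a n + n + k) :=
    fun n hn k => one_div_le_one_div_of_le (by positivity)
      (pow_le_pow_right₀ (by norm_num) (E.lb a ha n hn k))
  have hs : ∀ n, 1 ≤ n → Summable fun k => 1 / (2 : ℝ) ^ a (k + (n + 1)) := fun n hn =>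
    Summable.of_nonneg_of_le (fun _ => by positivity) (hle n hn) (geo _).summable
  have hS : Summable fun k => 1 / (2 : ℝ) ^ a k := (summable_nat_add_iff 2).1 (hs 1 le_rfl)
  rintro ⟨r, hr⟩
  obtain ⟨n, hn⟩ : ∃ n : ℕ, n = r.den + 1 := ⟨_, rfl⟩
  have hn1 : 1 ≤ n := by omega
  have hsplit := hS.sum_add_tsum_nat_add (n + 1)
  rw [← hr] at hsplit
  have t1 : 0 < ∑' k, 1 / (2 : ℝ) ^ a (k + (n + 1)) :=
    (hs n hn1).tsum_pos (fun _ => by positivity) 0 (by positivity)
  have t2 : ∑' k, 1 / (2 : ℝ) ^ a (k + (n + 1)) ≤ 2 / 2 ^ (a n + n) := by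
    rw [← (geo (a n + n)).tsum_eq]
    exact (hs n hn1).tsum_le_tsum (hle n hn1) (geo _).summable
  set t := ∑' k, 1 / (2 : ℝ) ^ a (k + (n + 1)) with ht
  have hd : (0 : ℝ) < r.den := by exact_mod_cast r.den_pos
  have e1 : (2 : ℝ) ^ a n * ∑ i ∈ range (n + 1), 1 / (2 : ℝ) ^ a i =
      ((∑ i ∈ range (n + 1), 2 ^ (a n - a i) : ℕ) : ℝ) := by
    rw [mul_sum]
    push_cast
    refine sum_congr rfl fun i hi => ?_
    have : a i ≤ a n := hmono (Nat.lt_succ_iff.1 (mem_range.1 hi))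
    rw [pow_sub₀ _ (by norm_num) this, one_div]
  have e2 : (r.den : ℝ) * (r : ℝ) = r.num := by
    exact_mod_cast Rat.den_mul_eq_num r
  let z : ℤ := 2 ^ a n * r.num - r.den * ((∑ i ∈ range (n + 1), 2 ^ (a n - a i) : ℕ) : ℤ)
  have e3 : (z : ℝ) = r.den * 2 ^ a n * t := by
    have : (z : ℝ) = 2 ^ a n * r.num - r.den * ((∑ i ∈ range (n + 1), 2 ^ (a n - a i) : ℕ) : ℝ) := by
      simp only [z, Int.cast_sub, Int.cast_mul, Int.cast_pow, Int.cast_natCast, Int.cast_ofNat]
    rw [this, ← e1, ← e2, ← hsplit]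
    ring
  have z0 : (0 : ℝ) < z := by rw [e3]; positivity
  have z1 : (z : ℝ) < 1 := by
    rw [e3]
    have h1 : (r.den : ℝ) * 2 ^ a n * t ≤ r.den * 2 ^ a n * (2 / 2 ^ (a n + n)) :=
      mul_le_mul_of_nonneg_left t2 (by positivity)
    have h2 : (r.den : ℝ) * 2 ^ a n * (2 / 2 ^ (a n + n)) = r.den / 2 ^ r.den := by
      rw [pow_add, hn, pow_succ]
      field_simp
    have h3 : (r.den : ℝ) < 2 ^ r.den := by exact_mod_cast Nat.lt_two_pow_self
    rw [h2] at h1
    exact h1.trans_lt ((div_lt_one (by positivity)).2 h3)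
  have z0' : 0 < z := by exact_mod_cast z0
  have z1' : z < 1 := by exact_mod_cast z1
  omega

end Vale.Agent.P089
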