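import Vale.Agent.P089.F1a

/-! Part F1 of P089: Fourier transform. -/

namespace Vale.Agent.P089

open Finset MeasureTheory Filter Topology

namespace F1

variable {A : Type} [Fintype A] {G : Type} [Group G] [Countable G]
  {X : AddSubgroup (G → Bit A)} [CompactSpace X] {h : TInv X}

/-- Haar probability measure. -/
noncomputable abbrev mu (X : AddSubgroup (G → Bit A)) [CompactSpace X] : Measure X :=
  Measure.addHaarMeasure ⊤

omit [Group G] in
instance : IsProbabilityMeasure (mu X) :=
  ⟨by simpa using Measure.addHaarMeasure_self (K₀ := (⊤ : TopologicalSpace.PositiveCompacts X))⟩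

omit [Group G] in
lemma integrable {E : Type} [NormedAddCommGroup E] {f : X → E} (hf : Continuous f) :
    Integrable f (mu X) :=
  hf.integrable_of_hasCompactSupport (HasCompactSupport.of_compactSpace f)

open Classical in
omit [Group G] in
lemma int_sg {c : X → ZMod 2} (hc : IsCh c) : ∫ x, sg (c x) ∂(mu X) = if c = 0 then 1 else 0 := by
  split_ifs with h0
  · simp [h0, sg_zero]
  · obtain ⟨x0, hx0⟩ := Function.ne_iff.1 h0
    have e : c x0 = 1 := (z2 _).resolve_left hx0
    have := integral_add_left_eq_self (μ := mu X) (fun x => sg (c x)) x0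
    simp only [hc.map_add, sg_add, e, sg_one, neg_mul, one_mul, integral_neg] at this
    linear_combination (-1 / 2 : ℂ) * this

open Classical in
/-- Point mass. -/
noncomputable def de (z : G) : G → ℂ := fun w => if w = z then 1 else 0

lemma coeff_eq (m : MonoidAlgebra ℂ (El h)) (a0 : El h) (y : G) :
    ∫ x, sg (a0.c (sh h y x)) * pi x m (de (y * a0.g)) y ∂(mu X) = m.coeff a0 := by
  classical
  have e1 : ∀ a : El h, ∫ x, sg (a0.c (sh h y x)) *
      (m.coeff a * (sg (a.c (sh h y x)) * de (y * a0.g) (y * a.g))) ∂(mu X) =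
      if a = a0 then m.coeff a else 0 := by
    intro a
    have e2 : ∀ x, sg (a0.c (sh h y x)) *
        (m.coeff a * (sg (a.c (sh h y x)) * de (y * a0.g) (y * a.g))) =
        (m.coeff a * de (y * a0.g) (y * a.g)) * sg ((a0.c + a.c) (sh h y x)) := by
      intro x; rw [Pi.add_apply, sg_add]; ring
    simp only [e2]
    rw [integral_const_mul, int_sg ((a0.ch.add a.ch).sh h y)]
    by_cases ha : a = a0
    · subst ha
      rw [if_pos rfl, if_pos (by funext x; simp [CharTwo.add_self_eq_zero])]
      simp [de]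
    · rw [if_neg ha]
      by_cases hg : a.g = a0.g
      · rw [if_neg, mul_zero]
        intro h0
        apply ha
        ext x
        · have := congrFun h0 (sh h y⁻¹ x)
          rw [sh_sh, inv_mul_cancel, sh_one, Pi.add_apply, Pi.zero_apply,
            CharTwo.add_eq_zero] at this
          rw [this]
        · exact hg
      · simp [de, hg]
  simp only [pi_apply, Finset.mul_sum]
  rw [integral_finsetSum _ fun a _ => integrable (by
    exact (cont_sg a0 y).mul (continuous_const.mul ((cont_sg a y).mul continuous_const)))]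
  simp only [e1]
  rw [Finset.sum_ite_eq']
  split_ifs with ha
  · rfl
  · exact (Finsupp.notMem_support_iff.1 ha).symm

lemma parseval (m : MonoidAlgebra ℂ (El h)) (s : Finset G)
    (hs : ∀ a ∈ m.coeff.support, a.g⁻¹ ∈ s) :
    ∫ x, ∑ y ∈ s, ‖pi x m dl y‖ ^ 2 ∂(mu X) = m.coeff.sum fun _ c => ‖c‖ ^ 2 := by
  classical
  apply Complex.ofReal_injective
  rw [← integral_complex_ofReal, Finsupp.sum]
  have e1 : ∀ x : X, ((∑ y ∈ s, ‖pi x m dl y‖ ^ 2 : ℝ) : ℂ) =
      ∑ a ∈ m.coeff.support, (starRingEnd ℂ) (m.coeff a) *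
        (sg (a.c (sh h a.g⁻¹ x)) * pi x m (de (a.g⁻¹ * a.g)) a.g⁻¹) := by
    intro x
    push_cast
    have e2 : ∀ y, ((‖pi x m dl y‖ : ℂ)) ^ 2 = ∑ a ∈ m.coeff.support, if y = a.g⁻¹ then
        (starRingEnd ℂ) (m.coeff a) * (sg (a.c (sh h y x)) * pi x m dl y) else 0 := by
      intro y
      rw [← Complex.conj_mul']
      conv_lhs => rw [pi_apply x m dl y, map_sum, ← pi_apply x m dl y, Finset.sum_mul]
      refine Finset.sum_congr rfl fun a _ => ?_
      by_cases hy : y = a.g⁻¹
      · simp [hy, dl, conj_sg, mul_assoc]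
      · have : y * a.g ≠ 1 := fun e => hy (eq_inv_of_mul_eq_one_left e)
        simp [hy, dl, this]
    simp only [e2]
    rw [Finset.sum_comm]
    refine Finset.sum_congr rfl fun a ha => ?_
    rw [Finset.sum_ite_eq', if_pos (hs a ha), inv_mul_cancel]
    rfl
  simp only [e1]
  rw [integral_finsetSum _ fun a _ => integrable (by
    exact continuous_const.mul ((cont_sg a _).mul (pi_cont m _ _)))]
  push_cast
  refine Finset.sum_congr rfl fun a _ => ?_
  rw [integral_const_mul, coeff_eq, Complex.conj_mul']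

omit [Countable G] in
lemma top_re (gen : A → G) (on : G → A → Prop) (k : ℕ) (v : G → ℂ) (y : G) :
    ((Top gen on)^[k] v y).re = (Top gen on)^[k] (fun y => (v y).re) y := by
  have : Function.Semiconj (fun (v : G → ℂ) y => (v y).re) (Top gen on) (Top gen on) := by
    intro v; funext y
    simp [Top, apply_ite Complex.re]
  exact congrFun (this.iterate_right k v) y

omit [Countable G] in
lemma top_im (gen : A → G) (on : G → A → Prop) (k : ℕ) (v : G → ℂ) (y : G) :
    ((Top gen on)^[k] v y).im = (Top gen on)^[k] (fun y => (v y).im) y := by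
  have : Function.Semiconj (fun (v : G → ℂ) y => (v y).im) (Top gen on) (Top gen on) := by
    intro v; funext y
    simp [Top, apply_ite Complex.im]
  exact congrFun (this.iterate_right k v) y

omit [Countable G] in
lemma top_ofReal (gen : A → G) (on : G → A → Prop) (k : ℕ) (v : G → ℝ) (y : G) :
    (Top gen on)^[k] (fun y => (v y : ℂ)) y = ((Top gen on)^[k] v y : ℝ) := by
  have : Function.Semiconj (fun (v : G → ℝ) y => (v y : ℂ)) (Top gen on) (Top gen on) := by
    intro v; funext y
    simp [Top, apply_ite Complex.ofReal]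
  exact (congrFun (this.iterate_right k v) y).symm

omit [Countable G] in
lemma conv_c {gen : A → G} {on : G → A → Prop} (hc : Conv gen on) (s : Finset G) (v : G → ℂ)
    (hv : ∀ x, x ∉ s → v x = 0) (k : ℕ) (s' : Finset G) :
    ∑ x ∈ s', ‖(Top gen on)^[k + 1] v x - (Top gen on)^[k] v x‖ ^ 2 ≤
      4 * th ^ (2 * k) * ∑ x ∈ s, ‖v x‖ ^ 2 := by
  have h1 := hc s (fun y => (v y).re) (fun x hx => by simp [hv x hx]) k s'
  have h2 := hc s (fun y => (v y).im) (fun x hx => by simp [hv x hx]) k s'
  simp only [Complex.sq_norm, Complex.normSq_apply, Complex.sub_re, Complex.sub_im, top_re, top_im,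
    ← sq, Finset.sum_add_distrib]
  linarith

omit [Countable G] in
lemma top_symm (io : A → A) (gen : A → G) (hio : ∀ a, io (io a) = a)
    (hg : ∀ a, gen (io a) = (gen a)⁻¹) (x : G → Bit A) (g : G) :
    Top gen (onx io gen x) (de 1) g = (starRingEnd ℂ) (Top gen (onx io gen x) (de g) 1) := by
  classical
  simp only [Top, map_add, map_div₀, map_sum, map_ofNat]
  congr 2
  · by_cases h : g = 1
    · simp [de, h]
    · simp [de, h, Ne.symm h]
  · rw [← Equiv.sum_comp (⟨io, io, hio, hio⟩ : A ≃ A)]
    refine Finset.sum_congr rfl fun a _ => ?_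
    simp only [Equiv.coe_fn_mk, hg, one_mul]
    by_cases h : gen a = g
    · subst h
      have : onx io gen x (gen a) (io a) ↔ onx io gen x 1 a := by
        simp only [onx, rel, hg, hio, mul_inv_cancel, one_mul]; tauto
      by_cases h1 : onx io gen x 1 a
      · simp [de, h1, this.2 h1]
      · simp [h1, mt this.1 h1]
    · have : g * (gen a)⁻¹ ≠ 1 := fun e => h (mul_inv_eq_one.1 e).symm
      simp [de, h, this]

end F1

variable {A : Type} [Fintype A]

theorem fourier {G : Type} [Group G] [Countable G] (X : AddSubgroup (G → Bit A)) [CompactSpace X]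
    (hX : ∀ x ∈ X, ∀ g, (fun y => x (g * y)) ∈ X) (io : A → A) (gen : A → G)
    (hio : ∀ a, io (io a) = a) (hg : ∀ a, gen (io a) = (gen a)⁻¹)
    (hc : ∀ x ∈ X, Conv gen (onx io gen x)) :
    ∃ (Γ : Type) (_ : Group Γ) (_ : Countable Γ) (T : MonoidAlgebra ℂ Γ),
      (∀ g, T.coeff g⁻¹ = (starRingEnd ℂ) (T.coeff g)) ∧
      (∀ (f : MonoidAlgebra ℂ Γ) (k : ℕ),
        (((T ^ (k + 1) - T ^ k) * f).coeff.sum fun _ c => ‖c‖ ^ 2) ≤
          4 * th ^ (2 * k) * f.coeff.sum fun _ c => ‖c‖ ^ 2) ∧
      ∀ k, (T ^ k).coeff 1 = ((∫ x : X, (Top gen (onx io gen x.1))^[k] (dl : G → ℝ) 1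
        ∂(Measure.addHaarMeasure ⊤) : ℝ) : ℂ) := by
  classical
  have h : F1.TInv X := hX
  obtain ⟨T, hT⟩ := F1.exists_T (h := h) io gen
  have hk : ∀ (k : ℕ) (x : X) (v : G → ℂ), F1.pi x (T ^ k) v = (Top gen (onx io gen x.1))^[k] v := by
    intro k x v
    rw [map_pow, Module.End.pow_apply]
    congr 1
    funext w
    exact hT x w
  refine ⟨F1.El h, inferInstance, inferInstance, T, fun a => ?_, fun f k => ?_, fun k => ?_⟩
  · rw [← F1.coeff_eq T a⁻¹ a.g, ← F1.coeff_eq T a 1, ← integral_conj]
    refine integral_congr_ae (Eventually.of_forall fun x => ?_)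
    simp only [F1.inv_c, F1.inv_g, F1.sh_sh, mul_inv_cancel, one_mul, hT, map_mul, F1.conj_sg]
    rw [F1.top_symm io gen hio hg]
  · set f' := (T ^ (k + 1) - T ^ k) * f with hf'
    rw [← F1.parseval f' (f'.coeff.support.image fun a => a.g⁻¹)
        fun a ha => Finset.mem_image_of_mem _ ha,
      ← F1.parseval f (f.coeff.support.image fun a => a.g⁻¹)
        fun a ha => Finset.mem_image_of_mem _ ha, ← integral_const_mul]
    refine integral_mono (F1.integrable (continuous_finsetSum _ fun y _ =>
      (F1.pi_cont _ _ _).norm.pow 2)) (F1.integrable (continuous_const.mul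
        (continuous_finsetSum _ fun y _ => (F1.pi_cont _ _ _).norm.pow 2))) fun x => ?_
    simp only [hf', map_mul, map_sub, Module.End.mul_apply, LinearMap.sub_apply, Pi.sub_apply, hk]
    refine F1.conv_c (hc x.1 x.2) _ _ (fun y hy => ?_) k _
    rw [F1.pi_apply]
    refine Finset.sum_eq_zero fun a ha => ?_
    have : y * a.g ≠ 1 := fun e =>
      hy (Finset.mem_image.2 ⟨a, ha, (eq_inv_of_mul_eq_one_left e).symm⟩)
    simp [dl, this]
  · rw [← F1.coeff_eq (T ^ k) 1 1, ← integral_complex_ofReal]
    refine integral_congr_ae (Eventually.of_forall fun x => ?_)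
    simp only [F1.one_c, F1.one_g, F1.sg_zero, one_mul, hk]
    have e : (F1.de 1 : G → ℂ) = fun y => (((dl : G → ℝ) y : ℝ) : ℂ) := by
      funext y
      by_cases hy : y = 1 <;> simp [F1.de, dl, hy]
    rw [← F1.top_ofReal, e]

end Vale.Agent.P089
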