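import Vale.Agent.P089.Defs

/-! Part I of P089: the limit of the return probabilities. -/

namespace Vale.Agent.P089

open Finset MeasureTheory Filter Topology

namespace I

lemma fibre {X F : Type} [AddCommGroup X] [MeasurableSpace X] [MeasurableAdd X] [AddCommGroup F]
    [Finite F] (μ : Measure X) [IsProbabilityMeasure μ] [μ.IsAddLeftInvariant] (r : X →+ F)
    (hr : Function.Surjective r) (hm : ∀ z, MeasurableSet (r ⁻¹' {z})) (z : F) :
    μ.real (r ⁻¹' {z}) = 1 / (Nat.card F : ℝ) := by
  classical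
  have := Fintype.ofFinite F
  have h1 : ∀ z', μ.real (r ⁻¹' {z'}) = μ.real (r ⁻¹' {z}) := by
    intro z'
    obtain ⟨x, hx⟩ := hr (z - z')
    rw [measureReal_def, measureReal_def, ← measure_preimage_add μ x (r ⁻¹' {z})]
    congr 2
    ext y
    simp only [Set.mem_preimage, Set.mem_singleton_iff, map_add, hx]
    constructor
    · rintro rfl; abel
    · intro h; rw [← sub_eq_zero, ← sub_eq_zero.2 h]; abel
  have h2 := sum_measureReal_preimage_singleton (μ := μ) (univ : Finset F) (f := r)
    (fun z _ => hm z)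
  simp only [h1, Finset.sum_const, Finset.card_univ, nsmul_eq_mul, Finset.coe_univ,
    Set.preimage_univ, probReal_univ] at h2
  rw [Nat.card_eq_fintype_card, eq_div_iff (by exact_mod_cast Fintype.card_ne_zero), mul_comm, h2]

variable {A : Type} [Fintype A] {G : Type} [Group G]

lemma cont (X : AddSubgroup (G → Bit A)) (io : A → A) (gen : A → G) (k : ℕ) (y : G) :
    Continuous fun x : X => (Top gen (onx io gen x.1))^[k] (dl : G → ℝ) y := by
  classical
  induction k generalizing y with
  | zero => exact continuous_const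
  | succ k ih =>
    simp only [Function.iterate_succ_apply', Top]
    refine ((ih y).div_const _).add (Continuous.div_const (continuous_finsetSum _ fun a _ => ?_) _)
    have h1 : Continuous fun x : X => (x.1 y, x.1 (y * gen a)) :=
      ((continuous_apply y).comp continuous_subtype_val).prodMk
        ((continuous_apply _).comp continuous_subtype_val)
    have h2 := ((continuous_of_discreteTopology (f := fun p : Bit A × Bit A =>
      if rel io a p.1 p.2 then (1 : ℝ) else 0)).comp h1).mul (ih (y * gen a))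
    refine h2.congr fun x => ?_
    by_cases hr : rel io a (x.1 y) (x.1 (y * gen a)) <;> simp [onx, hr]

end I

variable {A W : Type} [Fintype A]

theorem integ {L : Lab A W} [Countable W] {G : Type} [Group G] [Countable G] (D : Geo L G)
    (C : ∀ n, AddSubgroup (L.Vn n → Bit A)) [CompactSpace (Conf D C)]
    (hm : ∀ n, (fun w : L.Vn n => L.pat w) ∈ C n)
    (ho : ∀ g n, ∀ z ∈ C n, ∃ x ∈ Conf D C, ∀ w : L.Vn n, x (g * D.pos w) = z w)
    (h1 : ∀ x ∈ Conf D C, ∀ w, Ex D x w → ∀ k,
      |(Top D.gen (onx L.io D.gen x))^[k] (dl : G → ℝ) 1 - 1 / (L.Vn (L.comp w)).card| ≤ th ^ k)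
    (h2 : ∀ x ∈ Conf D C, (∀ w, ¬ Ex D x w) → ∀ k,
      |(Top D.gen (onx L.io D.gen x))^[k] (dl : G → ℝ) 1| ≤ th ^ k)
    (h3 : ∀ x ∈ Conf D C, ∀ w w', Ex D x w → Ex D x w' → w = w') :
    Tendsto (fun k => ∫ x : Conf D C, (Top D.gen (onx L.io D.gen x.1))^[k] (dl : G → ℝ) 1
      ∂(Measure.addHaarMeasure ⊤)) atTop (𝓝 (∑' n, 1 / (Nat.card (C n) : ℝ))) := by
  classical
  set μ : Measure (Conf D C) := Measure.addHaarMeasure ⊤ with hμ
  have : IsProbabilityMeasure μ := ⟨by
    simpa using Measure.addHaarMeasure_self (K₀ := (⊤ : TopologicalSpace.PositiveCompacts (Conf D C)))⟩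
  let r : G → ∀ n, Conf D C →+ C n := fun g n =>
    { toFun := fun x => ⟨fun w => x.1 (g * D.pos w), x.2 g n⟩
      map_zero' := rfl
      map_add' := fun _ _ => rfl }
  have rs : ∀ g n, Function.Surjective (r g n) := by
    intro g n z
    obtain ⟨x, hx, e⟩ := ho g n z.1 z.2
    exact ⟨⟨x, hx⟩, Subtype.ext (funext e)⟩
  have rm : ∀ g n z, MeasurableSet (r g n ⁻¹' {z}) := by
    intro g n z
    have : Continuous (r g n) := by
      refine Continuous.subtype_mk (continuous_pi fun w => ?_) _
      exact (continuous_apply (g * D.pos w)).comp continuous_subtype_val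
    exact (isClosed_singleton.preimage this).measurableSet
  let E : W → Set (Conf D C) := fun w => {x | Ex D x.1 w}
  have hE : ∀ w, E w = r (D.pos w)⁻¹ (L.comp w) ⁻¹' {⟨_, hm _⟩} := by
    intro w
    ext x
    simp only [E, Set.mem_ofPred_eq, Set.mem_preimage, Set.mem_singleton_iff, Subtype.ext_iff,
      funext_iff]
    constructor
    · intro h w'
      exact funext_iff.1 (h w'.1 ((L.mem_Vn _ _).1 w'.2))
    · intro h w' hw'
      exact funext (h ⟨w', (L.mem_Vn _ _).2 hw'⟩)
  have Em : ∀ w, MeasurableSet (E w) := fun w => by rw [hE]; exact rm _ _ _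
  have Eμ : ∀ w, μ.real (E w) = 1 / (Nat.card (C (L.comp w)) : ℝ) := fun w => by
    rw [hE]; exact I.fibre μ _ (rs _ _) (rm _ _) _
  let F : ℕ → Set (Conf D C) := fun n => ⋃ w ∈ L.Vn n, E w
  have Fm : ∀ n, MeasurableSet (F n) := fun n => Finset.measurableSet_biUnion _ fun w _ => Em w
  have Fμ : ∀ n, μ.real (F n) = (L.Vn n).card * (1 / (Nat.card (C n) : ℝ)) := by
    intro n
    rw [measureReal_biUnion_finset (fun w _ w' _ hne => Set.disjoint_left.2 fun x hx hx' =>
      hne (h3 x.1 x.2 w w' hx hx')) (fun w _ => Em w), ← nsmul_eq_mul, ← Finset.sum_const]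
    refine Finset.sum_congr rfl fun w hw => ?_
    rw [Eμ, (L.mem_Vn _ _).1 hw]
  have Fd : Pairwise (Function.onFun Disjoint F) := by
    intro n n' hne
    refine Set.disjoint_left.2 fun x hx hx' => hne ?_
    simp only [F, Set.mem_iUnion] at hx hx'
    obtain ⟨w, hw, hx⟩ := hx
    obtain ⟨w', hw', hx'⟩ := hx'
    rw [← (L.mem_Vn _ _).1 hw, ← (L.mem_Vn _ _).1 hw', h3 x.1 x.2 w w' hx hx']
  let p : Conf D C → ℝ := fun x =>
    if h : ∃ w, Ex D x.1 w then 1 / ((L.Vn (L.comp h.choose)).card : ℝ) else 0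
  have hp : ∀ (x : Conf D C) (k : ℕ),
      |(Top D.gen (onx L.io D.gen x.1))^[k] (dl : G → ℝ) 1 - p x| ≤ th ^ k := by
    intro x k
    by_cases h : ∃ w, Ex D x.1 w
    · simp only [p, dif_pos h]
      exact h1 x.1 x.2 _ h.choose_spec k
    · simp only [p, dif_neg h, sub_zero]
      exact h2 x.1 x.2 (not_exists.1 h) k
  have t0 : 0 ≤ th := by norm_num [th]
  have t1 : th < 1 := by norm_num [th]
  have tl := tendsto_pow_atTop_nhds_zero_of_lt_one t0 t1
  have ci := fun k => (I.cont (Conf D C) L.io D.gen k 1).integrable_of_hasCompactSupport (μ := μ)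
    (HasCompactSupport.of_compactSpace _)
  have pm : AEStronglyMeasurable p μ := aestronglyMeasurable_of_tendsto_ae atTop
    (fun k => (ci k).aestronglyMeasurable) (ae_of_all _ fun x =>
      tendsto_iff_norm_sub_tendsto_zero.2 (squeeze_zero (fun _ => norm_nonneg _) (hp x) tl))
  have pi : Integrable p μ := by
    have : Integrable (fun x : Conf D C =>
        (Top D.gen (onx L.io D.gen x.1))^[0] (dl : G → ℝ) 1 - p x) μ :=
      Integrable.of_bound ((ci 0).aestronglyMeasurable.sub pm) _ (ae_of_all _ fun x => hp x 0)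
    refine ((ci 0).sub this).congr (ae_of_all _ fun x => ?_)
    simp
  have hint : ∫ x, p x ∂μ = ∑' n, 1 / (Nat.card (C n) : ℝ) := by
    rw [← setIntegral_eq_integral_of_forall_compl_eq_zero (s := ⋃ n, F n), 
      integral_iUnion Fm Fd pi.integrableOn]
    · refine tsum_congr fun n => ?_
      rw [setIntegral_congr_fun (Fm n) (g := fun _ => 1 / ((L.Vn n).card : ℝ)), setIntegral_const,
        Fμ, smul_eq_mul]
      · have : ((L.Vn n).card : ℝ) ≠ 0 := by exact_mod_cast (L.ne n).card_pos.ne'
        field_simp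
      · intro x hx
        simp only [F, Set.mem_iUnion] at hx
        obtain ⟨w, hw, hx⟩ := hx
        have h : ∃ w, Ex D x.1 w := ⟨w, hx⟩
        simp only [p, dif_pos h]
        rw [h3 x.1 x.2 _ w h.choose_spec hx, (L.mem_Vn _ _).1 hw]
    · intro x hx
      refine dif_neg ?_
      rintro ⟨w, hw⟩
      exact hx (Set.mem_iUnion.2 ⟨L.comp w, Set.mem_biUnion ((L.mem_Vn _ _).2 rfl) hw⟩)
  rw [← hint]
  refine tendsto_iff_norm_sub_tendsto_zero.2 (squeeze_zero (fun _ => norm_nonneg _) (fun k => ?_) tl)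
  rw [← integral_sub (ci k) pi]
  simpa using norm_integral_le_of_norm_le_const (μ := μ) (C := th ^ k) (f := fun x : Conf D C =>
    (Top D.gen (onx L.io D.gen x.1))^[k] (dl : G → ℝ) 1 - p x) (ae_of_all _ fun x => hp x k)

end Vale.Agent.P089
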