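import Vale.Agent.P089.PartS2
import Vale.Agent.P089.PartC0

/-! Part K of P089: the gap for configurations. -/

namespace Vale.Agent.P089

open Finset

variable {A W : Type} [Fintype A]

namespace K

variable {L : Lab A W} {G : Type} [Group G] (D : Geo L G) (x : G → Bit A)

/-- Exact copies. -/
def Exa (g : G) (n : ℕ) : Prop := ∀ w, L.comp w = n → x (g * D.pos w) = L.pat w

lemma pat_inl (w : W) (a : A) : L.pat w (Sum.inl a) = 1 ↔ ∃ w', L.E w a w' := by
  simp only [Lab.pat, Sum.elim_inl]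
  split_ifs with h
  · simp [h]
  · simp only [h, iff_false]; decide

lemma alive_pat (w : W) : alive (L.pat w) := by
  refine ⟨fun _ => rfl, ?_⟩
  classical
  rw [← L.deg w]
  refine card_le_card fun a ha => ?_
  rw [mem_filter] at ha ⊢
  exact ⟨ha.1, (pat_inl w a).1 ha.2⟩

variable {D x}

lemma on_iff {g : G} {n : ℕ} (h : Exa D x g n) {w : W} (hw : L.comp w = n) (a : A) :
    onx L.io D.gen x (g * D.pos w) a ↔ ∃ w', L.E w a w' := by
  unfold onx rel
  rw [h w hw]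
  refine ⟨fun k => (pat_inl w a).1 k.2.2.1, fun ⟨w', e⟩ => ?_⟩
  rw [mul_assoc, ← D.pos_E e, h w' ((L.comp_eq e).trans hw)]
  exact ⟨alive_pat w, alive_pat w', (pat_inl w a).2 ⟨w', e⟩, (pat_inl _ _).2 ⟨w, L.symm e⟩⟩

lemma follow {g g' : G} {n n' : ℕ} (h : Exa D x g n) (h' : Exa D x g' n') (m : ℕ) :
    ∀ (w w' : W) (b : A), L.comp w = n → L.comp w' = n' → g * D.pos w = g' * D.pos w' →
      ∃ u z z', u.length = m ∧ Red L.io u ∧ (∀ c, u.head? = some c → c ≠ b) ∧
        Rd L.E w u z ∧ Rd L.E w' u z' := by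
  classical
  induction m with
  | zero => exact fun w w' b _ _ _ => ⟨[], w, w', rfl, red_nil, by simp, rfl, rfl⟩
  | succ m ih =>
    intro w w' b hw hw' e
    obtain ⟨a, ha, hab⟩ := exists_mem_ne (s := univ.filter fun a => ∃ w', L.E w a w')
      (by rw [L.deg w]; norm_num) b
    obtain ⟨v, hv⟩ := (mem_filter.1 ha).2
    obtain ⟨v', hv'⟩ : ∃ v', L.E w' a v' := by
      rw [← pat_inl, ← h' w' hw', ← e, h w hw, pat_inl]
      exact ⟨v, hv⟩
    obtain ⟨u, z, z', u1, u2, u3, u4, u5⟩ := ih v v' (L.io a) ((L.comp_eq hv).trans hw)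
      ((L.comp_eq hv').trans hw') (by rw [D.pos_E hv, D.pos_E hv', ← mul_assoc, e, mul_assoc])
    refine ⟨a :: u, z, z', by simp [u1], red_cons.2 ⟨u3, u2⟩, ?_, ⟨v, hv, u4⟩, ⟨v', hv', u5⟩⟩
    rintro c hc
    rw [List.head?_cons, Option.some.injEq] at hc
    exact hc ▸ hab

lemma uniq {g g' : G} {n n' : ℕ} (h : Exa D x g n) (h' : Exa D x g' n') {w w' : W}
    (hw : L.comp w = n) (hw' : L.comp w' = n') (e : g * D.pos w = g' * D.pos w') : w = w' := by
  classical
  by_contra hne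
  obtain ⟨b, -⟩ : (univ.filter fun a => ∃ w', L.E w a w').Nonempty :=
    card_pos.1 (by rw [L.deg w]; norm_num)
  obtain ⟨u, z, z', u1, u2, -, u4, u5⟩ := follow h h' (L.len (L.comp w)) w w' b hw hw' e
  exact absurd u1 (L.piece hne u2 u4 u5).ne

lemma inj (g : G) (n : ℕ) : Set.InjOn (fun w => g * D.pos w) (L.Vn n) := fun _ hw _ hw' e =>
  D.pos_inj (((L.mem_Vn _ _).1 hw).trans ((L.mem_Vn _ _).1 hw').symm) (mul_left_cancel e)

lemma cnt (g : G) {n : ℕ} {B : Finset W} (hB : B ⊆ L.Vn n) (h2 : 2 * B.card ≤ (L.Vn n).card)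
    {P : Finset (G × A)}
    (hP : ∀ p ∈ P, ∃ w ∈ B, ∃ w' ∈ B, p.1 = g * D.pos w ∧ L.E w p.2 w') :
    P.card ≤ 996 * B.card := by
  classical
  refine le_trans (le_trans (card_le_card ?_)
    (card_image_le (f := fun q : W × A => (g * D.pos q.1, q.2)))) (L.exp n B hB h2)
  intro p hp
  obtain ⟨w, hw, w', hw', e1, e2⟩ := hP p hp
  exact mem_image.2 ⟨(w, p.2), mem_filter.2 ⟨by simpa using hw, w', hw', e2⟩, by rw [← e1]⟩

open Classical in
lemma outside (O : Own D 0) {C : ∀ n, AddSubgroup (L.Vn n → Bit A)} {u : ℕ → ℕ}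
    (hC : ∀ n, IsCode (fun w : L.Vn n => L.pat w) (u n) (C n)) (hx : x ∈ Conf D C) (Z : Finset G)
    (hZ : ∀ g n, Exa D x g n → ∀ w, L.comp w = n → g * D.pos w ∉ Z) :
    prs D.gen (onx L.io D.gen x) Z ≤ 998 * Z.card := by
  let c : G → G × ℕ := fun y => D.cp y (O.own y)
  unfold prs
  set P := (Z ×ˢ univ).filter fun p : G × A => onx L.io D.gen x p.1 p.2 ∧ p.1 * D.gen p.2 ∈ Z
    with hP
  have mP : ∀ p ∈ P, p.1 ∈ Z ∧ onx L.io D.gen x p.1 p.2 ∧ p.1 * D.gen p.2 ∈ Z := fun p hp =>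
    ⟨(mem_product.1 (mem_filter.1 hp).1).1, (mem_filter.1 hp).2⟩
  have h1 : (P.filter fun p => O.lt (c (p.1 * D.gen p.2)) (c p.1)).card ≤ Z.card := by
    refine card_le_card_of_injOn Prod.fst (fun p hp => (mP p (mem_filter.1 hp).1).1) ?_
    rintro ⟨y, a⟩ hp ⟨y', a'⟩ hq (rfl : y = y')
    rw [O.one y a a' (mem_filter.1 hp).2 (mem_filter.1 hq).2]
  have h2 : (P.filter fun p => O.lt (c p.1) (c (p.1 * D.gen p.2))).card ≤ Z.card := by
    refine card_le_card_of_injOn (fun p => p.1 * D.gen p.2)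
      (fun p hp => (mP p (mem_filter.1 hp).1).2.2) ?_
    rintro ⟨y, a⟩ hp ⟨y', a'⟩ hq (e : y * D.gen a = y' * D.gen a')
    have k1 : y * D.gen a * D.gen (L.io a) = y := by rw [D.gen_io, mul_inv_cancel_right]
    have k2 : y * D.gen a * D.gen (L.io a') = y' := by rw [e, D.gen_io, mul_inv_cancel_right]
    have := O.one (y * D.gen a) (L.io a) (L.io a') (by rw [k1]; exact (mem_filter.1 hp).2)
      (by rw [k2, e]; exact (mem_filter.1 hq).2)
    have ha : a = a' := by rw [← L.io_io a, this, L.io_io]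
    subst ha
    rw [mul_right_cancel e]
  have h3 : (P.filter fun p => c p.1 = c (p.1 * D.gen p.2)).card ≤ 996 * Z.card := by
    rw [card_eq_sum_card_fiberwise (f := fun p : G × A => c p.1) (t := Z.image c)
      (fun p hp => mem_image_of_mem _ (mP p (mem_filter.1 hp).1).1),
      card_eq_sum_card_fiberwise (f := c) (s := Z) (t := Z.image c)
      (fun y hy => mem_image_of_mem _ hy), mul_sum]
    refine sum_le_sum ?_
    rintro ⟨g, n⟩ hc
    have pt : ∀ y, c y = (g, n) → y = g * D.pos (O.own y) ∧ L.comp (O.own y) = n := fun y hy => by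
      have e1 : y * (D.pos (O.own y))⁻¹ = g := congrArg Prod.fst hy
      exact ⟨by rw [← e1, inv_mul_cancel_right], congrArg Prod.snd hy⟩
    let B := (L.Vn n).filter fun w => g * D.pos w ∈ Z ∧ O.own (g * D.pos w) = w ∧
      ∀ i, x (g * D.pos w) (Sum.inr i) = 1
    have mB : ∀ y ∈ Z, c y = (g, n) → alive (x y) → O.own y ∈ B := fun y hy h1 h2 => by
      refine mem_filter.2 ⟨(L.mem_Vn _ _).2 (pt y h1).2, ?_⟩
      rw [← (pt y h1).1]
      exact ⟨hy, rfl, h2.1⟩
    refine (cnt (D := D) g (B := B) (filter_subset _ _) ?_ ?_).trans (Nat.mul_le_mul_left _ ?_)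
    · obtain ⟨y, hy, hcy⟩ := mem_image.1 hc
      have := (hC n).dist _ (hx g n) fun h => hZ g n
        (fun w hw => congrFun h ⟨w, (L.mem_Vn _ _).2 hw⟩) _ (pt y hcy).2 ((pt y hcy).1 ▸ hy)
      rw [Fintype.card_coe] at this
      refine le_trans (Nat.mul_le_mul_left _ ?_) this
      refine le_trans (card_le_card ?_) (card_image_le (f := Subtype.val))
      intro w hw
      exact mem_image.2 ⟨⟨w, (mem_filter.1 hw).1⟩,
        mem_filter.2 ⟨mem_univ _, (mem_filter.1 hw).2.2.2⟩, rfl⟩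
    · rintro ⟨y, a⟩ hp
      obtain ⟨hp1, k1⟩ := mem_filter.1 hp
      obtain ⟨hp2, k2⟩ := mem_filter.1 hp1
      obtain ⟨k3, k4, k5⟩ := mP _ hp2
      obtain ⟨w', e⟩ := O.edge y a (by
        change ¬ O.lt (c y) (c (y * D.gen a))
        rw [← k2]
        exact O.wf.irrefl.irrefl _)
      have k6 : c (y * D.gen a) = (g, n) := k2.symm.trans k1
      have k7 : O.own (y * D.gen a) = w' := by
        refine D.pos_inj ((pt _ k6).2.trans ((L.comp_eq e).trans (pt y k1).2).symm)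
          (mul_left_cancel (a := g) ?_)
        rw [← (pt _ k6).1, D.pos_E e, ← mul_assoc, ← (pt y k1).1]
      exact ⟨_, mB y k3 k1 k4.1, _, mB _ k5 k6 k4.2.1, (pt y k1).1, k7 ▸ e⟩
    · refine card_le_card_of_injOn (fun w => g * D.pos w) (fun w hw => ?_)
        ((inj g n).mono (coe_subset.2 (filter_subset _ _)))
      obtain ⟨k1, k2, k3, -⟩ := mem_filter.1 hw
      refine mem_filter.2 ⟨k2, ?_⟩
      simp only [c, Geo.cp, k3, mul_inv_cancel_right, (L.mem_Vn _ _).1 k1]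
  have h4 : P ⊆ (P.filter fun p => O.lt (c (p.1 * D.gen p.2)) (c p.1)) ∪
      (P.filter fun p => O.lt (c p.1) (c (p.1 * D.gen p.2))) ∪
      (P.filter fun p => c p.1 = c (p.1 * D.gen p.2)) := fun p hp => by
    simp only [mem_union, mem_filter (s := P), hp, true_and]
    rcases O.tri (c p.1) (c (p.1 * D.gen p.2)) with h | h | h
    · exact Or.inl (Or.inr h)
    · exact Or.inr h
    · exact Or.inl (Or.inl h)
  have h5 := (card_le_card h4).trans ((card_union_le _ _).trans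
    (Nat.add_le_add_right (card_union_le _ _) _))
  omega

end K

open K

theorem gap {L : Lab A W} {G : Type} [Group G] (D : Geo L G) (O : Own D 0)
    (C : ∀ n, AddSubgroup (L.Vn n → Bit A)) (u : ℕ → ℕ)
    (hC : ∀ n, IsCode (fun w : L.Vn n => L.pat w) (u n) (C n)) (x : G → Bit A)
    (hx : x ∈ Conf D C) :
    Conv D.gen (onx L.io D.gen x) ∧
      (∀ w, Ex D x w → ∀ k, |(Top D.gen (onx L.io D.gen x))^[k] (dl : G → ℝ) 1 -
        1 / (L.Vn (L.comp w)).card| ≤ th ^ k) ∧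
      ((∀ w, ¬ Ex D x w) → ∀ k, |(Top D.gen (onx L.io D.gen x))^[k] (dl : G → ℝ) 1| ≤ th ^ k) ∧
      ∀ w w', Ex D x w → Ex D x w' → w = w' := by
  classical
  let KK : Set (Finset G) :=
    {K | ∃ g n, Exa D x g n ∧ K = (L.Vn n).image fun w => g * D.pos w}
  obtain ⟨h1, h2, h3⟩ := spec L.io D.gen (onx L.io D.gen x) L.io_io D.gen_io
    (fun y a h => by
      unfold onx rel at *
      rw [D.gen_io, mul_inv_cancel_right, L.io_io]
      exact ⟨h.2.1, h.1, h.2.2.2, h.2.2.1⟩)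
    (fun y => by
      by_cases h : alive (x y)
      · exact (card_le_card (monotone_filter_right _ fun a _ k => k.2.2.1)).trans h.2
      · rw [filter_false_of_mem fun a _ k => h k.1]; simp) KK
    (by
      rintro _ ⟨g, n, e, rfl⟩ _ ⟨g', n', e', rfl⟩ y hy hy'
      obtain ⟨w, hw, rfl⟩ := mem_image.1 hy
      obtain ⟨w', hw', k⟩ := mem_image.1 hy'
      rw [L.mem_Vn] at hw hw'
      obtain rfl := uniq e' e hw' hw k
      rw [mul_right_cancel k, ← hw, ← hw'])
    (by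
      rintro _ ⟨g, n, e, rfl⟩ y hy
      obtain ⟨w, hw, rfl⟩ := mem_image.1 hy
      rw [L.mem_Vn] at hw
      refine ⟨by simp only [on_iff e hw]; exact L.deg w, fun a ha => ?_⟩
      obtain ⟨w', k⟩ := (on_iff e hw a).1 ha
      exact mem_image.2 ⟨w', (L.mem_Vn _ _).2 ((L.comp_eq k).trans hw),
        by rw [D.pos_E k, mul_assoc]⟩)
    (by
      rintro _ ⟨g, n, e, rfl⟩ Z hZ h2
      let B := (L.Vn n).filter fun w => g * D.pos w ∈ Z
      have hB : B.card ≤ Z.card := card_le_card_of_injOn (fun w => g * D.pos w)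
        (fun w hw => (mem_filter.1 hw).2) ((inj g n).mono (coe_subset.2 (filter_subset _ _)))
      have := cnt (D := D) g (B := B) (filter_subset _ _)
        (le_trans (Nat.mul_le_mul_left _ hB) (h2.trans card_image_le))
        (P := (Z ×ˢ univ).filter fun p : G × A =>
          onx L.io D.gen x p.1 p.2 ∧ p.1 * D.gen p.2 ∈ Z) (by
          rintro ⟨y, a⟩ hp
          obtain ⟨k1, k2, k3⟩ := mem_filter.1 hp
          have k4 : y ∈ Z := (mem_product.1 k1).1
          obtain ⟨w, hw, rfl⟩ := mem_image.1 (hZ k4)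
          obtain ⟨w', k⟩ := (on_iff e ((L.mem_Vn _ _).1 hw) a).1 k2
          refine ⟨w, mem_filter.2 ⟨hw, k4⟩, w', mem_filter.2 ⟨(L.mem_Vn _ _).2
            ((L.comp_eq k).trans ((L.mem_Vn _ _).1 hw)), ?_⟩, rfl, k⟩
          rw [D.pos_E k, ← mul_assoc]
          exact k3)
      unfold prs
      omega)
    (fun Z hZ => outside O hC hx Z fun g n e w hw k =>
      hZ _ ⟨g, n, e, rfl⟩ _ k (mem_image.2 ⟨w, (L.mem_Vn _ _).2 hw, rfl⟩))
  refine ⟨h1, fun w hw k => ?_, fun h => h3 ?_, fun w w' hw hw' =>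
    uniq (g := (D.pos w)⁻¹) (g' := (D.pos w')⁻¹) hw hw' rfl rfl (by simp)⟩
  · have := h2 _ ⟨(D.pos w)⁻¹, L.comp w, hw, rfl⟩
      (mem_image.2 ⟨w, (L.mem_Vn _ _).2 rfl, by simp⟩) k
    rwa [card_image_of_injOn (inj _ _)] at this
  · rintro _ ⟨g, n, e, rfl⟩ hy
    obtain ⟨w, hw, k⟩ := mem_image.1 hy
    rw [L.mem_Vn] at hw
    refine h w ?_
    rw [eq_inv_of_mul_eq_one_left k, ← hw] at e
    exact e

end Vale.Agent.P089
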