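import Vale.Agent.P089.PartA
import Vale.Agent.P089.PartB2

/-! The sequence of labelled expanders. -/

namespace Vale.Agent.P089

open Finset

namespace PA1

theorem exists_rec {T : ℕ → Type} (P : ∀ n, (∀ i, i < n → T i) → T n → Prop)
    (h : ∀ n f, ∃ x, P n f x) : ∃ g : ∀ n, T n, ∀ n, P n (fun i _ => g i) (g n) := by
  let F : ∀ n, (∀ i, i < n → T i) → T n := fun n f => Classical.choose (h n f)
  let g : ∀ n, T n := WellFounded.fix Nat.lt_wfRel.wf F
  refine ⟨g, fun n => ?_⟩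
  have e : g n = F n fun i _ => g i := WellFounded.fix_eq Nat.lt_wfRel.wf F n
  rw [e]
  exact Classical.choose_spec (h n _)

theorem rd_take {α A : Type} {E : α → A → α → Prop} :
    ∀ (u : List A) (k : ℕ) (x z : α), Rd E x u z → ∃ y, Rd E x (u.take k) y := by
  intro u
  induction u with
  | nil => intro k x z _; exact ⟨x, by simp [Rd]⟩
  | cons a u ih =>
    intro k x z h
    cases k with
    | zero => exact ⟨x, by simp [Rd]⟩
    | succ k =>
      obtain ⟨y, h1, h2⟩ := h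
      obtain ⟨y', h3⟩ := ih k y z h2
      exact ⟨y', y, h1, h3⟩

theorem words0 {V I A : Type} [Fintype I] (nx : V → I → V) (lab : V → I → A)
    (E : V → A → V → Prop) (hE : ∀ v a z, E v a z → ∃ i, lab v i = a ∧ nx v i = z) (j : ℕ) :
    ∀ v, ∃ F : Finset (List A), F.card ≤ Fintype.card I ^ j ∧
      ∀ u v', Rd E v u v' → u.length = j → u ∈ F := by
  classical
  induction j with
  | zero =>
    intro v
    refine ⟨{[]}, by simp, fun u v' _ hu => ?_⟩
    simpa using hu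
  | succ j ih =>
    intro v
    choose F hF1 hF2 using ih
    refine ⟨(univ : Finset I).biUnion fun i =>
      (F (nx v i)).image fun u => lab v i :: u, ?_, ?_⟩
    · refine (card_biUnion_le_card_mul _ _ (Fintype.card I ^ j) fun i _ =>
        card_image_le.trans (hF1 _)).trans ?_
      rw [card_univ, pow_succ, mul_comm]
    · intro u v' h hu
      cases u with
      | nil => simp at hu
      | cons a u =>
        obtain ⟨z, h0, h3⟩ := h
        obtain ⟨i, h1, h2⟩ := hE _ _ _ h0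
        subst h1 h2
        have h4 := hF2 _ u v' h3 (by simpa using hu)
        exact mem_biUnion.2 ⟨i, mem_univ _, mem_image_of_mem _ h4⟩

theorem words1 {N : ℕ} {A : Type} (M : Fin N × Fin 1000 → Fin N × Fin 1000)
    (lab : Fin N × Fin 1000 → A) (j : ℕ) (v : Fin N) :
    ∃ F : Finset (List A), F.card ≤ 1000 ^ j ∧
      ∀ u v', Rd (EM M lab) v u v' → u.length = j → u ∈ F := by
  have := words0 (fun v i => (M (v, i)).1) (fun v i => lab (v, i)) (EM M lab)
    (fun _ _ _ h => h) j v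
  rwa [Fintype.card_fin] at this

theorem words {N : ℕ} {A : Type} (M : Fin N × Fin 1000 → Fin N × Fin 1000)
    (lab : Fin N × Fin 1000 → A) (j : ℕ) : ∃ F : Finset (List A), F.card ≤ N * 1000 ^ j ∧
      ∀ v u v', Rd (EM M lab) v u v' → u.length = j → u ∈ F := by
  classical
  choose F hF1 hF2 using words1 M lab j
  refine ⟨univ.biUnion F, ?_, fun v u v' h hu => mem_biUnion.2 ⟨v, mem_univ _, hF2 v u v' h hu⟩⟩
  refine (card_biUnion_le_card_mul _ _ (1000 ^ j) fun i _ => hF1 i).trans ?_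
  rw [card_univ, Fintype.card_fin]

/-- The lengths. -/
def ln (c : ℕ) : ℕ → ℕ
  | 0 => c + 5
  | n + 1 => 1000 ^ (7 * ln c n) * (c + 3) + n + ln c n + 1

theorem ln_mono (c : ℕ) : StrictMono (ln c) :=
  strictMono_nat_of_lt_succ fun n => by
    show ln c n < 1000 ^ (7 * ln c n) * (c + 3) + n + ln c n + 1
    omega

theorem ln_ge (c n : ℕ) : c + 5 ≤ ln c n := (ln_mono c).monotone (Nat.zero_le n)

theorem labels {S : Type} [Fintype S] (hS : 4 * 1000 ^ 34 ≤ Fintype.card S) (l : ℕ → ℕ)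
    (hl : StrictMono l) (h3 : ∀ n, 3 ≤ l n)
    (M : ∀ n, Fin (1000 ^ (7 * l n)) × Fin 1000 → Fin (1000 ^ (7 * l n)) × Fin 1000)
    (hM : ∀ n h, M n (M n h) = h) (hg : ∀ n, Gir (M n) (6 * l n)) :
    ∃ lab : ∀ n, Fin (1000 ^ (7 * l n)) × Fin 1000 → S × Bool, ∀ n,
      (∀ h, lab n (M n h) = flip (lab n h)) ∧
      (∀ v i j, lab n (v, i) = lab n (v, j) → i = j) ∧
      (∀ v u, Red flip u → Rd (EM (M n) (lab n)) v u v → u ≠ [] → 6 * l n ≤ u.length) ∧
      (∀ i, i < n → ∀ v u z v' z', Red flip u → Rd (EM (M n) (lab n)) v u z →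
        Rd (EM (M i) (lab i)) v' u z' → u.length < l i) ∧
      ∀ v v' u z z', v ≠ v' → Red flip u → Rd (EM (M n) (lab n)) v u z →
        Rd (EM (M n) (lab n)) v' u z' → u.length < l n := by
  classical
  refine exists_rec (T := fun n => Fin (1000 ^ (7 * l n)) × Fin 1000 → S × Bool)
    (fun n f x => (∀ h, x (M n h) = flip (x h)) ∧ (∀ v i j, x (v, i) = x (v, j) → i = j) ∧
      (∀ v u, Red flip u → Rd (EM (M n) x) v u v → u ≠ [] → 6 * l n ≤ u.length) ∧
      (∀ i, ∀ hi : i < n, ∀ v u z v' z', Red flip u → Rd (EM (M n) x) v u z →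
        Rd (EM (M i) (f i hi)) v' u z' → u.length < l i) ∧
      ∀ v v' u z z', v ≠ v' → Red flip u → Rd (EM (M n) x) v u z →
        Rd (EM (M n) x) v' u z' → u.length < l n) fun n f => ?_
  choose Wd hW1 hW2 using fun i : Fin n => words (M i) (f i i.2) (l i)
  obtain ⟨x, x1, x2, x3, x4, x5⟩ := label hS (1000 ^ (7 * l n)) (l n) (h3 n) (by positivity)
    le_rfl (M n) (hM n) (hg n)
    (fun j => ((univ : Finset (Fin n)).filter fun i : Fin n => l i.1 = j).biUnion Wd) (fun j => by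
      refine (card_biUnion_le_card_mul _ _ (1000 ^ (8 * j)) fun i hi => ?_).trans ?_
      · refine (hW1 i).trans ?_
        rw [(mem_filter.1 hi).2, ← pow_add]
        exact le_of_eq (by congr 1; ring)
      · have : ((univ : Finset (Fin n)).filter fun i : Fin n => l i.1 = j).card ≤ 1 :=
          card_le_one.2 fun a ha b hb =>
            Fin.ext (hl.injective ((mem_filter.1 ha).2.trans (mem_filter.1 hb).2.symm))
        exact (Nat.mul_le_mul_right _ this).trans (by rw [one_mul]))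
  refine ⟨x, x1, x2, x3, fun i hi v u z v' z' hu r r' => ?_, x5⟩
  by_contra hc
  have hc : l i ≤ u.length := not_lt.1 hc
  have e : (u.take (l i)).length = l i := by rw [List.length_take]; omega
  obtain ⟨y, hy⟩ := rd_take u (l i) _ _ r
  obtain ⟨y', hy'⟩ := rd_take u (l i) _ _ r'
  refine x4 v (u.take (l i)) y (List.IsChain.take hu _) hy
    (by rw [e]; have := h3 i; omega) (by rw [e]; exact (hl hi).le) ?_
  exact mem_biUnion.2 ⟨⟨i, hi⟩, mem_filter.2 ⟨mem_univ _, e.symm⟩, hW2 ⟨i, hi⟩ v' _ y' hy' e⟩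

/-- The labelled relation on the disjoint union. -/
def EE {N : ℕ → ℕ} {A : Type} (M : ∀ n, Fin (N n) × Fin 1000 → Fin (N n) × Fin 1000)
    (lab : ∀ n, Fin (N n) × Fin 1000 → A) (w : Σ n, Fin (N n)) (a : A) (w' : Σ n, Fin (N n)) :
    Prop :=
  ∃ i, lab w.1 (w.2, i) = a ∧ w' = ⟨w.1, (M w.1 (w.2, i)).1⟩

theorem rd_EE {N : ℕ → ℕ} {A : Type} {M : ∀ n, Fin (N n) × Fin 1000 → Fin (N n) × Fin 1000}
    {lab : ∀ n, Fin (N n) × Fin 1000 → A} {n : ℕ} :
    ∀ (u : List A) (v : Fin (N n)) (w' : Σ n, Fin (N n)), Rd (EE M lab) ⟨n, v⟩ u w' →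
      ∃ v', w' = ⟨n, v'⟩ ∧ Rd (EM (M n) (lab n)) v u v' := by
  intro u
  induction u with
  | nil => intro v w' h; exact ⟨v, (show (⟨n, v⟩ : Σ n, Fin (N n)) = w' from h).symm, rfl⟩
  | cons a u ih =>
    intro v w' h
    obtain ⟨z, ⟨i, h1, h2⟩, h3⟩ := h
    subst h2
    obtain ⟨v', e, h4⟩ := ih _ w' h3
    exact ⟨v', e, _, ⟨i, h1, rfl⟩, h4⟩

theorem aux {S : Type} [Fintype S] (hS : 4 * 1000 ^ 34 ≤ Fintype.card S) (l : ℕ → ℕ)
    (hl : StrictMono l) (h5 : ∀ n, 5 ≤ l n) :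
    ∃ L : Lab (S × Bool) (Σ n, Fin (1000 ^ (7 * l n))), L.len = l ∧
      ∀ n, (L.Vn n).card = 1000 ^ (7 * l n) := by
  classical
  choose M hM hg hx using fun n => graph (6 * l n) (1000 ^ (7 * l n))
    (Nat.pow_le_pow_right (by norm_num) (by have := h5 n; omega))
  obtain ⟨lab, hlab⟩ := labels hS l hl (fun n => by have := h5 n; omega) M hM hg
  choose x1 x2 x3 x4 x5 using hlab
  have hV : ∀ n, ((univ : Finset (Fin (1000 ^ (7 * l n)))).map
      (Function.Embedding.sigmaMk (β := fun n => Fin (1000 ^ (7 * l n))) n)).card =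
      1000 ^ (7 * l n) := fun n => by rw [card_map, card_univ, Fintype.card_fin]
  have hmem : ∀ (w : Σ n, Fin (1000 ^ (7 * l n))) n,
      w ∈ (univ : Finset (Fin (1000 ^ (7 * l n)))).map
        (Function.Embedding.sigmaMk (β := fun n => Fin (1000 ^ (7 * l n))) n) ↔ w.1 = n := by
    rintro ⟨m, v⟩ n
    constructor
    · intro h
      obtain ⟨v', _, e⟩ := mem_map.1 h
      exact (congrArg Sigma.fst e).symm
    · intro h
      have h : m = n := h
      subst h
      exact mem_map.2 ⟨v, mem_univ _, rfl⟩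
  refine ⟨{
    io := flip
    E := EE M lab
    comp := Sigma.fst
    Vn := fun n => (univ : Finset (Fin (1000 ^ (7 * l n)))).map
      (Function.Embedding.sigmaMk (β := fun n => Fin (1000 ^ (7 * l n))) n)
    len := l
    io_io := fun a => by simp [flip]
    mem_Vn := hmem
    ne := fun n => card_pos.1 (by rw [hV]; positivity)
    len_pos := fun n => by have := h5 n; omega
    symm := ?_
    func := ?_
    comp_eq := ?_
    girth := ?_
    piece := ?_
    deg := ?_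
    exp := ?_ }, rfl, hV⟩
  · rintro ⟨n, v⟩ a w' ⟨i, h1, rfl⟩
    refine ⟨(M n (v, i)).2, ?_, ?_⟩
    · show lab n (M n (v, i)) = flip a
      rw [x1, ← h1]
    · show (⟨n, v⟩ : Σ n, Fin (1000 ^ (7 * l n))) = ⟨n, (M n (M n (v, i))).1⟩
      rw [hM]
  · rintro ⟨n, v⟩ a w1 w2 ⟨i, h1, rfl⟩ ⟨j, h2, rfl⟩
    rw [x2 n v i j (h1.trans h2.symm)]
  · rintro ⟨n, v⟩ a w' ⟨i, _, rfl⟩
    rfl
  · rintro ⟨n, v⟩ u hu h hne
    obtain ⟨v', e, h'⟩ := rd_EE (N := fun n => 1000 ^ (7 * l n)) (n := n) u v _ h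
    have e' : v = v' := eq_of_heq (Sigma.mk.inj e).2
    subst e'
    exact x3 n v u hu h' hne
  · rintro ⟨n, v⟩ ⟨n', v'⟩ u z z' hne hu h h'
    obtain ⟨y, _, r⟩ := rd_EE (N := fun n => 1000 ^ (7 * l n)) (n := n) u v _ h
    obtain ⟨y', _, r'⟩ := rd_EE (N := fun n => 1000 ^ (7 * l n)) (n := n') u v' _ h'
    show u.length < l n
    rcases lt_trichotomy n n' with c | c | c
    · exact x4 n' n c v' u y' v y hu r' r
    · subst c
      exact x5 n v v' u y y' (fun e => hne (by rw [e])) hu r r'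
    · exact (x4 n n' c v u y v' y' hu r r').trans (hl c)
  · rintro ⟨n, v⟩
    refine (congrArg Finset.card (?_ : _ = (univ : Finset (Fin 1000)).image
      fun i => lab n (v, i))).trans ?_
    · ext a
      simp only [mem_filter, mem_univ, true_and, mem_image]
      exact ⟨fun ⟨_, i, h, _⟩ => ⟨i, h⟩, fun ⟨i, h⟩ => ⟨_, i, h, rfl⟩⟩
    · rw [card_image_of_injective _ (fun i j h => x2 n v i j h), card_univ, Fintype.card_fin]
  · intro n B hB hc
    rw [hV] at hc
    let B' : Finset (Fin (1000 ^ (7 * l n))) :=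
      univ.filter fun v => (⟨n, v⟩ : Σ n, Fin (1000 ^ (7 * l n))) ∈ B
    have hB' : B'.card = B.card := by
      refine card_bij (fun v _ => (⟨n, v⟩ : Σ n, Fin (1000 ^ (7 * l n))))
        (fun v hv => (mem_filter.1 hv).2) (fun v _ v' _ e => eq_of_heq (Sigma.mk.inj e).2) ?_
      intro w hw
      obtain ⟨v, _, e⟩ := mem_map.1 (hB hw)
      have e : (⟨n, v⟩ : Σ n, Fin (1000 ^ (7 * l n))) = w := e
      exact ⟨v, mem_filter.2 ⟨mem_univ _, e ▸ hw⟩, e⟩
    have h1 := hx n B' (by rw [hB']; exact hc)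
    rw [hB'] at h1
    refine le_trans ?_ h1
    refine le_trans (card_le_card ?_) (card_image_le (f := fun h : Fin (1000 ^ (7 * l n)) ×
      Fin 1000 => ((⟨n, h.1⟩ : Σ n, Fin (1000 ^ (7 * l n))), lab n h)))
    rintro ⟨w, a⟩ hp
    obtain ⟨hp1, w', hw', hE⟩ := mem_filter.1 hp
    have hw : w ∈ B := (mem_product.1 hp1).1
    obtain ⟨v, _, e⟩ := mem_map.1 (hB hw)
    have e : (⟨n, v⟩ : Σ n, Fin (1000 ^ (7 * l n))) = w := e
    subst e
    obtain ⟨i, h2, h3⟩ := hE
    subst h3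
    exact mem_image.2 ⟨(v, i), mem_filter.2 ⟨mem_univ _, mem_filter.2 ⟨mem_univ _, hw⟩,
      mem_filter.2 ⟨mem_univ _, hw'⟩⟩, Prod.ext rfl h2⟩

theorem aux2 (S : Type) [Fintype S] (hS : 4 * 1000 ^ 34 ≤ Fintype.card S) :
    ∃ (A W : Type) (_ : Fintype A) (_ : Countable W) (L : Lab A W), ∀ n,
    (L.Vn n).card = 1000 ^ (7 * L.len n) ∧ Fintype.card A + 5 ≤ L.len n ∧
      (L.Vn n).card * (Fintype.card A + 3) + n ≤ L.len (n + 1) := by
  obtain ⟨L, h1, h2⟩ := aux hS (ln (Fintype.card (S × Bool))) (ln_mono _)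
    fun n => le_trans (Nat.le_add_left _ _) (ln_ge _ n)
  refine ⟨S × Bool, _, inferInstance, inferInstance, L, fun n => ?_⟩
  rw [h1, h2]
  refine ⟨rfl, ln_ge _ n, ?_⟩
  show _ ≤ 1000 ^ (7 * ln (Fintype.card (S × Bool)) n) * (Fintype.card (S × Bool) + 3) + n +
    ln (Fintype.card (S × Bool)) n + 1
  omega

end PA1

theorem lab_exists : ∃ (A W : Type) (_ : Fintype A) (_ : Countable W) (L : Lab A W), ∀ n,
    (L.Vn n).card = 1000 ^ (7 * L.len n) ∧ Fintype.card A + 5 ≤ L.len n ∧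
      (L.Vn n).card * (Fintype.card A + 3) + n ≤ L.len (n + 1) := by
  obtain ⟨q, hq⟩ : ∃ q : ℕ, 4 * 1000 ^ 34 ≤ q := ⟨_, le_rfl⟩
  exact PA1.aux2 (Fin q) (by rw [Fintype.card_fin]; exact hq)

end Vale.Agent.P089
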