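import Vale.Agent.P089.PartC0

/-! Connectedness of the components and removal of letters that do not occur. -/

namespace Vale.Agent.P089

open Finset

variable {A W : Type} [Fintype A]

namespace PA2

theorem closed (L : Lab A W) (n : ℕ) (B : Finset W) (hB : B ⊆ L.Vn n)
    (hc : 2 * B.card ≤ (L.Vn n).card) (hcl : ∀ w ∈ B, ∀ a w', L.E w a w' → w' ∈ B) :
    B = ∅ := by
  classical
  have h1 := L.exp n B hB hc
  have h2 : ((B ×ˢ univ).filter fun p : W × A => ∃ w' ∈ B, L.E p.1 p.2 w').card =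
      1000 * B.card := by
    rw [card_eq_sum_card_fiberwise (f := Prod.fst) (t := B)
      (fun p hp => (mem_product.1 (mem_filter.1 hp).1).1), mul_comm, ← smul_eq_mul, ← sum_const]
    refine sum_congr rfl fun w hw => ?_
    rw [← L.deg w]
    refine card_bij (fun p _ => p.2) ?_ ?_ ?_
    · intro p hp
      obtain ⟨hp1, hp2⟩ := mem_filter.1 hp
      obtain ⟨w', _, h⟩ := (mem_filter.1 hp1).2
      exact mem_filter.2 ⟨mem_univ _, w', hp2 ▸ h⟩
    · intro p hp p' hp' e
      exact Prod.ext ((mem_filter.1 hp).2.trans (mem_filter.1 hp').2.symm) e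
    · intro a ha
      obtain ⟨w', h⟩ := (mem_filter.1 ha).2
      exact ⟨(w, a), mem_filter.2 ⟨mem_filter.2 ⟨mem_product.2 ⟨hw, mem_univ _⟩,
        w', hcl w hw a w' h, h⟩, rfl⟩, rfl⟩
  have h3 : 1000 * B.card ≤ 996 * B.card := by
    rw [← h2]
    exact le_trans (le_of_eq (by congr)) h1
  exact card_eq_zero.1 (by omega)

theorem rd_val {α B : Type} {P : B → Prop} {E : α → B → α → Prop} :
    ∀ (u : List (Subtype P)) (x y : α), Rd (fun z (a : Subtype P) z' => E z a.1 z') x u y →
      Rd E x (u.map Subtype.val) y := by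
  intro u
  induction u with
  | nil => intro x y h; exact h
  | cons a u ih =>
    intro x y h
    obtain ⟨z, h1, h2⟩ := h
    exact ⟨z, h1, ih z y h2⟩

end PA2

theorem lab_conn (L : Lab A W) : L.Conn := by
  classical
  intro w w' hw
  by_contra hc
  let R := (L.Vn (L.comp w)).filter fun z => ∃ u, Rd L.E w u z
  let R' := (L.Vn (L.comp w)).filter fun z => ¬ ∃ u, Rd L.E w u z
  have hs : R.card + R'.card = (L.Vn (L.comp w)).card := card_filter_add_card_filter_not _
  have hwR : w ∈ R := mem_filter.2 ⟨(L.mem_Vn _ _).2 rfl, [], rfl⟩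
  have hwR' : w' ∈ R' := mem_filter.2 ⟨(L.mem_Vn _ _).2 hw.symm, hc⟩
  have hV : ∀ z ∈ L.Vn (L.comp w), ∀ a z', L.E z a z' → z' ∈ L.Vn (L.comp w) :=
    fun z hz a z' h => (L.mem_Vn _ _).2 ((L.comp_eq h).trans ((L.mem_Vn _ _).1 hz))
  have hst : ∀ z a z', L.E z a z' → (∃ u, Rd L.E w u z) → ∃ u, Rd L.E w u z' :=
    fun z a z' h ⟨u, hu⟩ => ⟨u ++ [a], rd_append.2 ⟨z, hu, z', h, rfl⟩⟩
  rcases le_total R.card R'.card with h | h
  · have := PA2.closed L _ R (filter_subset _ _) (by omega) fun z hz a z' e =>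
      mem_filter.2 ⟨hV z (mem_filter.1 hz).1 a z' e, hst z a z' e (mem_filter.1 hz).2⟩
    rw [this] at hwR
    exact notMem_empty _ hwR
  · have := PA2.closed L _ R' (filter_subset _ _) (by omega) fun z hz a z' e =>
      mem_filter.2 ⟨hV z (mem_filter.1 hz).1 a z' e,
        fun h' => (mem_filter.1 hz).2 (hst z' _ z (L.symm e) h')⟩
    rw [this] at hwR'
    exact notMem_empty _ hwR'

theorem lab_occ (L : Lab A W) : ∃ (A' : Type) (_ : Fintype A') (L' : Lab A' W),
    Fintype.card A' ≤ Fintype.card A ∧ L'.Vn = L.Vn ∧ L'.len = L.len ∧ L'.Occ := by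
  classical
  let P : A → Prop := fun a => ∃ w w', L.E w a w'
  let io : Subtype P → Subtype P := fun a => ⟨L.io a.1, by
    obtain ⟨w, w', h⟩ := a.2
    exact ⟨w', w, L.symm h⟩⟩
  have hred : ∀ u : List (Subtype P), Red io u → Red L.io (u.map Subtype.val) := by
    intro u hu
    unfold Red at hu ⊢
    rw [List.isChain_map]
    exact hu.imp fun a b h e => h (Subtype.ext e)
  refine ⟨Subtype P, inferInstance, {
    io := io
    E := fun z a z' => L.E z a.1 z'
    comp := L.comp
    Vn := L.Vn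
    len := L.len
    io_io := fun a => Subtype.ext (L.io_io a.1)
    mem_Vn := L.mem_Vn
    ne := L.ne
    len_pos := L.len_pos
    symm := fun h => L.symm h
    func := fun h h' => L.func h h'
    comp_eq := fun h => L.comp_eq h
    girth := ?_
    piece := ?_
    deg := ?_
    exp := ?_ }, Fintype.card_subtype_le _, rfl, rfl, fun a => a.2⟩
  · intro w u hu h hne
    have := L.girth (hred u hu) (PA2.rd_val u _ _ h) (fun e => hne (List.map_eq_nil_iff.1 e))
    rwa [List.length_map] at this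
  · intro w w' u z z' hne hu h h'
    have := L.piece hne (hred u hu) (PA2.rd_val u _ _ h) (PA2.rd_val u _ _ h')
    rwa [List.length_map] at this
  · intro w
    rw [← L.deg w]
    refine card_bij (fun a _ => a.1) ?_ (fun a _ b _ e => Subtype.ext e) ?_
    · intro a ha
      exact mem_filter.2 ⟨mem_univ _, (mem_filter.1 ha).2⟩
    · intro a ha
      obtain ⟨w', h⟩ := (mem_filter.1 ha).2
      exact ⟨⟨a, w, w', h⟩, mem_filter.2 ⟨mem_univ _, w', h⟩, rfl⟩
  · intro n B hB hc
    refine le_trans ?_ (L.exp n B hB hc)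
    refine card_le_card_of_injOn (fun p => (p.1, p.2.1)) ?_ ?_
    · intro p hp
      obtain ⟨hp1, hp2⟩ := mem_filter.1 (mem_coe.1 hp)
      exact mem_coe.2 (mem_filter.2 ⟨mem_product.2 ⟨(mem_product.1 hp1).1, mem_univ _⟩, hp2⟩)
    · intro p _ p' _ e
      have e' : (p.1, p.2.1) = (p'.1, p'.2.1) := e
      exact Prod.ext (Prod.mk.inj e').1 (Subtype.ext (Prod.mk.inj e').2)

end Vale.Agent.P089
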