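import Vale.Agent.P089.Defs

namespace Vale.Agent.P089

open Finset

variable {A : Type} [Fintype A]

namespace S1

variable {G : Type} [Group G]

open Classical in
/-- Open pairs inside `s`. -/
noncomputable def P (gen : A → G) (on : G → A → Prop) (s : Finset G) : Finset (G × A) :=
  (s ×ˢ univ).filter fun p : G × A => on p.1 p.2 ∧ p.1 * gen p.2 ∈ s

lemma mem_P {gen : A → G} {on : G → A → Prop} {s : Finset G} {p : G × A} :
    p ∈ P gen on s ↔ p.1 ∈ s ∧ on p.1 p.2 ∧ p.1 * gen p.2 ∈ s := by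
  simp [P]

lemma swap {io : A → A} {gen : A → G} {on : G → A → Prop}
    (hio : ∀ a, io (io a) = a) (hg : ∀ a, gen (io a) = (gen a)⁻¹)
    (hs : ∀ x a, on x a → on (x * gen a) (io a)) (s : Finset G) (F : G → ℝ) :
    ∑ p ∈ P gen on s, F (p.1 * gen p.2) = ∑ p ∈ P gen on s, F p.1 := by
  have hm : ∀ p ∈ P gen on s, (p.1 * gen p.2, io p.2) ∈ P gen on s := by
    intro p hp
    obtain ⟨a, b, c⟩ := mem_P.mp hp
    exact mem_P.mpr ⟨c, hs _ _ b, by simpa [hg] using a⟩
  exact sum_nbij' (fun p => (p.1 * gen p.2, io p.2)) (fun p => (p.1 * gen p.2, io p.2)) hm hm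
    (fun p _ => by simp [hg, hio]) (fun p _ => by simp [hg, hio]) fun _ _ => rfl

open Classical in
lemma sum_P (gen : A → G) (on : G → A → Prop) (s : Finset G) (F : G → G → ℝ) :
    ∑ p ∈ P gen on s, F p.1 (p.1 * gen p.2) =
      ∑ x ∈ s, ∑ a, if on x a ∧ x * gen a ∈ s then F x (x * gen a) else 0 := by
  rw [P, sum_filter, sum_product]

open Classical in
lemma layer {gen : A → G} {on : G → A → Prop} {s : Finset G}
    (he : ∀ Z ⊆ s, prs gen on Z ≤ 998 * Z.card) (n : ℕ) : ∀ f : G → ℝ, (∀ x, 0 ≤ f x) →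
    (s.filter fun x => f x ≠ 0).card = n →
    ∑ p ∈ P gen on s, min (f p.1) (f (p.1 * gen p.2)) ≤ 998 * ∑ x ∈ s, f x := by
  induction n using Nat.strong_induction_on with
  | _ n ih =>
  intro f hf hn
  set Z := s.filter fun x => f x ≠ 0 with hZ
  rcases Z.eq_empty_or_nonempty with h | h
  · have h0 : ∀ x ∈ s, f x = 0 := fun x hx => by
      by_contra hne
      have : x ∈ Z := mem_filter.mpr ⟨hx, hne⟩
      simp [h] at this
    rw [sum_eq_zero h0, mul_zero]
    exact sum_nonpos fun p hp => (min_le_left _ _).trans (h0 _ (mem_P.mp hp).1).le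
  obtain ⟨x0, hx0, hmin⟩ := exists_min_image Z f h
  set m := f x0 with hm
  have hm0 : 0 ≤ m := hf x0
  set f' : G → ℝ := fun x => if x ∈ Z then f x - m else 0 with hf'
  have h1 : ∀ x, 0 ≤ f' x := fun x => by
    simp only [hf']
    split_ifs with hx
    exacts [sub_nonneg.mpr (hmin x hx), le_rfl]
  have h2 : (s.filter fun x => f' x ≠ 0).card < n := by
    rw [← hn]
    refine card_lt_card ⟨fun x hx => ?_, fun hsub => ?_⟩
    · by_contra hxZ
      exact (mem_filter.mp hx).2 (if_neg hxZ)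
    · exact (mem_filter.mp (hsub hx0)).2 (by simp only [hf', if_pos hx0, hm, sub_self])
  have h3 := ih _ h2 f' h1 rfl
  have h4 : ∀ x ∈ s, f x = f' x + if x ∈ Z then m else 0 := fun x hx => by
    simp only [hf']
    split_ifs with hxZ
    · ring
    · by_contra hne
      exact hxZ (mem_filter.mpr ⟨hx, by simpa using hne⟩)
  have h5 : ∑ x ∈ s, f x = ∑ x ∈ s, f' x + m * Z.card := by
    rw [sum_congr rfl h4, sum_add_distrib]
    congr 1
    rw [← sum_filter, filter_mem_eq_inter,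
      inter_eq_right.mpr (filter_subset _ _), sum_const, nsmul_eq_mul, mul_comm]
  have h6 : ∑ p ∈ P gen on s, min (f p.1) (f (p.1 * gen p.2)) ≤
      ∑ p ∈ P gen on s, min (f' p.1) (f' (p.1 * gen p.2)) + m * prs gen on Z := by
    have e1 : (P gen on s).filter (fun p => p ∈ P gen on Z) = P gen on Z := by
      refine filter_mem_eq_inter.trans (inter_eq_right.mpr fun p hp => ?_)
      obtain ⟨a, b, c⟩ := mem_P.mp hp
      exact mem_P.mpr ⟨(mem_filter.mp a).1, b, (mem_filter.mp c).1⟩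
    have e2 : m * prs gen on Z = ∑ p ∈ P gen on s, if p ∈ P gen on Z then m else 0 := by
      rw [← sum_filter, e1, sum_const, nsmul_eq_mul, mul_comm]; rfl
    rw [e2, ← sum_add_distrib]
    refine sum_le_sum fun p hp => ?_
    obtain ⟨a, b, c⟩ := mem_P.mp hp
    rw [h4 _ a, h4 _ c]
    by_cases k1 : p.1 ∈ Z
    · by_cases k2 : p.1 * gen p.2 ∈ Z
      · rw [if_pos k1, if_pos k2, if_pos (mem_P.mpr ⟨k1, b, k2⟩), min_add_add_right]
      · have : f' (p.1 * gen p.2) = 0 := if_neg k2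
        rw [if_neg k2, if_neg fun h' => k2 (mem_P.mp h').2.2, this, add_zero, add_zero,
          min_eq_right (h1 _)]
        exact min_le_right _ _
    · have : f' p.1 = 0 := if_neg k1
      rw [if_neg k1, if_neg fun h' => k1 (mem_P.mp h').1, this, add_zero, add_zero,
        min_eq_left (h1 _)]
      exact min_le_left _ _
  have h7 : (prs gen on Z : ℝ) ≤ 998 * Z.card := by exact_mod_cast he Z (filter_subset _ _)
  nlinarith

lemma pt {p q : ℝ} (hp : 0 ≤ p) (hq : 0 ≤ q) :
    1000 * (p * q) ≤ 2 * min (p ^ 2) (q ^ 2) + (499 + 1 / 1000) * (p ^ 2 + q ^ 2) := by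
  rcases le_total (p ^ 2) (q ^ 2) with h | h
  · rw [min_eq_left h]
    nlinarith [sq_nonneg (1000 * (q - p) - (p + q)), sq_nonneg (p - q)]
  · rw [min_eq_right h]
    nlinarith [sq_nonneg (1000 * (p - q) - (p + q)), sq_nonneg (p - q)]

lemma median (K : Finset G) (u : G → ℝ) : ∃ m : ℝ, 2 * (K.filter fun x => m < u x).card ≤ K.card ∧
    2 * (K.filter fun x => u x < m).card ≤ K.card := by
  classical
  rcases K.eq_empty_or_nonempty with rfl | hK
  · exact ⟨0, by simp, by simp⟩
  obtain ⟨y, hy, hmax⟩ := exists_max_image K u hK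
  set S := K.filter fun z => 2 * (K.filter fun x => u z < u x).card ≤ K.card with hS
  have hyS : y ∈ S := mem_filter.mpr ⟨hy, by
    rw [filter_eq_empty_iff.mpr fun x hx => not_lt.mpr (hmax x hx)]; simp⟩
  obtain ⟨z, hz, hmin⟩ := exists_min_image S u ⟨y, hyS⟩
  refine ⟨u z, (mem_filter.mp hz).2, ?_⟩
  rcases (K.filter fun x => u x < u z).eq_empty_or_nonempty with h | h
  · rw [h]; simp
  obtain ⟨t, ht, hm⟩ := exists_max_image _ u h
  obtain ⟨t1, t2⟩ := mem_filter.mp ht
  have h1 : ¬ 2 * (K.filter fun x => u t < u x).card ≤ K.card := fun h' =>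
    not_le.mpr t2 (hmin t (mem_filter.mpr ⟨t1, h'⟩))
  have h2 : (K.filter fun x => u x < u z).card + (K.filter fun x => u t < u x).card ≤ K.card := by
    rw [← card_union_of_disjoint]
    · exact card_le_card (union_subset (filter_subset _ _) (filter_subset _ _))
    · exact disjoint_left.mpr fun x a b => not_lt.mpr (hm x a) (mem_filter.mp b).2
  omega

end S1

open Classical in
theorem cheeger {G : Type} [Group G] (io : A → A) (gen : A → G) (on : G → A → Prop)
    (hio : ∀ a, io (io a) = a) (hg : ∀ a, gen (io a) = (gen a)⁻¹)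
    (hs : ∀ x a, on x a → on (x * gen a) (io a))
    (hd : ∀ x, (univ.filter fun a => on x a).card ≤ 1000) (s : Finset G) (u : G → ℝ)
    (h0 : ∀ x, x ∉ s → u x = 0) (he : ∀ Z ⊆ s, prs gen on Z ≤ 998 * Z.card) :
    ∑ x ∈ s, ∑ a, (if on x a then u x * u (x * gen a) else 0) ≤
      (1000 - 2 / 1000) * ∑ x ∈ s, u x ^ 2 := by
  have h1 : ∑ x ∈ s, ∑ a, (if on x a then u x * u (x * gen a) else 0) ≤
      ∑ p ∈ S1.P gen on s, |u p.1| * |u (p.1 * gen p.2)| := by
    rw [S1.sum_P gen on s fun x y => |u x| * |u y|]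
    refine sum_le_sum fun x _ => sum_le_sum fun a _ => ?_
    by_cases k1 : on x a
    · by_cases k2 : x * gen a ∈ s
      · rw [if_pos k1, if_pos ⟨k1, k2⟩, ← abs_mul]; exact le_abs_self _
      · rw [if_pos k1, if_neg fun h => k2 h.2, h0 _ k2, mul_zero]
    · rw [if_neg k1, if_neg fun h => k1 h.1]
  have h2 := S1.layer he _ (fun x => u x ^ 2) (fun x => sq_nonneg _) rfl
  have h3 : ∑ p ∈ S1.P gen on s, u p.1 ^ 2 ≤ 1000 * ∑ x ∈ s, u x ^ 2 := by
    rw [S1.sum_P gen on s fun x _ => u x ^ 2, mul_sum]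
    refine sum_le_sum fun x _ => ?_
    rw [← sum_filter, sum_const, nsmul_eq_mul]
    refine mul_le_mul_of_nonneg_right ?_ (sq_nonneg _)
    have : (univ.filter fun a => on x a ∧ x * gen a ∈ s).card ≤ 1000 :=
      (card_le_card fun a ha =>
        mem_filter.mpr ⟨mem_univ _, (mem_filter.mp ha).2.1⟩).trans (hd x)
    exact_mod_cast this
  have h4 := S1.swap hio hg hs s fun x => u x ^ 2
  have h5 : ∑ p ∈ S1.P gen on s, 1000 * (|u p.1| * |u (p.1 * gen p.2)|) ≤
      ∑ p ∈ S1.P gen on s, (2 * min (u p.1 ^ 2) (u (p.1 * gen p.2) ^ 2) +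
        (499 + 1 / 1000) * (u p.1 ^ 2 + u (p.1 * gen p.2) ^ 2)) := sum_le_sum fun p _ => by
    have := S1.pt (abs_nonneg (u p.1)) (abs_nonneg (u (p.1 * gen p.2)))
    rwa [sq_abs, sq_abs] at this
  rw [← mul_sum, sum_add_distrib, ← mul_sum, ← mul_sum, sum_add_distrib, h4] at h5
  linarith

open Classical in
theorem cheegerK {G : Type} [Group G] (io : A → A) (gen : A → G) (on : G → A → Prop)
    (hio : ∀ a, io (io a) = a) (hg : ∀ a, gen (io a) = (gen a)⁻¹)
    (hs : ∀ x a, on x a → on (x * gen a) (io a))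
    (hd : ∀ x, (univ.filter fun a => on x a).card ≤ 1000) (K : Finset G)
    (hK : ∀ x ∈ K, (univ.filter fun a => on x a).card = 1000 ∧ ∀ a, on x a → x * gen a ∈ K)
    (he : ∀ Z ⊆ K, 2 * Z.card ≤ K.card → prs gen on Z ≤ 998 * Z.card) (u : G → ℝ)
    (h0 : ∑ x ∈ K, u x = 0) :
    ∑ x ∈ K, ∑ a, (if on x a then u x * u (x * gen a) else 0) ≤
      (1000 - 2 / 1000) * ∑ x ∈ K, u x ^ 2 := by
  have conv : ∀ F : G → G → ℝ, ∑ x ∈ K, ∑ a, (if on x a then F x (x * gen a) else 0) =
      ∑ p ∈ S1.P gen on K, F p.1 (p.1 * gen p.2) := by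
    intro F
    rw [S1.sum_P]
    exact sum_congr rfl fun x hx => sum_congr rfl fun a _ =>
      if_congr ⟨fun h => ⟨h, (hK x hx).2 a h⟩, fun h => h.1⟩ rfl rfl
  have half : ∀ v : G → ℝ, 2 * (K.filter fun x => 0 < v x).card ≤ K.card →
      ∑ p ∈ S1.P gen on K, max (v p.1) 0 * max (v (p.1 * gen p.2)) 0 ≤
        (1000 - 2 / 1000) * ∑ x ∈ K, max (v x) 0 ^ 2 := by
    intro v hv
    set s := K.filter fun x => 0 < v x with hs'
    have z : ∀ x ∈ K, x ∉ s → max (v x) 0 = 0 := fun x hx hxs =>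
      max_eq_right (not_lt.mp fun h => hxs (mem_filter.mpr ⟨hx, h⟩))
    have h1 := cheeger io gen on hio hg hs hd s (fun x => if x ∈ K then max (v x) 0 else 0)
      (fun x hx => by
        split_ifs with h
        exacts [z x h hx, rfl])
      fun Z hZ => he Z (hZ.trans (filter_subset _ _)) (by have := card_le_card hZ; omega)
    rw [← conv fun x y => max (v x) 0 * max (v y) 0]
    have e1 : ∑ x ∈ K, max (v x) 0 ^ 2 = ∑ x ∈ s, (if x ∈ K then max (v x) 0 else 0) ^ 2 := by
      rw [← sum_subset (filter_subset _ _ : s ⊆ K) fun x hx hxs => by rw [z x hx hxs]; simp]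
      exact sum_congr rfl fun x hx => by rw [if_pos (mem_filter.mp hx).1]
    rw [e1, ← sum_subset (filter_subset _ _ : s ⊆ K) fun x hx hxs => by simp [z x hx hxs]]
    refine le_of_eq_of_le (sum_congr rfl fun x hx => sum_congr rfl fun a _ => ?_) h1
    have hx' := (mem_filter.mp hx).1
    split_ifs with k1 k2
    · rfl
    · exact absurd ((hK x hx').2 a k1) k2
    · rfl
  obtain ⟨m, m1, m2⟩ := S1.median K u
  have a1 := half (fun x => u x - m) (by simpa only [sub_pos] using m1)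
  have a2 := half (fun x => m - u x) (by simpa only [sub_pos] using m2)
  have deg : ∀ F : G → ℝ, ∑ p ∈ S1.P gen on K, F p.1 = 1000 * ∑ x ∈ K, F x := by
    intro F
    rw [← conv fun x _ => F x, mul_sum]
    refine sum_congr rfl fun x hx => ?_
    rw [← sum_filter, sum_const, nsmul_eq_mul, (hK x hx).1]
    norm_num
  have b1 : ∑ p ∈ S1.P gen on K, (u p.1 - m) * (u (p.1 * gen p.2) - m) =
      ∑ p ∈ S1.P gen on K, u p.1 * u (p.1 * gen p.2) + 1000 * (m ^ 2 * K.card) := by
    have c1 := deg u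
    have c2 := S1.swap hio hg hs K u
    have c3 := deg fun _ => m ^ 2
    rw [h0, mul_zero] at c1
    rw [c1] at c2
    rw [sum_const (s := K), nsmul_eq_mul, mul_comm (K.card : ℝ)] at c3
    have : ∀ p : G × A, (u p.1 - m) * (u (p.1 * gen p.2) - m) =
        u p.1 * u (p.1 * gen p.2) + m ^ 2 - m * u p.1 - m * u (p.1 * gen p.2) := fun p => by ring
    simp only [this]
    rw [sum_sub_distrib, sum_sub_distrib, sum_add_distrib, ← mul_sum, ← mul_sum, c1, c2, c3]
    ring
  have b2 : ∑ x ∈ K, max (u x - m) 0 ^ 2 + ∑ x ∈ K, max (m - u x) 0 ^ 2 =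
      ∑ x ∈ K, u x ^ 2 + m ^ 2 * K.card := by
    have : ∀ x, max (u x - m) 0 ^ 2 + max (m - u x) 0 ^ 2 = u x ^ 2 + m ^ 2 - 2 * m * u x := by
      intro x
      rcases le_total (u x) m with h | h
      · rw [max_eq_right (by linarith), max_eq_left (by linarith)]; ring
      · rw [max_eq_left (by linarith), max_eq_right (by linarith)]; ring
    rw [← sum_add_distrib]
    simp only [this]
    rw [sum_sub_distrib, sum_add_distrib, ← mul_sum, h0, sum_const, nsmul_eq_mul]
    ring
  have b3 : ∑ p ∈ S1.P gen on K, (u p.1 - m) * (u (p.1 * gen p.2) - m) ≤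
      ∑ p ∈ S1.P gen on K, max (u p.1 - m) 0 * max (u (p.1 * gen p.2) - m) 0 +
      ∑ p ∈ S1.P gen on K, max (m - u p.1) 0 * max (m - u (p.1 * gen p.2)) 0 := by
    rw [← sum_add_distrib]
    refine sum_le_sum fun p _ => ?_
    generalize u p.1 = a
    generalize u (p.1 * gen p.2) = b
    rcases le_total a m with h | h <;> rcases le_total b m with h' | h'
    · rw [max_eq_right (sub_nonpos.mpr h), max_eq_left (sub_nonneg.mpr h),
        max_eq_left (sub_nonneg.mpr h')]; nlinarith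
    · rw [max_eq_right (sub_nonpos.mpr h), max_eq_right (sub_nonpos.mpr h')]; nlinarith
    · rw [max_eq_right (sub_nonpos.mpr h), max_eq_right (sub_nonpos.mpr h')]; nlinarith
    · rw [max_eq_right (sub_nonpos.mpr h), max_eq_left (sub_nonneg.mpr h),
        max_eq_left (sub_nonneg.mpr h')]; nlinarith
  rw [conv fun x y => u x * u y]
  have : 0 ≤ m ^ 2 * (K.card : ℝ) := by positivity
  linarith

end Vale.Agent.P089
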