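import Vale.Agent.P089.PartS1

/-! Part S2 of P089: the spectral gap of the lazy walk. -/

namespace Vale.Agent.P089

open Finset

variable {A : Type} [Fintype A]

namespace S2

variable {G : Type} [Group G] {io : A → A} {gen : A → G} {on : G → A → Prop}

open Classical in
lemma swap (hio : ∀ a, io (io a) = a) (hg : ∀ a, gen (io a) = (gen a)⁻¹)
    (hs : ∀ x a, on x a → on (x * gen a) (io a)) (s : Finset G) (F : G → G → ℝ) :
    ∑ x ∈ s, ∑ a, (if on x a ∧ x * gen a ∈ s then F x (x * gen a) else 0) =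
      ∑ x ∈ s, ∑ a, (if on x a ∧ x * gen a ∈ s then F (x * gen a) x else 0) := by
  rw [← sum_product', ← sum_product', ← sum_filter, ← sum_filter]
  refine sum_nbij' (fun p => (p.1 * gen p.2, io p.2)) (fun p => (p.1 * gen p.2, io p.2))
    ?_ ?_ ?_ ?_ ?_
  · rintro ⟨x, a⟩ h
    simp only [mem_filter, mem_product, mem_univ, and_true] at h ⊢
    exact ⟨h.2.2, hs _ _ h.2.1, by simpa [hg] using h.1⟩
  · rintro ⟨x, a⟩ h
    simp only [mem_filter, mem_product, mem_univ, and_true] at h ⊢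
    exact ⟨h.2.2, hs _ _ h.2.1, by simpa [hg] using h.1⟩
  · rintro ⟨x, a⟩ _
    simp [hg, hio]
  · rintro ⟨x, a⟩ _
    simp [hg, hio]
  · rintro ⟨x, a⟩ _
    simp [hg]

open Classical in
/-- The off diagonal form. -/
noncomputable def Q (gen : A → G) (on : G → A → Prop) (s : Finset G) (u v : G → ℝ) : ℝ :=
  ∑ x ∈ s, ∑ a, (if on x a then v x * u (x * gen a) else 0)

open Classical in
lemma Q_eq {s : Finset G} {u : G → ℝ} (hu : ∀ x, x ∉ s → u x = 0) (v : G → ℝ) :
    Q gen on s u v =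
      ∑ x ∈ s, ∑ a, (if on x a ∧ x * gen a ∈ s then v x * u (x * gen a) else 0) := by
  refine sum_congr rfl fun x _ => sum_congr rfl fun a _ => ?_
  by_cases h1 : on x a <;> by_cases h2 : x * gen a ∈ s <;> simp [h1, h2, hu]

lemma form (s : Finset G) (u v : G → ℝ) :
    ∑ x ∈ s, v x * Top gen on u x = (∑ x ∈ s, v x * u x) / 2 + Q gen on s u v / 2000 := by
  unfold Q Top
  rw [sum_div, sum_div, ← sum_add_distrib]
  refine sum_congr rfl fun x _ => ?_
  simp only [mul_add, ← mul_div_assoc, mul_sum, mul_ite, mul_zero]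

lemma Q_symm (hio : ∀ a, io (io a) = a) (hg : ∀ a, gen (io a) = (gen a)⁻¹)
    (hs : ∀ x a, on x a → on (x * gen a) (io a)) {s : Finset G} {u v : G → ℝ}
    (hu : ∀ x, x ∉ s → u x = 0) (hv : ∀ x, x ∉ s → v x = 0) :
    Q gen on s u v = Q gen on s v u := by
  rw [Q_eq hu, Q_eq hv, swap hio hg hs s fun x y => v x * u y]
  simp only [mul_comm]

open Classical in
lemma Q_ge (hio : ∀ a, io (io a) = a) (hg : ∀ a, gen (io a) = (gen a)⁻¹)
    (hs : ∀ x a, on x a → on (x * gen a) (io a))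
    (hd : ∀ x, (univ.filter fun a => on x a).card ≤ 1000) {s : Finset G} {u : G → ℝ}
    (hu : ∀ x, x ∉ s → u x = 0) : -(1000 * ∑ x ∈ s, u x ^ 2) ≤ Q gen on s u u := by
  have h1 : ∑ x ∈ s, ∑ a, (if on x a ∧ x * gen a ∈ s then u x ^ 2 else 0) ≤
      1000 * ∑ x ∈ s, u x ^ 2 := by
    rw [mul_sum]
    refine sum_le_sum fun x _ => ?_
    rw [← sum_filter, sum_const, nsmul_eq_mul]
    refine mul_le_mul_of_nonneg_right ?_ (sq_nonneg _)
    have : (univ.filter fun a => on x a ∧ x * gen a ∈ s).card ≤ 1000 :=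
      (card_le_card (monotone_filter_right _ fun a _ h => h.1)).trans (hd x)
    exact_mod_cast this
  have h2 := swap hio hg hs s fun x _ => u x ^ 2
  have h3 : 0 ≤ ∑ x ∈ s, ∑ a, ((if on x a ∧ x * gen a ∈ s then u x ^ 2 else 0) +
      (if on x a ∧ x * gen a ∈ s then u (x * gen a) ^ 2 else 0) +
      2 * (if on x a ∧ x * gen a ∈ s then u x * u (x * gen a) else 0)) :=
    sum_nonneg fun x _ => sum_nonneg fun a _ => by
      split_ifs
      · nlinarith [sq_nonneg (u x + u (x * gen a))]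
      · simp
  simp only [sum_add_distrib, ← mul_sum] at h3
  rw [Q_eq hu]
  linarith

lemma Top_add (u v : G → ℝ) : Top gen on (u + v) = Top gen on u + Top gen on v := by
  funext x
  simp only [Top, Pi.add_apply, ite_add_zero, sum_add_distrib]
  ring

lemma Top_smul (c : ℝ) (u : G → ℝ) : Top gen on (c • u) = c • Top gen on u := by
  funext x
  simp only [Top, Pi.smul_apply, smul_eq_mul, mul_add, ← mul_div_assoc, mul_sum, mul_ite,
    mul_zero]

lemma Top_supp {s : Finset G} {u : G → ℝ} (hu : ∀ x, x ∉ s → u x = 0) :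
    ∃ s' : Finset G, s ⊆ s' ∧ ∀ x, x ∉ s' → Top gen on u x = 0 := by
  classical
  refine ⟨s ∪ (s ×ˢ (univ : Finset A)).image fun p => p.1 * (gen p.2)⁻¹, subset_union_left,
    fun x hx => ?_⟩
  rw [mem_union, not_or] at hx
  have : ∀ a, u (x * gen a) = 0 := fun a => hu _ fun h =>
    hx.2 (mem_image.2 ⟨(x * gen a, a), by simpa using h, by simp⟩)
  simp [Top, hu x hx.1, this]

/-- Finite support and a bound for the squared norm. -/
def Bd (u : G → ℝ) (c : ℝ) : Prop :=
  (∃ s : Finset G, ∀ x, x ∉ s → u x = 0) ∧ ∀ s : Finset G, ∑ x ∈ s, u x ^ 2 ≤ c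

omit [Group G] in
lemma bd_of {u : G → ℝ} {c : ℝ} {s : Finset G} (hu : ∀ x, x ∉ s → u x = 0)
    (h : ∑ x ∈ s, u x ^ 2 ≤ c) : Bd u c := by
  classical
  refine ⟨⟨s, hu⟩, fun s' => le_trans ?_ h⟩
  rw [← sum_filter_add_sum_filter_not s' (· ∈ s), sum_eq_zero (s := s'.filter (· ∉ s))
    (fun x hx => by rw [hu x (mem_filter.1 hx).2]; simp), add_zero]
  exact sum_le_sum_of_subset_of_nonneg (fun x hx => (mem_filter.1 hx).2) fun _ _ _ => sq_nonneg _

omit [Group G] in
open Classical in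
lemma part {KK : Set (Finset G)} {kk : G → Finset G} (k1 : ∀ x, kk x = ∅ ∨ kk x ∈ KK)
    (k2 : ∀ K ∈ KK, ∀ x, x ∈ K ↔ kk x = K ∧ K ≠ ∅) (s : Finset G) :
    ∃ s' : Finset G, s ⊆ s' ∧ (∀ x ∈ s, kk x ⊆ s') ∧ ∀ f : G → ℝ, (∀ K ∈ KK, ∑ x ∈ K, f x ≤ 0) →
      ∑ x ∈ s'.filter (fun x => kk x = ∅), f x ≤ 0 → ∑ x ∈ s', f x ≤ 0 := by
  refine ⟨s ∪ s.biUnion kk, subset_union_left,
    fun x hx => (subset_biUnion_of_mem kk hx).trans subset_union_right, fun f h1 h2 => ?_⟩
  rw [← sum_fiberwise_of_maps_to (t := (s ∪ s.biUnion kk).image kk) (g := kk)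
    fun x hx => mem_image_of_mem _ hx]
  refine sum_nonpos fun K hK => ?_
  by_cases h0 : K = ∅
  · subst h0; exact h2
  · obtain ⟨x, hx, rfl⟩ := mem_image.1 hK
    have hK' := (k1 x).resolve_left h0
    have : (s ∪ s.biUnion kk).filter (fun y => kk y = kk x) = kk x := by
      ext y
      rw [mem_filter, k2 _ hK']
      refine ⟨fun h => ⟨h.2, h0⟩, fun h => ⟨?_, h.1⟩⟩
      have hy : y ∈ kk x := (k2 _ hK' y).2 h
      rcases mem_union.1 hx with hx | hx
      · exact mem_union_right _ (mem_biUnion.2 ⟨x, hx, hy⟩)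
      · obtain ⟨z, hz, hxz⟩ := mem_biUnion.1 hx
        have hz' := (k1 z).resolve_left (ne_empty_of_mem hxz)
        rw [((k2 _ hz' x).1 hxz).1] at hy
        exact mem_union_right _ (mem_biUnion.2 ⟨z, hz, hy⟩)
    rw [this]
    exact h1 _ hK'

lemma th_pos : 0 < th := by unfold th; norm_num

lemma th_le : th ≤ 1 := by unfold th; norm_num

end S2

open S2

open Classical in
theorem spec {G : Type} [Group G] (io : A → A) (gen : A → G) (on : G → A → Prop)
    (hio : ∀ a, io (io a) = a) (hg : ∀ a, gen (io a) = (gen a)⁻¹)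
    (hs : ∀ x a, on x a → on (x * gen a) (io a))
    (hd : ∀ x, (univ.filter fun a => on x a).card ≤ 1000) (KK : Set (Finset G))
    (hdis : ∀ K ∈ KK, ∀ K' ∈ KK, ∀ x ∈ K, x ∈ K' → K = K')
    (hK : ∀ K ∈ KK, ∀ x ∈ K,
      (univ.filter fun a => on x a).card = 1000 ∧ ∀ a, on x a → x * gen a ∈ K)
    (e1 : ∀ K ∈ KK, ∀ Z ⊆ K, 2 * Z.card ≤ K.card → prs gen on Z ≤ 998 * Z.card)
    (e2 : ∀ Z : Finset G, (∀ K ∈ KK, ∀ x ∈ Z, x ∉ K) → prs gen on Z ≤ 998 * Z.card) :
    Conv gen on ∧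
      (∀ K ∈ KK, (1 : G) ∈ K → ∀ k, |(Top gen on)^[k] (dl : G → ℝ) 1 - 1 / K.card| ≤ th ^ k) ∧
      ((∀ K ∈ KK, (1 : G) ∉ K) → ∀ k, |(Top gen on)^[k] (dl : G → ℝ) 1| ≤ th ^ k) := by
  obtain ⟨kk, k1, k2, k3⟩ : ∃ kk : G → Finset G, (∀ x, kk x = ∅ ∨ kk x ∈ KK) ∧
      (∀ K ∈ KK, ∀ x, x ∈ K ↔ kk x = K ∧ K ≠ ∅) ∧ ∀ x, kk x = ∅ ↔ ∀ K ∈ KK, x ∉ K := by
    have : ∀ x : G, ∃ K : Finset G, (K = ∅ ∧ ∀ K ∈ KK, x ∉ K) ∨ (K ∈ KK ∧ x ∈ K) := fun x => by
      by_cases h : ∃ K ∈ KK, x ∈ K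
      · obtain ⟨K, h1, h2⟩ := h
        exact ⟨K, Or.inr ⟨h1, h2⟩⟩
      · exact ⟨∅, Or.inl ⟨rfl, fun K h1 h2 => h ⟨K, h1, h2⟩⟩⟩
    choose kk hk using this
    refine ⟨kk, fun x => (hk x).imp And.left And.left, fun K h1 x => ⟨fun h => ?_, fun h => ?_⟩,
      fun x => ⟨fun h => ?_, fun h => ?_⟩⟩
    · rcases hk x with h2 | h2
      · exact absurd h (h2.2 K h1)
      · exact ⟨hdis _ h2.1 _ h1 x h2.2 h, ne_empty_of_mem h⟩
    · rcases hk x with h2 | h2
      · exact absurd (h.1.symm.trans h2.1) h.2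
      · exact h.1 ▸ h2.2
    · rcases hk x with h2 | h2
      · exact h2.2
      · exact absurd h (ne_empty_of_mem h2.2)
    · rcases hk x with h2 | h2
      · exact h2.1
      · exact absurd h2.2 (h _ h2.1)
  have knb : ∀ x a, on x a → kk (x * gen a) = kk x := fun x a h => by
    by_cases h0 : kk x = ∅
    · rw [h0, k3]
      intro K h1 h2
      have := (hK K h1 _ h2).2 _ (hs x a h)
      rw [hg, mul_inv_cancel_right] at this
      exact (k3 x).1 h0 K h1 this
    · have h1 := (k1 x).resolve_left h0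
      exact ((k2 _ h1 _).1 ((hK _ h1 x ((k2 _ h1 x).2 ⟨rfl, h0⟩)).2 a h)).1
  have inv : ∀ u : G → ℝ, (∀ K ∈ KK, ∑ x ∈ K, u x = 0) →
      ∀ K ∈ KK, ∑ x ∈ K, Top gen on u x = 0 := fun u hu K h1 => by
    have a1 := form (gen := gen) (on := on) K u fun _ => 1
    have a2 := swap hio hg hs K fun _ y => u y
    have a3 : Q gen on K u (fun _ => 1) =
        ∑ x ∈ K, ∑ a, (if on x a ∧ x * gen a ∈ K then u (x * gen a) else 0) :=
      sum_congr rfl fun x hx => sum_congr rfl fun a _ => by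
        by_cases h : on x a
        · simp [h, (hK K h1 x hx).2 a h]
        · simp [h]
    have a4 : ∑ x ∈ K, ∑ a, (if on x a ∧ x * gen a ∈ K then u x else 0) =
        1000 * ∑ x ∈ K, u x := by
      rw [mul_sum]
      refine sum_congr rfl fun x hx => ?_
      rw [← sum_filter, sum_const, nsmul_eq_mul, filter_congr (q := fun a => on x a)
        fun a _ => ⟨And.left, fun h => ⟨h, (hK K h1 x hx).2 a h⟩⟩, (hK K h1 x hx).1]
      norm_num
    simp only [one_mul] at a1
    rw [a1, a3, a2, a4, hu K h1]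
    norm_num
  have up : ∀ (s : Finset G) (u : G → ℝ), (∀ x, x ∉ s → u x = 0) →
      (∀ K ∈ KK, ∑ x ∈ K, u x = 0) →
      ∑ x ∈ s, u x * Top gen on u x ≤ th * ∑ x ∈ s, u x ^ 2 := fun s u hu h0 => by
    obtain ⟨s', p1, -, p3⟩ := part k1 k2 s
    have b1 := p3 (fun x => (∑ a, if on x a then u x * u (x * gen a) else 0) -
      (1000 - 2 / 1000) * u x ^ 2) (fun K h1 => by
        rw [sum_sub_distrib, ← mul_sum, sub_nonpos]
        exact cheegerK io gen on hio hg hs hd K (hK K h1) (e1 K h1) u (h0 K h1)) (by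
      set r := s'.filter (fun x => kk x = ∅) with hr
      have := cheeger io gen on hio hg hs hd r (fun x => if x ∈ r then u x else 0)
        (fun x hx => if_neg hx) fun Z hZ => e2 Z fun K h1 x hx =>
          (k3 x).1 (mem_filter.1 (hZ hx)).2 K h1
      rw [sum_sub_distrib, ← mul_sum, sub_nonpos]
      refine le_of_eq_of_le ?_ (this.trans (le_of_eq ?_))
      · refine sum_congr rfl fun x hx => sum_congr rfl fun a _ => ?_
        by_cases h : on x a
        · rw [if_pos h, if_pos h, if_pos hx]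
          by_cases h2 : x * gen a ∈ s'
          · rw [if_pos (mem_filter.2 ⟨h2, (knb x a h).trans (mem_filter.1 hx).2⟩)]
          · rw [hu _ fun h3 => h2 (p1 h3), ite_self]
        · rw [if_neg h, if_neg h]
      · exact congrArg _ (sum_congr rfl fun x hx => by rw [if_pos hx]))
    rw [← sum_subset p1 (fun x _ hx => by simp [hu x hx]), sum_sub_distrib, ← mul_sum] at b1
    rw [form]
    simp only [← sq]
    unfold Q th
    linarith
  have step : ∀ (u : G → ℝ) (c : ℝ), Bd u c → (∀ K ∈ KK, ∑ x ∈ K, u x = 0) →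
      Bd (Top gen on u) (th ^ 2 * c) := fun u c ⟨⟨s0, hs0⟩, hc⟩ h0 => by
    obtain ⟨s, q1, q2⟩ := Top_supp (gen := gen) (on := on) hs0
    have hu : ∀ x, x ∉ s → u x = 0 := fun x hx => hs0 x fun h => hx (q1 h)
    refine bd_of q2 ?_
    set v := Top gen on u with hv
    have c1 := up s u hu h0
    have c2 := up s v q2 (inv u h0)
    have c3 := Q_ge hio hg hs hd (s := s) (u := v + (-th) • u)
      (fun x hx => by simp [hu x hx, q2 x hx])
    have c4 := form (gen := gen) (on := on) s (v + (-th) • u) (v + (-th) • u)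
    have c5 : ∑ x ∈ s, u x * Top gen on v x = ∑ x ∈ s, v x ^ 2 := by
      rw [form, Q_symm hio hg hs q2 hu]
      simp only [mul_comm (u _) (v _)]
      rw [← form]
      simp only [← hv, sq]
    have c6 : ∑ x ∈ s, (v + (-th) • u) x * Top gen on (v + (-th) • u) x =
        ∑ x ∈ s, v x * Top gen on v x - th * ∑ x ∈ s, v x ^ 2 -
          th * ∑ x ∈ s, u x * Top gen on v x + th ^ 2 * ∑ x ∈ s, u x * v x := by
      rw [Top_add, Top_smul, ← hv]
      simp only [mul_sum, ← sum_sub_distrib, ← sum_add_distrib]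
      refine sum_congr rfl fun x _ => ?_
      simp only [Pi.add_apply, Pi.smul_apply, smul_eq_mul]
      ring
    simp only [← sq] at c4
    have c7 : 0 ≤ th * (th ^ 2 * c - ∑ x ∈ s, v x ^ 2) := by
      have c8 := mul_le_mul_of_nonneg_left (c1.trans
        (mul_le_mul_of_nonneg_left (hc s) th_pos.le)) (sq_nonneg th)
      rw [c5] at c6
      nlinarith
    exact sub_nonneg.1 (nonneg_of_mul_nonneg_right c7 th_pos)
  have iter : ∀ (u : G → ℝ) (c : ℝ), Bd u c → (∀ K ∈ KK, ∑ x ∈ K, u x = 0) → ∀ k,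
      Bd ((Top gen on)^[k] u) (th ^ (2 * k) * c) ∧
        ∀ K ∈ KK, ∑ x ∈ K, (Top gen on)^[k] u x = 0 := fun u c h1 h2 k => by
    induction k with
    | zero => exact ⟨by simpa using h1, h2⟩
    | succ k ih =>
      rw [Function.iterate_succ_apply']
      refine ⟨?_, inv _ ih.2⟩
      have := step _ _ ih.1 ih.2
      rwa [← mul_assoc, ← pow_add, show 2 + 2 * k = 2 * (k + 1) by ring] at this
  have dec : ∀ (s : Finset G) (v : G → ℝ), (∀ x, x ∉ s → v x = 0) → ∃ u : G → ℝ,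
      (∀ k, Bd ((Top gen on)^[k] u) (th ^ (2 * k) * ∑ x ∈ s, v x ^ 2)) ∧
      ∀ k x, (Top gen on)^[k] v x = (∑ y ∈ kk x, v y) / (kk x).card + (Top gen on)^[k] u x := by
    intro s v hv
    set m : G → ℝ := fun x => (∑ y ∈ kk x, v y) / (kk x).card with hm
    have fix : Top gen on m = m := by
      funext x
      have d1 : ∀ a, (if on x a then m (x * gen a) else 0) = if on x a then m x else 0 :=
        fun a => by
          split_ifs with h
          · simp only [hm, knb x a h]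
          · rfl
      simp only [Top, d1]
      rw [← sum_filter, sum_const, nsmul_eq_mul]
      by_cases h0 : kk x = ∅
      · simp [hm, h0]
      · have h1 := (k1 x).resolve_left h0
        rw [(hK _ h1 x ((k2 _ h1 x).2 ⟨rfl, h0⟩)).1]
        push_cast; ring
    have mK : ∀ K ∈ KK, ∀ x ∈ K, m x = (∑ y ∈ K, v y) / K.card := fun K h1 x hx => by
      simp only [hm, ((k2 K h1 x).1 hx).1]
    have mc : ∀ K : Finset G, (K.card : ℝ) * ((∑ y ∈ K, v y) / K.card) = ∑ y ∈ K, v y :=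
      fun K => by
        rcases K.eq_empty_or_nonempty with rfl | h
        · simp
        · have : (K.card : ℝ) ≠ 0 := by exact_mod_cast h.card_pos.ne'
          field_simp
    obtain ⟨s', p1, p2, p3⟩ := part k1 k2 s
    have hu : ∀ x, x ∉ s' → (v - m) x = 0 := fun x hx => by
      have : ∑ y ∈ kk x, v y = 0 := sum_eq_zero fun y hy => hv y fun h => by
        have h0 := ne_empty_of_mem hy
        have h1 := (k1 x).resolve_left h0
        refine hx (p2 y h ?_)
        rw [((k2 _ h1 y).1 hy).1]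
        exact (k2 _ h1 x).2 ⟨rfl, h0⟩
      simp [hm, this, hv x fun h => hx (p1 h)]
    refine ⟨v - m, fun k => (iter _ _ (bd_of hu ?_) (fun K h1 => ?_) k).1, fun k x => ?_⟩
    · have := p3 (fun x => (v - m) x ^ 2 - v x ^ 2) (fun K h1 => by
        have d2 : ∑ x ∈ K, ((v - m) x ^ 2 - v x ^ 2) = ∑ x ∈ K,
            (((∑ y ∈ K, v y) / K.card) ^ 2 - 2 * ((∑ y ∈ K, v y) / K.card) * v x) :=
          sum_congr rfl fun x hx => by rw [Pi.sub_apply, mK K h1 x hx]; ring
        rw [d2, sum_sub_distrib, sum_const, nsmul_eq_mul, ← mul_sum]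
        have d3 := mc K
        set μ := (∑ y ∈ K, v y) / K.card
        rw [← d3]
        nlinarith [mul_nonneg (K.card.cast_nonneg (α := ℝ)) (sq_nonneg μ)])
        (le_of_eq (sum_eq_zero fun x hx => by simp [hm, (mem_filter.1 hx).2]))
      rw [sum_sub_distrib, ← sum_subset p1 (f := fun x => v x ^ 2)
        (fun x _ hx => by simp [hv x hx])] at this
      linarith
    · simp only [Pi.sub_apply]
      rw [sum_sub_distrib, sum_congr rfl (mK K h1), sum_const, nsmul_eq_mul, mc, sub_self]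
    · have : ∀ k, (Top gen on)^[k] v = m + (Top gen on)^[k] (v - m) := fun k => by
        induction k with
        | zero => simp
        | succ k ih => rw [Function.iterate_succ_apply', Function.iterate_succ_apply', ih,
            Top_add, fix]
      rw [this]; rfl
  have pt : ∀ k, |(Top gen on)^[k] (dl : G → ℝ) 1 -
      (∑ y ∈ kk 1, (dl : G → ℝ) y) / (kk 1).card| ≤ th ^ k := fun k => by
    obtain ⟨u, h1, h2⟩ := dec {1} dl fun x hx => by
      rw [mem_singleton] at hx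
      simp [dl, hx]
    have := (h1 k).2 {1}
    rw [h2, add_sub_cancel_left]
    refine abs_le_of_sq_le_sq ?_ (pow_pos th_pos k).le
    rw [← pow_mul, mul_comm k]
    simpa [dl] using this
  refine ⟨fun s v hv k s' => ?_, fun K h1 h2 k => ?_, fun h k => ?_⟩
  · obtain ⟨u, h1, h2⟩ := dec s v hv
    have f1 := (h1 k).2 s'
    have f2 := (h1 (k + 1)).2 s'
    have f3 : th ^ (2 * (k + 1)) * ∑ x ∈ s, v x ^ 2 ≤ th ^ (2 * k) * ∑ x ∈ s, v x ^ 2 :=
      mul_le_mul_of_nonneg_right (pow_le_pow_of_le_one th_pos.le th_le (by omega))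
        (sum_nonneg fun _ _ => sq_nonneg _)
    have f4 : ∑ x ∈ s', ((Top gen on)^[k + 1] v x - (Top gen on)^[k] v x) ^ 2 ≤
        ∑ x ∈ s', (2 * (Top gen on)^[k + 1] u x ^ 2 + 2 * (Top gen on)^[k] u x ^ 2) :=
      sum_le_sum fun x _ => by
        rw [h2, h2]
        nlinarith [sq_nonneg ((Top gen on)^[k + 1] u x + (Top gen on)^[k] u x)]
    rw [sum_add_distrib, ← mul_sum, ← mul_sum] at f4
    linarith
  · have := pt k
    rw [((k2 K h1 1).1 h2).1] at this
    simpa [dl, h2] using this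
  · have := pt k
    rw [(k3 1).2 h] at this
    simpa using this

end Vale.Agent.P089
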