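import Vale.Agent.P089.PartA
import Vale.Agent.P089.PartB1
import Vale.Agent.P089.PartB2
import Vale.Agent.P089.PartPA1
import Vale.Agent.P089.PartPA2
import Vale.Agent.P089.PartC0
import Vale.Agent.P089.PartC1
import Vale.Agent.P089.PartC2
import Vale.Agent.P089.PartC3
import Vale.Agent.P089.PartD
import Vale.Agent.P089.PartE
import Vale.Agent.P089.PartS1
import Vale.Agent.P089.PartS2
import Vale.Agent.P089.PartK
import Vale.Agent.P089.PartI
import Vale.Agent.P089.PartF1
import Vale.Agent.P089.PartF2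

/-!
A countable group whose reduced algebra contains a projection of irrational trace.
-/

namespace Vale.Agent.P089

open Finset MeasureTheory Filter Topology


theorem main : ∃ (Γ : Type) (_ : Group Γ) (_ : Countable Γ),
    ∀ {H : Type} [NormedAddCommGroup H] [InnerProductSpace ℂ H] [CompleteSpace H]
      (b : HilbertBasis Γ ℂ H) (la : Γ → H →L[ℂ] H), (∀ g h, la g (b h) = b (g * h)) →
      ∃ P ∈ closure (Submodule.span ℂ (Set.range la) : Set (H →L[ℂ] H)),
        IsStarProjection P ∧ ∃ t : ℝ, Irrational t ∧ inner ℂ (b 1) (P (b 1)) = (t : ℂ) := by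
  obtain ⟨A0, W, i1, i2, L0, h0⟩ := lab_exists
  obtain ⟨A, i3, L, hA, hV, hl, ho⟩ := lab_occ L0
  have h : ∀ n, (L.Vn n).card = 1000 ^ (7 * L.len n) ∧ Fintype.card A + 5 ≤ L.len n ∧
      (L.Vn n).card * (Fintype.card A + 3) + n ≤ L.len (n + 1) := by
    intro n
    rw [hV, hl]
    refine ⟨(h0 n).1, le_trans (by omega) (h0 n).2.1, le_trans ?_ (h0 n).2.2⟩
    exact Nat.add_le_add_right (Nat.mul_le_mul_left _ (by omega)) _
  obtain ⟨Y, K, ⟨D0⟩⟩ := dev L (lab_conn L) ho
  obtain ⟨G, j1, j2, D, hO⟩ := geo (lab_conn L) D0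
  have hC := fun n => code (fun w : L.Vn n => L.pat w) (L.len n)
    (by rw [Fintype.card_coe]; exact (h n).1) (h n).2.1
  choose C hC using hC
  have hu : ∀ n, 1001 ^ (2 * L.len n) ≤ Fintype.card (L.Vn n) := by
    intro n
    rw [Fintype.card_coe, (h n).1, pow_mul, pow_mul]
    exact Nat.pow_le_pow_left (by norm_num) _
  choose a ha1 ha2 ha3 using fun n => code_card (hC n) (hu n)
  have hirr := irr a fun n => by
    have e1 := ha3 n
    rw [Fintype.card_coe] at e1
    have e2 := (h n).2.2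
    have e3 := ha2 (n + 1)
    have e4 : 2 * L.len (n + 1) < 1001 ^ (2 * L.len (n + 1)) := Nat.lt_pow_self (by norm_num)
    omega
  haveI := conf_compact D C
  obtain ⟨O⟩ := hO 0
  have hg := gap D O C _ hC
  have hI := integ D C (fun n => (hC n).mem) (conf_onto D hO C hC) (fun x hx => (hg x hx).2.1)
    (fun x hx => (hg x hx).2.2.1) (fun x hx => (hg x hx).2.2.2)
  obtain ⟨Γ, k1, k2, T, t1, t2, t3⟩ := fourier (Conf D C) (conf_inv D C) L.io D.gen L.io_io
    D.gen_io fun x hx => (hg x hx).1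
  refine ⟨Γ, k1, k2, fun b la hla => ?_⟩
  have h3 : Tendsto (fun k => (T ^ k).coeff 1) atTop
      (𝓝 ((∑' n, 1 / (Nat.card (C n) : ℝ) : ℝ) : ℂ)) := by
    simp only [t3]
    exact (Complex.continuous_ofReal.tendsto _).comp hI
  obtain ⟨P, p1, p2, p3⟩ := proj T t1 t2 _ h3 b la hla
  refine ⟨P, p1, p2, _, ?_, p3⟩
  simpa only [ha1, Nat.cast_pow, Nat.cast_ofNat] using hirr

end Vale.Agent.P089
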