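import Vale.Agent.P089.Defs
import Vale.Agent.P201.PartB

/-! Part A of P089: regular expanders of large girth. -/

namespace Vale.Agent.P089

open Finset Vale.Agent.P201

namespace PA

/-- The half edge system with eight labels. -/
def sy (N : ℕ) : Sys (Fin N × Fin 1000) (Fin N) ℕ where
  vtx h := h.1
  lab h := h.2.val / 125
  pos h := h.2.val
  inj h h' h1 _ h3 := Prod.ext h1 (Fin.ext (by exact_mod_cast h3))

lemma card_lab (i : ℕ) : (univ.filter fun j : Fin 1000 => j.val / 125 = i).card ≤ 125 := by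
  refine le_trans (card_le_card_of_injOn (t := range 125) (fun j => j.val % 125) (fun j _ => ?_)
    fun j hj j' hj' e => ?_) (card_range 125).le
  · exact mem_coe.2 (mem_range.2 (Nat.mod_lt _ (by norm_num)))
  · have h1 := (mem_filter.1 (mem_coe.1 hj)).2
    have h2 := (mem_filter.1 (mem_coe.1 hj')).2
    simp only at e
    exact Fin.ext (by omega)

lemma card_lab0 : (univ.filter fun j : Fin 1000 => j.val / 125 = 0).card = 125 := by
  refine le_antisymm (card_lab 0) ?_
  refine le_trans (card_range 125).ge (card_le_card_of_injOn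
    (fun j => if h : j < 1000 then ⟨j, h⟩ else 0) (fun j hj => ?_) fun j hj j' hj' e => ?_)
  · have := mem_range.1 (mem_coe.1 hj)
    refine mem_coe.2 (mem_filter.2 ⟨mem_univ _, ?_⟩)
    simp only [dif_pos (show j < 1000 by omega)]; omega
  · have h1 := mem_range.1 (mem_coe.1 hj)
    have h2 := mem_range.1 (mem_coe.1 hj')
    simp only [dif_pos (show j < 1000 by omega), dif_pos (show j' < 1000 by omega)] at e
    exact Fin.mk.inj e

lemma bd (N : ℕ) : (sy N).Bd 1000 (125 * N) := by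
  refine ⟨fun x => ?_, fun i => ?_⟩
  · refine (card_le_card_of_injOn (t := univ) (fun h => h.2) (fun _ _ => mem_coe.2 (mem_univ _))
      fun h hh h' hh' e => ?_).trans (by simp)
    have h1 := ((@mem_filter _ _ (_) _ _).1 (mem_coe.1 hh)).2
    have h2 := ((@mem_filter _ _ (_) _ _).1 (mem_coe.1 hh')).2
    exact Prod.ext (h1.trans h2.symm) e
  · refine (card_le_card (t := univ ×ˢ (univ.filter fun j : Fin 1000 => j.val / 125 = i))
      fun h hh => ?_).trans ?_
    · exact mem_product.2 ⟨mem_univ _, mem_filter.2 ⟨mem_univ _,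
        ((@mem_filter _ _ (_) _ _).1 hh).2⟩⟩
    · rw [card_product, card_univ, Fintype.card_fin, mul_comm]
      exact Nat.mul_le_mul_right _ (card_lab i)

lemma exm (N : ℕ) : ∃ M, (sy N).IsMatch M :=
  ⟨fun h => (h.1, h.2.rev), fun h => ⟨by simp, by
    have := h.2.2
    simp only [sy, Fin.val_rev]; omega⟩⟩

variable {g N : ℕ}

lemma fix (hN : 1000 ^ (g + 5) ≤ N) (R : Finset (Fin N × Fin 1000))
    (hR : ∀ x ∈ R, x.2.val / 125 = 0) (hc : 2 * R.card ≤ 121 * N)
    (f : Fin N × Fin 1000 → Fin N × Fin 1000) :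
    (((sy N).Omega g).filter fun M => ∀ x ∈ R, M x = f x).card * (620 * N) ^ R.card ≤
      ((sy N).Omega g).card := by
  rcases (((sy N).Omega g).filter fun M => ∀ x ∈ R, M x = f x).eq_empty_or_nonempty with h | h
  · rw [h]; simp
  obtain ⟨M0, h0⟩ := h
  obtain ⟨h1, h2⟩ := mem_filter.1 h0
  have m0 := (B.mem_Omega.1 h1).1
  have hinj : Function.Injective M0 := fun x y e => by rw [← (m0 x).1, e, (m0 y).1]
  have hdis : Disjoint R (R.image M0) := disjoint_left.2 fun x hx hx' => by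
    obtain ⟨y, hy, rfl⟩ := mem_image.1 hx'
    exact (m0 y).2 ((hR _ hx).trans (hR _ hy).symm)
  have hT : (R ∪ R.image M0).card = 2 * R.card := by
    rw [card_union_of_disjoint hdis, card_image_of_injective _ hinj, two_mul]
  have := switch (sy N) (bd N) (by norm_num) g (620 * N) R.card _ hT M0 (fun x hx => by
    refine ⟨?_, (m0 x).1, fun e => (m0 x).2 (by rw [e])⟩
    rcases mem_union.1 hx with hx | hx
    · exact mem_union_right _ (mem_image_of_mem _ hx)
    · obtain ⟨y, hy, rfl⟩ := mem_image.1 hx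
      rw [(m0 y).1]; exact mem_union_left _ hy) id (Set.injOn_id _) (by
    rw [hT, Fintype.card_prod, Fintype.card_fin, Fintype.card_fin]
    rw [pow_succ] at hN; omega)
  refine le_trans (Nat.mul_le_mul_right _ (card_le_card fun M hM => ?_)) this
  obtain ⟨k1, k2⟩ := mem_filter.1 hM
  refine (@mem_filter _ _ (_) _ _).2 ⟨k1, fun x hx => ?_⟩
  rcases mem_union.1 hx with hx | hx
  · exact (k2 x hx).trans (h2 x hx).symm
  · obtain ⟨y, hy, rfl⟩ := mem_image.1 hx
    show M (M0 y) = M0 (M0 y)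
    rw [(m0 y).1, h2 y hy, ← k2 y hy, ((B.mem_Omega.1 k1).1 y).1]

/-- Matchings with too many half edges staying inside `S`. -/
noncomputable def bad (g : ℕ) (S : Finset (Fin N)) :
    Finset (Fin N × Fin 1000 → Fin N × Fin 1000) :=
  ((sy N).Omega g).filter fun M => 2 * S.card ≤ N ∧ 996 * S.card <
    (univ.filter fun h : Fin N × Fin 1000 => h.1 ∈ S ∧ (M h).1 ∈ S).card

lemma bad_nat (hN : 1000 ^ (g + 5) ≤ N) (S : Finset (Fin N)) (hS : 2 * S.card ≤ N) :
    (bad g S).card * (620 * N) ^ (121 * S.card) ≤ (125 * S.card).choose (121 * S.card) *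
      ((1000 * S.card) ^ (121 * S.card) * ((sy N).Omega g).card) := by
  set R0 := S ×ˢ (univ.filter fun j : Fin 1000 => j.val / 125 = 0) with hR0
  set HS : Finset (Fin N × Fin 1000) := S ×ˢ univ with hHS
  have c0 : R0.card = 125 * S.card := by rw [hR0, card_product, card_lab0, mul_comm]
  have c1 : HS.card = 1000 * S.card := by
    rw [hHS, card_product, card_univ, Fintype.card_fin, mul_comm]
  let P := fun R : Finset (Fin N × Fin 1000) =>
    Fintype.piFinset fun h : Fin N × Fin 1000 => if h ∈ R then HS else {h}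
  have c2 : ∀ R, (P R).card = (1000 * S.card) ^ R.card := fun R => by
    rw [Fintype.card_piFinset, ← c1]
    simp [apply_ite card, prod_ite]
  have sub : bad g S ⊆ (powersetCard (121 * S.card) R0).biUnion fun R => (P R).biUnion fun f =>
      ((sy N).Omega g).filter fun M => ∀ x ∈ R, M x = f x := by
    intro M hM
    obtain ⟨k1, -, k2⟩ := mem_filter.1 hM
    have a1 : R0.filter (fun x => ¬ (M x).1 ∈ S) ⊆
        HS \ univ.filter fun h : Fin N × Fin 1000 => h.1 ∈ S ∧ (M h).1 ∈ S := fun x hx => by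
      obtain ⟨x1, x2⟩ := mem_filter.1 hx
      exact mem_sdiff.2 ⟨mem_product.2 ⟨(mem_product.1 x1).1, mem_univ _⟩,
        fun e => x2 (mem_filter.1 e).2.2⟩
    have a2 := card_le_card a1
    rw [card_sdiff_of_subset fun x hx => mem_product.2 ⟨(mem_filter.1 hx).2.1, mem_univ _⟩,
      ← hHS] at a2
    have a3 := card_filter_add_card_filter_not (s := R0) fun x => (M x).1 ∈ S
    obtain ⟨R, r1, r2⟩ := exists_subset_card_eq (s := R0.filter fun x => (M x).1 ∈ S)
      (n := 121 * S.card) (by omega)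
    refine mem_biUnion.2 ⟨R, mem_powersetCard.2 ⟨r1.trans (filter_subset _ _), r2⟩,
      mem_biUnion.2 ⟨fun x => if x ∈ R then M x else x, Fintype.mem_piFinset.2 fun x => ?_,
        mem_filter.2 ⟨k1, fun x hx => by simp only [if_pos hx]⟩⟩⟩
    split_ifs with hx
    · exact mem_product.2 ⟨(mem_filter.1 (r1 hx)).2, mem_univ _⟩
    · exact mem_singleton_self _
  refine (Nat.mul_le_mul_right _ ((card_le_card sub).trans card_biUnion_le)).trans ?_
  rw [sum_mul, ← c0, ← card_powersetCard]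
  refine (sum_le_card_nsmul _ _ _ fun R hR => ?_).trans (le_of_eq (smul_eq_mul _ _))
  obtain ⟨r1, r2⟩ := mem_powersetCard.1 hR
  refine (Nat.mul_le_mul_right _ card_biUnion_le).trans ?_
  have r3 : 2 * R.card ≤ 121 * N := by omega
  rw [sum_mul, ← r2, ← c2]
  exact (sum_le_card_nsmul _ _ _ fun f _ => fix hN R
    (fun x hx => (mem_filter.1 (mem_product.1 (r1 hx)).2).2) r3 f).trans
    (le_of_eq (smul_eq_mul _ _))

lemma choose_le (n k : ℕ) (h : k ≤ n) : n.choose k * 16 ^ k ≤ 17 ^ n := by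
  rw [show 17 = 16 + 1 by norm_num, add_pow]
  refine le_trans (le_of_eq ?_) (single_le_sum (f := fun m => 16 ^ m * 1 ^ (n - m) *
    (n.choose m : ℕ)) (fun _ _ => Nat.zero_le _) (mem_range.2 (Nat.lt_succ_of_le h)))
  simp [mul_comm]

lemma base {x n p q c d : ℝ} (k : ℕ) (x0 : 0 ≤ x) (x1 : x ≤ 1 / 2) (n0 : 0 ≤ n) (p0 : 0 ≤ p)
    (c0 : 0 ≤ c) (e2 : p * c ^ (k + 1) * (1 / 2) ^ k ≤ q * d ^ (k + 1) / 12) :
    p * (c * (x * n)) ^ (k + 1) ≤ x / 12 * (q * (d * n) ^ (k + 1)) := by
  have e1 : x ^ k ≤ (1 / 2) ^ k := pow_le_pow_left₀ x0 x1 _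
  have e3 : 0 ≤ x * n ^ (k + 1) := by positivity
  calc p * (c * (x * n)) ^ (k + 1) = p * c ^ (k + 1) * x ^ k * (x * n ^ (k + 1)) := by ring
    _ ≤ q * d ^ (k + 1) / 12 * (x * n ^ (k + 1)) :=
      mul_le_mul_of_nonneg_right ((mul_le_mul_of_nonneg_left e1 (by positivity)).trans e2) e3
    _ = _ := by ring

lemma num : (17 : ℝ) ^ 125 * 1000 ^ (120 + 1) * (1 / 2) ^ 120 ≤ 16 ^ 121 * 620 ^ (120 + 1) / 12 := by
  norm_num

lemma fin_ineq {b u v c s t w y : ℝ} (v0 : 0 < v) (u0 : 0 < u) (s0 : 0 ≤ s) (w0 : 0 ≤ w)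
    (h1 : b * u ≤ c * (s * w)) (h2 : c * v ≤ t) (h4 : t * s ≤ y * (v * u)) : b ≤ w * y := by
  refine le_of_mul_le_mul_right (a := v * u) ?_ (by positivity)
  calc b * (v * u) = b * u * v := by ring
    _ ≤ c * (s * w) * v := mul_le_mul_of_nonneg_right h1 v0.le
    _ = c * v * s * w := by ring
    _ ≤ t * s * w := by gcongr
    _ ≤ y * (v * u) * w := by gcongr
    _ = _ := by ring

lemma bad_real (hN : 1000 ^ (g + 5) ≤ N) (S : Finset (Fin N)) :
    ((bad g S).card : ℝ) ≤ ((sy N).Omega g).card *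
      if S.card = 0 then 0 else ((S.card : ℝ) / N / 12) ^ S.card := by
  have hN0 : (0 : ℝ) < N := by exact_mod_cast lt_of_lt_of_le (by positivity) hN
  by_cases hS : 2 * S.card ≤ N
  swap
  · rw [bad, filter_false_of_mem fun M _ e => hS e.1, card_empty, Nat.cast_zero]
    split_ifs <;> positivity
  split_ifs with h0
  · rw [card_eq_zero.1 h0, bad, filter_false_of_mem fun M _ e => by simpa using e.2]; simp
  set a := S.card with ha
  have p1 : (0 : ℝ) < 16 ^ (121 * a) := by positivity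
  have p2 : (0 : ℝ) < (620 * N) ^ (121 * a) := by positivity
  have p3 : (0 : ℝ) ≤ (1000 * a) ^ (121 * a) := by positivity
  have p4 : (0 : ℝ) ≤ 17 ^ 125 * (1000 * a) ^ 121 := by positivity
  have p5 : (0 : ℝ) ≤ 17 ^ 125 := by positivity
  have h1 := bad_nat hN S hS
  have h2 := choose_le (125 * a) (121 * a) (by omega)
  set x : ℝ := a / N with hx
  have x0 : 0 ≤ x := by positivity
  have x1 : x ≤ 1 / 2 := by
    rw [hx, div_le_iff₀ hN0]
    have : (2 * a : ℝ) ≤ N := by exact_mod_cast hS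
    linarith
  have xa : (a : ℝ) = x * N := by rw [hx]; field_simp
  have h3 : (17 : ℝ) ^ 125 * (1000 * a) ^ 121 ≤ x / 12 * (16 ^ 121 * (620 * N) ^ 121) := by
    rw [xa]
    exact base 120 x0 x1 hN0.le p5 (Nat.ofNat_nonneg _) num
  have h4 := pow_le_pow_left₀ p4 h3 a
  rw [mul_pow, mul_pow (x / 12), mul_pow ((16 : ℝ) ^ 121), ← pow_mul, ← pow_mul, ← pow_mul,
    ← pow_mul] at h4
  have h1' : ((bad g S).card : ℝ) * (620 * N) ^ (121 * a) ≤ (125 * a).choose (121 * a) *
      ((1000 * a) ^ (121 * a) * ((sy N).Omega g).card) := by exact_mod_cast h1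
  have h2' : ((125 * a).choose (121 * a) : ℝ) * 16 ^ (121 * a) ≤ 17 ^ (125 * a) := by
    exact_mod_cast h2
  exact fin_ineq p1 p2 p3 (Nat.cast_nonneg _) h1' h2' h4

lemma term (N a : ℕ) (hN : 0 < N) : (N.choose a : ℝ) * ((a : ℝ) / N / 12) ^ a ≤ (1 / 4) ^ a := by
  have h1 : (N.choose a : ℝ) ≤ (N : ℝ) ^ a / a.factorial := Nat.choose_le_pow_div a N
  have h2 : (a : ℝ) ^ a / a.factorial ≤ Real.exp a :=
    Real.pow_div_factorial_le_exp _ (by positivity) a
  have h3 : Real.exp a ≤ 3 ^ a := by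
    rw [← Real.exp_one_pow]
    exact pow_le_pow_left₀ (by positivity) (by linarith [Real.exp_one_lt_d9]) a
  have hN' : (N : ℝ) ≠ 0 := by positivity
  calc (N.choose a : ℝ) * ((a : ℝ) / N / 12) ^ a
      ≤ (N : ℝ) ^ a / a.factorial * ((a : ℝ) / N / 12) ^ a := by gcongr
    _ = (a : ℝ) ^ a / a.factorial * (1 / 12) ^ a := by
      rw [div_pow, div_pow, div_pow, one_pow]; field_simp
    _ ≤ 3 ^ a * (1 / 12) ^ a := by gcongr; exact h2.trans h3
    _ = _ := by rw [← mul_pow]; norm_num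

lemma geo (n : ℕ) : ∑ a ∈ range (n + 1), (if a = 0 then 0 else (1 / 4 : ℝ) ^ a) =
    (1 - (1 / 4) ^ n) / 3 := by
  induction n with
  | zero => simp
  | succ n ih => rw [sum_range_succ, ih, if_neg (by omega)]; ring

end PA

open PA in
theorem graph (g N : ℕ) (hN : 1000 ^ (g + 5) ≤ N) :
    ∃ M : Fin N × Fin 1000 → Fin N × Fin 1000, (∀ h, M (M h) = h) ∧ Gir M g ∧
      ∀ B : Finset (Fin N), 2 * B.card ≤ N →
        (univ.filter fun h : Fin N × Fin 1000 => h.1 ∈ B ∧ (M h).1 ∈ B).card ≤ 996 * B.card := by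
  have hN0 : 0 < N := lt_of_lt_of_le (by positivity) hN
  have hne := omega_nonempty (sy N) (bd N) (by norm_num) g (exm N) (by
    rw [Fintype.card_prod, Fintype.card_fin, Fintype.card_fin]
    rw [pow_succ] at hN; omega)
  have hpos : (0 : ℝ) < ((sy N).Omega g).card := by exact_mod_cast hne.card_pos
  have h1 : ((((univ : Finset (Fin N)).powerset.biUnion (bad g)).card : ℕ) : ℝ) <
      ((sy N).Omega g).card := by
    refine lt_of_le_of_lt (Nat.cast_le.2 card_biUnion_le) ?_
    rw [Nat.cast_sum]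
    refine (sum_le_sum fun S _ => bad_real hN S).trans_lt ?_
    rw [← mul_sum, sum_powerset_apply_card
      (fun a : ℕ => if a = 0 then (0 : ℝ) else ((a : ℝ) / N / 12) ^ a), card_univ,
      Fintype.card_fin]
    refine mul_lt_of_lt_one_right hpos ((sum_le_sum fun a _ => ?_).trans_lt
      ((geo N).trans_lt (by have : (0 : ℝ) < (1 / 4) ^ N := by positivity
                            linarith)))
    rw [nsmul_eq_mul]
    split_ifs
    · simp
    · exact term N a hN0
  obtain ⟨M, m1, m2⟩ := exists_mem_notMem_of_card_lt_card (Nat.cast_lt.1 h1)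
  obtain ⟨k1, k2⟩ := B.mem_Omega.1 m1
  refine ⟨M, fun h => (k1 h).1, k2, fun S hS => not_lt.1 fun hlt => m2 ?_⟩
  exact mem_biUnion.2 ⟨S, mem_powerset.2 (subset_univ _), mem_filter.2 ⟨m1, hS, hlt⟩⟩

end Vale.Agent.P089
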