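import Vale.Agent.P089.Defs

namespace Vale.Agent.P089

open Finset MeasureTheory Filter Topology

namespace F2

variable {Γ : Type} [Group Γ] {H : Type} [NormedAddCommGroup H] [InnerProductSpace ℂ H]

lemma ext_b (b : HilbertBasis Γ ℂ H) {S T : H →L[ℂ] H} (h : ∀ g, S (b g) = T (b g)) : S = T :=
  ContinuousLinearMap.ext_on (s := Set.range b)
    (Submodule.dense_iff_topologicalClosure_eq_top.mpr b.dense_span)
    (by rintro _ ⟨g, rfl⟩; exact h g)

/-- The left regular representation as a homomorphism. -/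
noncomputable def rho (b : HilbertBasis Γ ℂ H) (la : Γ → H →L[ℂ] H)
    (hla : ∀ g h, la g (b h) = b (g * h)) : Γ →* (H →L[ℂ] H) where
  toFun := la
  map_one' := ext_b b fun g => by simp [hla]
  map_mul' g h := ext_b b fun k => by simp [hla, mul_assoc]

lemma vec (b : HilbertBasis Γ ℂ H) (la : Γ → H →L[ℂ] H) (hla : ∀ g h, la g (b h) = b (g * h))
    (f : MonoidAlgebra ℂ Γ) : MonoidAlgebra.lift ℂ _ Γ (rho b la hla) f (b 1) =
      Finsupp.linearCombination ℂ b f.coeff := by
  induction f using MonoidAlgebra.induction_linear with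
  | zero => simp
  | add x y hx hy => rw [map_add, ContinuousLinearMap.add_apply, hx, hy, MonoidAlgebra.coeff_add,
      map_add]
  | single m r => simp [rho, hla]

lemma inn (b : HilbertBasis Γ ℂ H) (la : Γ → H →L[ℂ] H) (hla : ∀ g h, la g (b h) = b (g * h))
    (f : MonoidAlgebra ℂ Γ) (k h : Γ) :
    inner ℂ (b k) (MonoidAlgebra.lift ℂ _ Γ (rho b la hla) f (b h)) = f.coeff (k * h⁻¹) := by
  have h1 : b h = MonoidAlgebra.lift ℂ _ Γ (rho b la hla) (MonoidAlgebra.single h 1) (b 1) := by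
    simp [rho, hla]
  rw [h1, ← ContinuousLinearMap.mul_apply, ← map_mul, vec, b.orthonormal.inner_right_finsupp]
  have := MonoidAlgebra.coeff_mul_single_mul f 1 h (k * h⁻¹)
  simpa using this

lemma nsq (b : HilbertBasis Γ ℂ H) (l : Γ →₀ ℂ) :
    ‖Finsupp.linearCombination ℂ b l‖ ^ 2 = l.sum fun _ c => ‖c‖ ^ 2 := by
  have := b.orthonormal.inner_finsupp_eq_sum_left l l
  rw [inner_self_eq_norm_sq_to_K] at this
  have h2 : (l.sum fun i y => (starRingEnd ℂ) y * l i) =
      ((l.sum fun _ c => ‖c‖ ^ 2 : ℝ) : ℂ) := by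
    rw [Finsupp.sum, Finsupp.sum]
    push_cast
    exact sum_congr rfl fun i _ => by rw [Complex.conj_mul']
  rw [h2] at this
  have h3 : ((‖Finsupp.linearCombination ℂ b l‖ ^ 2 : ℝ) : ℂ) =
      ((l.sum fun _ c => ‖c‖ ^ 2 : ℝ) : ℂ) := by
    rw [← this]; push_cast; rfl
  exact_mod_cast h3

end F2

theorem proj {Γ : Type} [Group Γ] (T : MonoidAlgebra ℂ Γ)
    (h1 : ∀ g, T.coeff g⁻¹ = (starRingEnd ℂ) (T.coeff g))
    (h2 : ∀ (f : MonoidAlgebra ℂ Γ) (k : ℕ),
      (((T ^ (k + 1) - T ^ k) * f).coeff.sum fun _ c => ‖c‖ ^ 2) ≤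
        4 * th ^ (2 * k) * f.coeff.sum fun _ c => ‖c‖ ^ 2)
    (t : ℂ) (h3 : Tendsto (fun k => (T ^ k).coeff 1) atTop (𝓝 t))
    {H : Type} [NormedAddCommGroup H] [InnerProductSpace ℂ H] [CompleteSpace H]
    (b : HilbertBasis Γ ℂ H) (la : Γ → H →L[ℂ] H) (hla : ∀ g h, la g (b h) = b (g * h)) :
    ∃ P ∈ closure (Submodule.span ℂ (Set.range la) : Set (H →L[ℂ] H)),
      IsStarProjection P ∧ inner ℂ (b 1) (P (b 1)) = t := by
  set L := MonoidAlgebra.lift ℂ _ Γ (F2.rho b la hla) with hL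
  have t0 : 0 < th := by unfold th; norm_num
  have t1 : th < 1 := by unfold th; norm_num
  have hb : ∀ k, ‖L (T ^ (k + 1)) - L (T ^ k)‖ ≤ 2 * th ^ k := by
    intro k
    rw [← map_sub]
    refine ContinuousLinearMap.opNorm_le_bound _ (by positivity) fun x => ?_
    have hd : Dense (Submodule.span ℂ (Set.range b) : Set H) :=
      Submodule.dense_iff_topologicalClosure_eq_top.mpr b.dense_span
    refine hd.induction ?_ (isClosed_le (by fun_prop) (by fun_prop)) x
    intro y hy
    rw [← Finsupp.range_linearCombination] at hy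
    obtain ⟨l, rfl⟩ := hy
    have e1 := F2.vec b la hla (MonoidAlgebra.ofCoeff l)
    have e2 := F2.vec b la hla ((T ^ (k + 1) - T ^ k) * MonoidAlgebra.ofCoeff l)
    rw [map_mul, ContinuousLinearMap.mul_apply, e1] at e2
    refine le_of_pow_le_pow_left₀ two_ne_zero (by positivity) ?_
    have e3 := h2 (MonoidAlgebra.ofCoeff l) k
    rw [← F2.nsq b, ← F2.nsq b, ← e2] at e3
    calc _ ≤ _ := e3
      _ = _ := by ring
  obtain ⟨P, hP⟩ := cauchySeq_tendsto_of_complete
    (cauchySeq_of_le_geometric th 2 t1 (f := fun k => L (T ^ k)) fun k => by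
      rw [dist_comm, dist_eq_norm]; exact hb k)
  have hs : star (L T) = L T := by
    refine F2.ext_b b fun h => b.repr.injective (lp.ext (funext fun k => ?_))
    rw [b.repr_apply_apply, b.repr_apply_apply, ContinuousLinearMap.star_eq_adjoint,
      ContinuousLinearMap.adjoint_inner_right, ← inner_conj_symm, hL, F2.inn, F2.inn, ← h1]
    simp
  refine ⟨P, mem_closure_of_tendsto hP (Eventually.of_forall fun k => ?_), ⟨?_, ?_⟩, ?_⟩
  · rw [hL, MonoidAlgebra.lift_apply]
    exact Submodule.sum_mem _ fun g _ => Submodule.smul_mem _ _ (Submodule.subset_span ⟨g, rfl⟩)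
  · have a := hP.mul hP
    have c := hP.comp (tendsto_atTop_mono (f := fun k : ℕ => k) (g := fun k => k + k)
      (fun k => Nat.le_add_right k k) tendsto_id)
    refine tendsto_nhds_unique a (c.congr fun k => ?_)
    simp only [Function.comp, pow_add, map_mul]
  · refine tendsto_nhds_unique hP.star (hP.congr fun k => ?_)
    rw [map_pow, star_pow, hs]
  · have a : Tendsto (fun k => inner ℂ (b 1) (L (T ^ k) (b 1))) atTop
        (𝓝 (inner ℂ (b 1) (P (b 1)))) :=
      ((by fun_prop : Continuous fun S : H →L[ℂ] H => inner ℂ (b 1) (S (b 1))).tendsto P).comp hP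
    refine tendsto_nhds_unique a (h3.congr fun k => ?_)
    rw [hL, F2.inn]
    simp

end Vale.Agent.P089
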